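import Mathlib

/-!
# Layer removal (helper2): the class colLen 0 <= t+1 is closed under removal of a layer of 2t-1 cells with at most 4 cells per column
-/

open Finset

namespace Vale.Agent.Lib.P197Z.LayerH2

/-- Removing a corner keeps a Young diagram: the cell `c` is maximal. -/
def eraseCorner (B : YoungDiagram) (c : ℕ × ℕ) (_hc : c ∈ B)
    (hmax : ∀ d ∈ B, c ≤ d → d = c) : YoungDiagram where
  cells := B.cells.erase c
  isLowerSet := by
    intro a b hab ha
    simp only [coe_erase, Set.mem_sdiff, mem_coe, Set.mem_singleton_iff] at ha ⊢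
    refine ⟨B.isLowerSet hab ha.1, ?_⟩
    rintro rfl
    exact ha.2 (hmax a ha.1 hab)

/-- Intervals of Young diagrams contain all intermediate sizes. -/
theorem exists_between (A B : YoungDiagram) (hAB : A.cells ⊆ B.cells) (k : ℕ)
    (h1 : A.card ≤ k) (h2 : k ≤ B.card) :
    ∃ C : YoungDiagram, A.cells ⊆ C.cells ∧ C.cells ⊆ B.cells ∧ C.card = k := by
  induction hd : B.card - k generalizing B with
  | zero =>
    exact ⟨B, hAB, Subset.rfl, by omega⟩
  | succ d ih =>
    have hlt : A.cells.card < B.cells.card := by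
      have : A.card < B.card := by omega
      exact this
    -- a cell of `B` outside `A`, maximal for `i + j`
    have hne : (B.cells \ A.cells).Nonempty := by
      by_contra hempty
      rw [Finset.not_nonempty_iff_eq_empty, Finset.sdiff_eq_empty_iff_subset] at hempty
      have := Finset.card_le_card hempty
      omega
    obtain ⟨c, hc, hcmax⟩ := Finset.exists_max_image (B.cells \ A.cells)
      (fun c => c.1 + c.2) hne
    obtain ⟨hcB, hcA⟩ := Finset.mem_sdiff.1 hc
    have hmax : ∀ d ∈ B, c ≤ d → d = c := by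
      intro d hd hcd
      by_contra hne'
      have hdA : d ∉ A.cells := by
        intro hdA
        exact hcA (A.isLowerSet hcd hdA)
      have h0 : d.1 + d.2 ≤ c.1 + c.2 := hcmax d (Finset.mem_sdiff.2 ⟨hd, hdA⟩)
      have h3 : c.1 ≤ d.1 := hcd.1
      have h4 : c.2 ≤ d.2 := hcd.2
      apply hne'
      apply Prod.ext
      · omega
      · omega
    let B' := eraseCorner B c hcB hmax
    have hB' : B'.cells = B.cells.erase c := rfl
    have hcard : B'.card + 1 = B.card := by
      show B'.cells.card + 1 = B.cells.card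
      rw [hB', Finset.card_erase_of_mem hcB]
      have : 0 < B.cells.card := Finset.card_pos.2 ⟨c, hcB⟩
      omega
    have hAB' : A.cells ⊆ B'.cells := by
      intro a ha
      rw [hB']
      refine Finset.mem_erase.2 ⟨?_, hAB ha⟩
      rintro rfl
      exact hcA ha
    obtain ⟨C, h5, h6, h7⟩ := ih B' hAB' (by omega) (by omega)
    exact ⟨C, h5, h6.trans (by rw [hB']; exact Finset.erase_subset _ _), h7⟩

/-- The diagram of cells `(i, j)` with `(i + s, j) ∈ ν`. -/
def shiftDown (ν : YoungDiagram) (s : ℕ) : YoungDiagram where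
  cells := (ν.cells.filter fun c => s ≤ c.1).image fun c => (c.1 - s, c.2)
  isLowerSet := by
    intro a b hab ha
    simp only [coe_image, coe_filter, Set.mem_image, Set.mem_ofPred_eq] at ha ⊢
    obtain ⟨c, ⟨hc1, hc2⟩, rfl⟩ := ha
    refine ⟨(b.1 + s, b.2), ⟨?_, by simp⟩, by simp⟩
    have h1 : b.1 ≤ c.1 - s := hab.1
    have h2 : b.2 ≤ c.2 := hab.2
    have h3 : (b.1 + s, b.2) ≤ c := ⟨by simp only []; omega, h2⟩
    exact ν.isLowerSet h3 hc1

theorem mem_shiftDown (ν : YoungDiagram) (s : ℕ) (c : ℕ × ℕ) :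
    c ∈ shiftDown ν s ↔ (c.1 + s, c.2) ∈ ν := by
  show c ∈ (ν.cells.filter fun c => s ≤ c.1).image (fun c => (c.1 - s, c.2)) ↔ _
  simp only [Finset.mem_image, Finset.mem_filter]
  constructor
  · rintro ⟨d, ⟨hd, hs⟩, rfl⟩
    have : (d.1 - s + s, d.2) = d := by
      apply Prod.ext <;> simp <;> omega
    simpa [this] using hd
  · intro h
    exact ⟨(c.1 + s, c.2), ⟨h, by simp⟩, by simp⟩

/-- The diagram of cells of `ν` in rows `< s`. -/
def truncRows (ν : YoungDiagram) (s : ℕ) : YoungDiagram where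
  cells := ν.cells.filter fun c => c.1 < s
  isLowerSet := by
    intro a b hab ha
    simp only [coe_filter, Set.mem_ofPred_eq] at ha ⊢
    exact ⟨ν.isLowerSet hab ha.1, lt_of_le_of_lt hab.1 ha.2⟩

theorem mem_truncRows (ν : YoungDiagram) (s : ℕ) (c : ℕ × ℕ) :
    c ∈ truncRows ν s ↔ c ∈ ν ∧ c.1 < s := by
  show c ∈ ν.cells.filter _ ↔ _
  simp [Finset.mem_filter]

/-- Cells in the first `s` rows. -/
theorem card_top (ν : YoungDiagram) (s : ℕ) :
    (truncRows ν s).card = ∑ i ∈ range s, ν.rowLen i := by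
  show (ν.cells.filter fun c => c.1 < s).card = _
  have hmaps : ∀ c ∈ ν.cells.filter (fun c => c.1 < s), c.1 ∈ range s := by
    intro c hc
    exact Finset.mem_range.2 (Finset.mem_filter.1 hc).2
  rw [Finset.card_eq_sum_card_fiberwise hmaps]
  apply Finset.sum_congr rfl
  intro i hi
  have hiD : i < s := Finset.mem_range.1 hi
  have heq : ((ν.cells.filter fun c => c.1 < s).filter fun c => c.1 = i) =
      (range (ν.rowLen i)).image fun j => (i, j) := by
    ext c
    simp only [Finset.mem_filter, Finset.mem_image, Finset.mem_range]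
    constructor
    · rintro ⟨⟨h1, _⟩, rfl⟩
      exact ⟨c.2, YoungDiagram.mem_iff_lt_rowLen.1 (show (c.1, c.2) ∈ ν from h1), rfl⟩
    · rintro ⟨j, hj, rfl⟩
      exact ⟨⟨YoungDiagram.mem_iff_lt_rowLen.2 hj, hiD⟩, rfl⟩
  rw [heq, Finset.card_image_of_injective _ (fun a b hab => by simpa using hab), Finset.card_range]

/-- Cells and the sum of the row lengths, for `colLen 0 ≤ s`. -/
theorem card_eq_sum_rows (ν : YoungDiagram) {s : ℕ} (h : ν.colLen 0 ≤ s) :
    ν.card = ∑ i ∈ range s, ν.rowLen i := by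
  rw [← card_top]
  show ν.cells.card = (ν.cells.filter fun c => c.1 < s).card
  congr 1
  symm
  apply Finset.filter_true_of_mem
  intro c hc
  have h0 : (c.1, 0) ∈ ν := ν.up_left_mem le_rfl (Nat.zero_le _) (show (c.1, c.2) ∈ ν from hc)
  have := YoungDiagram.mem_iff_lt_colLen.1 h0
  omega

/-- The shifted diagram has the cells below the first `s` rows. -/
theorem card_shift_add_top (ν : YoungDiagram) (s : ℕ) :
    (shiftDown ν s).card + ∑ i ∈ range s, ν.rowLen i = ν.card := by
  rw [← card_top]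
  show ((ν.cells.filter fun c => s ≤ c.1).image fun c => (c.1 - s, c.2)).card +
    (ν.cells.filter fun c => c.1 < s).card = ν.cells.card
  rw [Finset.card_image_of_injOn]
  · have := Finset.card_filter_add_card_filter_not (s := ν.cells) (fun c : ℕ × ℕ => s ≤ c.1)
    have h2 : (ν.cells.filter fun c => ¬ s ≤ c.1) = ν.cells.filter fun c => c.1 < s := by
      ext c; simp
    rw [h2] at this
    exact this
  · intro a ha b hb hab
    have h1 : s ≤ a.1 := (Finset.mem_filter.1 (Finset.mem_coe.1 ha)).2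
    have h2 : s ≤ b.1 := (Finset.mem_filter.1 (Finset.mem_coe.1 hb)).2
    have h3 : a.1 - s = b.1 - s := (Prod.mk.inj hab).1
    have h4 : a.2 = b.2 := (Prod.mk.inj hab).2
    exact Prod.ext (by omega) h4

/-- Chebyshev for antitone row lengths. -/
theorem cheb (a : ℕ → ℕ) (ha : Antitone a) {k Q : ℕ} (h : k ≤ Q) :
    k * ∑ i ∈ range Q, a i ≤ Q * ∑ i ∈ range k, a i := by
  have hsplit : ∑ i ∈ range Q, a i = ∑ i ∈ range k, a i + ∑ i ∈ Ico k Q, a i := by
    rw [Finset.range_eq_Ico, Finset.range_eq_Ico, Finset.sum_Ico_consecutive _ (Nat.zero_le _) h]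
  have h1 : ∑ i ∈ Ico k Q, a i ≤ (Q - k) * a k := by
    calc ∑ i ∈ Ico k Q, a i ≤ ∑ _i ∈ Ico k Q, a k :=
          Finset.sum_le_sum fun i hi => ha (Finset.mem_Ico.1 hi).1
      _ = (Q - k) * a k := by simp
  have h2 : k * a k ≤ ∑ i ∈ range k, a i := by
    calc k * a k = ∑ _i ∈ range k, a k := by simp
      _ ≤ ∑ i ∈ range k, a i := Finset.sum_le_sum fun i hi =>
          ha (Finset.mem_range.1 hi).le
  rw [hsplit]
  obtain ⟨d, rfl⟩ : ∃ d, Q = k + d := ⟨Q - k, by omega⟩
  have h3 : k + d - k = d := by omega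
  rw [h3] at h1
  nlinarith [Nat.mul_le_mul_left k h1, Nat.mul_le_mul_left d h2]

/-- A layer: for a diagram of `N t` cells with at most `t + 1` rows there is `β ⊆ ν` with `N (t-2)`
cells and at most `t - 1` rows such that `ν / β` has at most four cells in each column. -/
theorem exists_layer (ν : YoungDiagram) (t : ℕ) (ht : 2 ≤ t)
    (hcard : 2 * ν.card = t * (t + 1)) (hrows : ν.colLen 0 ≤ t + 1) :
    ∃ β : YoungDiagram, β.cells ⊆ ν.cells ∧ 2 * β.card = (t - 2) * (t - 1) ∧ β.colLen 0 ≤ t - 1 ∧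
      ∀ c, (c.1 + 4, c.2) ∈ ν → c ∈ β := by
  obtain ⟨s, rfl⟩ : ∃ s, t = s + 2 := ⟨t - 2, by omega⟩
  have hanti : Antitone ν.rowLen := fun a b hab => ν.rowLen_anti a b hab
  have hsum : ν.card = ∑ i ∈ range (s + 3), ν.rowLen i := card_eq_sum_rows ν (by omega)
  -- capacity of the top four rows
  have htop : 2 * (s + 2) - 1 ≤ ∑ i ∈ range 4, ν.rowLen i := by
    by_cases h4 : 4 ≤ s + 3
    · have h5 := cheb ν.rowLen hanti h4
      rw [← hsum] at h5
      have h6 : 4 * (2 * ν.card) ≤ 2 * ((s + 3) * ∑ i ∈ range 4, ν.rowLen i) := by omega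
      rw [hcard] at h6
      have h7 : (s + 3) * (2 * (s + 2)) ≤ (s + 3) * ∑ i ∈ range 4, ν.rowLen i := by nlinarith
      have h8 := Nat.le_of_mul_le_mul_left h7 (by omega)
      omega
    · have hs : s = 0 := by omega
      subst hs
      have h5 : ν.card = ∑ i ∈ range 4, ν.rowLen i := card_eq_sum_rows ν (by omega)
      omega
  -- the bottom two rows are short
  have hb1 : (s + 2) * ν.rowLen (s + 1) ≤ ν.card := by
    calc (s + 2) * ν.rowLen (s + 1) = ∑ _i ∈ range (s + 2), ν.rowLen (s + 1) := by simp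
      _ ≤ ∑ i ∈ range (s + 2), ν.rowLen i := Finset.sum_le_sum fun i hi =>
          hanti (by have := Finset.mem_range.1 hi; omega)
      _ ≤ ∑ i ∈ range (s + 3), ν.rowLen i := by
          rw [Finset.sum_range_succ _ (s + 2)]; omega
      _ = ν.card := hsum.symm
  have hb2 : (s + 3) * ν.rowLen (s + 2) ≤ ν.card := by
    calc (s + 3) * ν.rowLen (s + 2) = ∑ _i ∈ range (s + 3), ν.rowLen (s + 2) := by simp
      _ ≤ ∑ i ∈ range (s + 3), ν.rowLen i := Finset.sum_le_sum fun i hi =>
          hanti (by have := Finset.mem_range.1 hi; omega)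
      _ = ν.card := hsum.symm
  have hb1' : 2 * ν.rowLen (s + 1) ≤ s + 3 := by
    have h6 : (s + 2) * (2 * ν.rowLen (s + 1)) ≤ (s + 2) * (s + 3) := by nlinarith
    exact Nat.le_of_mul_le_mul_left h6 (by omega)
  have hb2' : 2 * ν.rowLen (s + 2) ≤ s + 2 := by
    have h6 : (s + 3) * (2 * ν.rowLen (s + 2)) ≤ (s + 3) * (s + 2) := by nlinarith
    exact Nat.le_of_mul_le_mul_left h6 (by omega)
  -- the two extreme diagrams
  have hshift := card_shift_add_top ν 4
  have htrunc : (truncRows ν (s + 1)).card + ν.rowLen (s + 1) + ν.rowLen (s + 2) = ν.card := by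
    rw [card_top, hsum, Finset.sum_range_succ _ (s + 2), Finset.sum_range_succ _ (s + 1)]
  have hsub : (shiftDown ν 4).cells ⊆ (truncRows ν (s + 1)).cells := by
    intro c hc
    have h1 : (c.1 + 4, c.2) ∈ ν := (mem_shiftDown ν 4 c).1 hc
    have h2 : c ∈ ν := ν.up_left_mem (by omega) le_rfl h1
    have h3 : c.1 + 4 < ν.colLen c.2 := YoungDiagram.mem_iff_lt_colLen.1 h1
    have h4 : ν.colLen c.2 ≤ ν.colLen 0 := ν.colLen_anti 0 c.2 (Nat.zero_le _)
    exact (mem_truncRows ν (s + 1) c).2 ⟨h2, by omega⟩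
  have hk : 2 * ((s * (s + 1)) / 2) = s * (s + 1) := by
    exact Nat.two_mul_div_two_of_even (Nat.even_mul_succ_self s)
  have hcard' : 2 * ν.card = (s + 2) * (s + 3) := by simpa using hcard
  have hexp : (s + 2) * (s + 3) = s * (s + 1) + 2 * (2 * (s + 2) - 1) := by
    have : 2 * (s + 2) - 1 = 2 * s + 3 := by omega
    rw [this]; ring
  obtain ⟨β, h5, h6, h7⟩ := exists_between (shiftDown ν 4) (truncRows ν (s + 1)) hsub
    (s * (s + 1) / 2) (by omega) (by
      nlinarith)
  refine ⟨β, ?_, ?_, ?_, ?_⟩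
  · intro c hc
    exact ((mem_truncRows ν (s + 1) c).1 (h6 hc)).1
  · rw [h7]
    simpa using hk
  · have h8 : ∀ i, i < β.colLen 0 → i < s + 1 := by
      intro i hi
      have h9 : (i, 0) ∈ β := YoungDiagram.mem_iff_lt_colLen.2 hi
      exact ((mem_truncRows ν (s + 1) (i, 0)).1 (h6 h9)).2
    by_cases h0 : β.colLen 0 = 0
    · omega
    · have := h8 (β.colLen 0 - 1) (by omega)
      show β.colLen 0 ≤ s + 2 - 1
      omega
  · intro c hc
    exact h5 ((mem_shiftDown ν 4 c).2 hc)

end Vale.Agent.Lib.P197Z.LayerH2
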