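import Vale.Agent.Lib.P197Z.Defs
import Vale.Agent.Lib.P197Z.LayerH2

/-!
# P197Z: existence of the layers (blueprint Sec 7)

The greedy step is `LayerH2.exists_layer`: the chain of layers follows by induction on `t`.
-/

open Equiv Finset

namespace Vale.Agent.Lib.P197Z

open Vale.Agent.Lib.P197 Vale.Agent.Lib.P197W Vale.Agent.Lib.P197X

/-- **Few rows give the layers.** -/
theorem layerable_of_rows (t : ℕ) (ν : YoungDiagram) (hν : ν.card = NN t)
    (hrows : ν.colLen 0 ≤ t + 1) : Layerable t ν := by
  induction t using Nat.strong_induction_on generalizing ν with
  | _ t ih =>
    rcases Nat.lt_or_ge t 2 with h2 | h2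
    · interval_cases t
      · exact Layerable.zero ν (by simpa [NN] using hν)
      · have hc : ν.card = 1 := by simpa [NN] using hν
        refine Layerable.step ν ⊥ (le_refl 1) ?_ ?_ ?_ (Layerable.zero ⊥ ?_)
        · intro c hc'
          exact absurd hc' (by simp)
        · simp [hc]
        · intro j
          have hle : ν.colLen j ≤ ν.card := by
            by_contra hlt
            push Not at hlt
            have hcol : ν.colLen j ≤ 1 + 0 := by
              by_contra hcol
              push Not at hcol
              have h0 : (0, j) ∈ ν := YoungDiagram.mem_iff_lt_colLen.mpr (by omega)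
              have h1 : (1, j) ∈ ν := YoungDiagram.mem_iff_lt_colLen.mpr (by omega)
              have hs : ({(0, j), (1, j)} : Finset (ℕ × ℕ)) ⊆ ν.cells := by
                intro x hx
                simp only [Finset.mem_insert, Finset.mem_singleton] at hx
                rcases hx with rfl | rfl
                · simpa using h0
                · simpa using h1
              have := Finset.card_le_card hs
              rw [Finset.card_pair (by simp)] at this
              have hcc : ν.cells.card = ν.card := rfl
              omega
            omega
          simp only [YoungDiagram.colLen] at hle ⊢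
          omega
        · simp
    · obtain ⟨t', rfl⟩ : ∃ t', t = t' + 2 := ⟨t - 2, by omega⟩
      have h2N : 2 * ν.card = (t' + 2) * (t' + 2 + 1) := by
        rw [hν]
        exact Nat.two_mul_div_two_of_even (by
          simpa [Nat.mul_comm] using Nat.even_mul_succ_self (t' + 2))
      obtain ⟨β, hsub, hβcard, hβcol, hβshift⟩ :=
        Vale.Agent.Lib.P197Z.LayerH2.exists_layer ν (t' + 2) h2 h2N hrows
      have hβcard' : 2 * β.card = t' * (t' + 1) := by
        have e1 : t' + 2 - 2 = t' := by omega
        have e2 : t' + 2 - 1 = t' + 1 := by omega
        rw [e1, e2] at hβcard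
        exact hβcard
      have hβN : β.card = NN t' := by
        have : NN t' = t' * (t' + 1) / 2 := rfl
        omega
      refine Layerable.step ν β (by omega) ?_ ?_ ?_ ?_
      · intro c hc
        have : c ∈ β.cells := by simpa using hc
        simpa using hsub this
      · have e : 2 * (t' + 2) - 1 = 2 * t' + 3 := by omega
        rw [e]
        nlinarith
      · intro j
        by_contra hlt
        push Not at hlt
        have hm : (ν.colLen j - 1 - 4 + 4, j) ∈ ν :=
          YoungDiagram.mem_iff_lt_colLen.mpr (by omega)
        have hb := hβshift (ν.colLen j - 1 - 4, j) hm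
        have := YoungDiagram.mem_iff_lt_colLen.mp hb
        omega
      · exact ih t' (by omega) β hβN (by
          have e2 : t' + 2 - 1 = t' + 1 := by omega
          rw [e2] at hβcol
          exact hβcol)

end Vale.Agent.Lib.P197Z
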