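import Vale.Agent.Lib.P197Z.PtBasic

/-!
# P197Z: the symmetrizer of a union of a layer and an inner filling (blueprint Sec 4)
-/

open Equiv Finset

namespace Vale.Agent.Lib.P197Z

open Vale.Agent.Lib.P197 Vale.Agent.Lib.P197W Vale.Agent.Lib.P197X

/-- The sum comparison. -/
theorem sum_set_fix {α : Type*} [DecidableEq α] [Fintype α] (f : α → ℤ) (O : Finset α)
    (π : Perm α) (h₁ : ∀ x ∈ O, 0 ≤ f x) (h₂ : ∀ y, y ∉ O → f y < 0)
    (heq : ∑ x ∈ O, f (π x) = ∑ x ∈ O, f x) : ∀ x ∈ O, π x ∈ O := by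
  classical
  set A := O.image π with hA
  have hsum : ∑ y ∈ A, f y = ∑ x ∈ O, f x := by
    rw [hA, Finset.sum_image (fun a _ b _ hab => π.injective hab), heq]
  have h1 : ∑ y ∈ A ∩ O, f y + ∑ y ∈ A \ O, f y = ∑ y ∈ A, f y :=
    Finset.sum_inter_add_sum_sdiff A O f
  have h2 : ∑ y ∈ O ∩ A, f y + ∑ y ∈ O \ A, f y = ∑ y ∈ O, f y :=
    Finset.sum_inter_add_sum_sdiff O A f
  rw [Finset.inter_comm] at h2
  have h3 : ∑ y ∈ A \ O, f y = ∑ y ∈ O \ A, f y := by linarith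
  have h4 : 0 ≤ ∑ y ∈ O \ A, f y :=
    Finset.sum_nonneg (fun y hy => h₁ y (Finset.mem_sdiff.1 hy).1)
  have h5 : A \ O = ∅ := by
    by_contra hne
    have hne' : (A \ O).Nonempty := Finset.nonempty_iff_ne_empty.2 hne
    have h6 : ∑ y ∈ A \ O, f y < 0 :=
      Finset.sum_neg (fun y hy => h₂ y (Finset.mem_sdiff.1 hy).2) hne'
    linarith
  intro x hx
  by_contra hn
  have : π x ∈ A \ O := Finset.mem_sdiff.2 ⟨Finset.mem_image_of_mem _ hx, hn⟩
  rw [h5] at this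
  simp at this

/-- A permutation mapping a finite set into itself permutes it. -/
theorem image_eq_of_maps {α : Type*} [DecidableEq α] (O : Finset α) (π : Perm α)
    (h : ∀ x ∈ O, π x ∈ O) : O.image π = O := by
  apply Finset.eq_of_subset_of_card_le
  · intro y hy
    obtain ⟨x, hx, rfl⟩ := Finset.mem_image.1 hy
    exact h x hx
  · rw [Finset.card_image_of_injective _ π.injective]

theorem sum_comp_of_maps {α M : Type*} [DecidableEq α] [AddCommMonoid M] (f : α → M) (O : Finset α)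
    (π : Perm α) (h : ∀ x ∈ O, π x ∈ O) : ∑ x ∈ O, f (π x) = ∑ x ∈ O, f x := by
  conv_rhs => rw [← image_eq_of_maps O π h]
  rw [Finset.sum_image (fun a _ b _ hab => π.injective hab)]

theorem not_mem_of_maps {α : Type*} [DecidableEq α] (O : Finset α) (π : Perm α)
    (h : ∀ x ∈ O, π x ∈ O) (x : α) (hx : x ∉ O) : π x ∉ O := by
  intro hm
  rw [← image_eq_of_maps O π h] at hm
  obtain ⟨z, hz, hzx⟩ := Finset.mem_image.1 hm
  rw [π.injective hzx] at hz
  exact hx hz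

variable {N k l : ℕ}

/-- The positions of the outer layer. -/
def outerSet (e : Fin N ≃ Fin k ⊕ Fin l) : Finset (Fin N) :=
  (univ : Finset (Fin l)).image (fun y => e.symm (Sum.inr y))

theorem mem_outerSet (e : Fin N ≃ Fin k ⊕ Fin l) (y : Fin l) :
    e.symm (Sum.inr y) ∈ outerSet e :=
  Finset.mem_image.2 ⟨y, Finset.mem_univ _, rfl⟩

theorem not_mem_outerSet (e : Fin N ≃ Fin k ⊕ Fin l) (x : Fin k) :
    e.symm (Sum.inl x) ∉ outerSet e := by
  intro h
  obtain ⟨y, _, hy⟩ := Finset.mem_image.1 h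
  have := congrArg e hy
  simp at this

theorem sum_outerSet {M : Type*} [AddCommMonoid M] (e : Fin N ≃ Fin k ⊕ Fin l)
    (f : Fin N → M) : ∑ z ∈ outerSet e, f z = ∑ y, f (e.symm (Sum.inr y)) := by
  unfold outerSet
  rw [Finset.sum_image]
  intro a _ b _ hab
  have := congrArg e hab
  simpa using this

/-- Positions are inner or outer. -/
theorem pos_cases (e : Fin N ≃ Fin k ⊕ Fin l) (z : Fin N) :
    (∃ x, z = e.symm (Sum.inl x)) ∨ (∃ y, z = e.symm (Sum.inr y)) := by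
  rcases he : e z with x | y
  · left; exact ⟨x, by rw [← he]; simp⟩
  · right; exact ⟨y, by rw [← he]; simp⟩

/-- A column permutation of a sum maps the outer layer into itself. -/
theorem colS_maps_outer (e : Fin N ≃ Fin k ⊕ Fin l) {r c : Fin k → ℕ} {r' c' : Fin l → ℕ}
    {rp cp : Fin N → ℕ} (h : IsSum e r c r' c' rp cp) {q : Perm (Fin N)} (hq : q ∈ colS cp) :
    ∀ z ∈ outerSet e, q z ∈ outerSet e := by
  intro z hz
  obtain ⟨y, _, rfl⟩ := Finset.mem_image.1 hz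
  rcases pos_cases e (q (e.symm (Sum.inr y))) with ⟨x, hx⟩ | ⟨y', hy'⟩
  · exfalso
    have h2 := (Finset.mem_filter.1 hq).2 (e.symm (Sum.inr y))
    rw [hx] at h2
    exact h.col_ne x y h2
  · rw [hy']
    exact mem_outerSet e y'

/-- The sum of the letters of a non zero coefficient on the outer layer. -/
theorem sum_letters_of_pt (e : Fin N ≃ Fin k ⊕ Fin l) {r c : Fin k → ℕ} {r' c' : Fin l → ℕ}
    {rp cp : Fin N → ℕ} (h : IsSum e r c r' c' rp cp) {v : Fin N → ℕ} (hv : pt rp cp v ≠ 0) :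
    ∑ z ∈ outerSet e, v z = ∑ y, r' y := by
  obtain ⟨q₁, hq₁, hq₁'⟩ := exists_of_pt_ne hv
  have h1 : ∑ z ∈ outerSet e, v z = ∑ z ∈ outerSet e, rp (q₁ z) :=
    Finset.sum_congr rfl (fun z _ => (hq₁' z).symm)
  rw [h1, sum_comp_of_maps rp _ q₁ (colS_maps_outer e h hq₁), sum_outerSet]
  exact Finset.sum_congr rfl (fun y _ => h.row_inr y)

/-- The sum of the letters of a non zero coefficient. -/
theorem sum_letters_of_pt_all {n : ℕ} {r c v : Fin n → ℕ} (hv : pt r c v ≠ 0) :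
    ∑ z, v z = ∑ y, r y := by
  obtain ⟨q₁, _, hq₁'⟩ := exists_of_pt_ne hv
  have h1 : ∑ z, v z = ∑ z, r (q₁ z) :=
    Finset.sum_congr rfl (fun z _ => (hq₁' z).symm)
  rw [h1, Equiv.sum_comp q₁ r]

/-- The margins of a word on which the symmetrizer does not vanish. -/
theorem margins_of_YY {n : ℕ} {r₁ c₁ r₂ c₂ r₃ c₃ : Fin n → ℕ} {W : Fin n → ℕ × ℕ}
    (h : YY r₃ c₃ (ptt r₁ c₁ r₂ c₂) W ≠ 0) :
    (∑ y, (W y).1 = ∑ y, r₁ y) ∧ (∑ y, (W y).2 = ∑ y, r₂ y) := by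
  unfold YY at h
  obtain ⟨ρ, _, hρ⟩ := Finset.exists_ne_zero_of_sum_ne_zero h
  obtain ⟨q, _, hq⟩ := Finset.exists_ne_zero_of_sum_ne_zero hρ
  have h3 : ptt r₁ c₁ r₂ c₂ (fun x => W (ρ (q x))) ≠ 0 := right_ne_zero_of_mul hq
  unfold ptt at h3
  have h4 := left_ne_zero_of_mul h3
  have h5 := right_ne_zero_of_mul h3
  have h6 := sum_letters_of_pt_all h4
  have h7 := sum_letters_of_pt_all h5
  constructor
  · rw [← h6]
    exact (Equiv.sum_comp (q.trans ρ) (fun y => (W y).1)).symm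
  · rw [← h7]
    exact (Equiv.sum_comp (q.trans ρ) (fun y => (W y).2)).symm

section
variable (e : Fin N ≃ Fin k ⊕ Fin l)
    {r₁ c₁ r₂ c₂ r₃ c₃ : Fin k → ℕ} {r₁' c₁' r₂' c₂' r₃' c₃' : Fin l → ℕ}
    {r₁p c₁p r₂p c₂p r₃p c₃p : Fin N → ℕ} {h : ℕ → ℕ}

/-- The restriction forced on the terms of the symmetrizer. -/
theorem term_maps_outer
    (h₁ : IsSum e r₁ c₁ r₁' c₁' r₁p c₁p) (h₂ : IsSum e r₂ c₂ r₂' c₂' r₂p c₂p)
    (h₃ : IsLayer e r₃ c₃ r₃' c₃' r₃p c₃p h) (b : ℕ)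
    (W : Fin k → ℕ × ℕ) (W' : Fin l → ℕ × ℕ)
    (hW : ∀ x, (W x).1 + (W x).2 < b) (hW' : ∀ y, b ≤ (W' y).1 + (W' y).2)
    (hm₁ : ∑ y, (W' y).1 = ∑ y, r₁' y) (hm₂ : ∑ y, (W' y).2 = ∑ y, r₂' y)
    {ρ q : Perm (Fin N)} (hρ : ρ ∈ colS r₃p) (hq : q ∈ colS c₃p)
    (hne : ptt r₁p c₁p r₂p c₂p (fun x => Sum.elim W W' (e (ρ (q x)))) ≠ 0) :
    (∀ z ∈ outerSet e, q z ∈ outerSet e) ∧ (∀ z ∈ outerSet e, ρ z ∈ outerSet e) := by
  set Wt : Fin N → ℕ × ℕ := fun z => Sum.elim W W' (e z) with hWt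
  have hWtl : ∀ x, Wt (e.symm (Sum.inl x)) = W x := fun x => by simp [hWt]
  have hWtr : ∀ y, Wt (e.symm (Sum.inr y)) = W' y := fun y => by simp [hWt]
  unfold ptt at hne
  have h4 := left_ne_zero_of_mul hne
  have h5 := right_ne_zero_of_mul hne
  have s1 := sum_letters_of_pt e h₁ h4
  have s2 := sum_letters_of_pt e h₂ h5
  -- the permutation g
  set g : Perm (Fin N) := q.trans ρ with hg
  have hgapply : ∀ x, g x = ρ (q x) := fun x => rfl
  have s3 : ∑ z ∈ outerSet e, ((Wt (g z)).1 + (Wt (g z)).2) =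
      ∑ z ∈ outerSet e, ((Wt z).1 + (Wt z).2) := by
    rw [Finset.sum_add_distrib, Finset.sum_add_distrib]
    have e1 : ∑ z ∈ outerSet e, (Wt (g z)).1 = ∑ y, r₁' y := s1
    have e2 : ∑ z ∈ outerSet e, (Wt (g z)).2 = ∑ y, r₂' y := s2
    have e3 : ∑ z ∈ outerSet e, (Wt z).1 = ∑ y, r₁' y := by
      rw [sum_outerSet, ← hm₁]
      exact Finset.sum_congr rfl (fun y _ => by rw [hWtr])
    have e4 : ∑ z ∈ outerSet e, (Wt z).2 = ∑ y, r₂' y := by
      rw [sum_outerSet, ← hm₂]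
      exact Finset.sum_congr rfl (fun y _ => by rw [hWtr])
    rw [e1, e2, e3, e4]
  have hgO : ∀ z ∈ outerSet e, g z ∈ outerSet e := by
    refine sum_set_fix (fun z => (((Wt z).1 + (Wt z).2 : ℕ) : ℤ) - (b : ℤ)) (outerSet e) g ?_ ?_ ?_
    · intro z hz
      obtain ⟨y, _, rfl⟩ := Finset.mem_image.1 hz
      have := hW' y
      simp only [hWtr]
      omega
    · intro z hz
      rcases pos_cases e z with ⟨x, rfl⟩ | ⟨y, rfl⟩
      · have := hW x
        simp only [hWtl]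
        omega
      · exact absurd (mem_outerSet e y) hz
    · rw [Finset.sum_sub_distrib, Finset.sum_sub_distrib]
      congr 1
      exact_mod_cast s3
  have hρ' : ∀ x, r₃p (ρ x) = r₃p x := (Finset.mem_filter.1 hρ).2
  have hq' : ∀ x, c₃p (q x) = c₃p x := (Finset.mem_filter.1 hq).2
  have hqO : ∀ z ∈ outerSet e, q z ∈ outerSet e := by
    refine sum_set_fix (fun z => (r₃p z : ℤ) - (h (c₃p z) : ℤ)) (outerSet e) q ?_ ?_ ?_
    · intro z hz
      obtain ⟨y, _, rfl⟩ := Finset.mem_image.1 hz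
      have := h₃.ge_inr y
      rw [h₃.row_inr, h₃.col_inr]
      omega
    · intro z hz
      rcases pos_cases e z with ⟨x, rfl⟩ | ⟨y, rfl⟩
      · have := h₃.lt_inl x
        rw [h₃.row_inl, h₃.col_inl]
        omega
      · exact absurd (mem_outerSet e y) hz
    · have e1 : ∀ z, (r₃p (q z) : ℤ) - (h (c₃p (q z)) : ℤ) = (r₃p (g z) : ℤ) - (h (c₃p z) : ℤ) := by
        intro z
        rw [hq', hgapply, hρ']
      simp only [e1]
      rw [Finset.sum_sub_distrib, Finset.sum_sub_distrib,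
        sum_comp_of_maps (fun z => (r₃p z : ℤ)) _ g hgO]
  refine ⟨hqO, ?_⟩
  intro y hy
  rw [← image_eq_of_maps _ q hqO] at hy
  obtain ⟨z, hz, rfl⟩ := Finset.mem_image.1 hy
  exact hgO z hz

end

/-- `2 c + [z ∈ O]`: the refined column function. -/
def refineC (e : Fin N ≃ Fin k ⊕ Fin l) (c : Fin N → ℕ) (z : Fin N) : ℕ :=
  2 * c z + if z ∈ outerSet e then 1 else 0

theorem mem_colS_refine (e : Fin N ≃ Fin k ⊕ Fin l) (c : Fin N → ℕ) (q : Perm (Fin N)) :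
    q ∈ colS (refineC e c) ↔ q ∈ colS c ∧ ∀ z ∈ outerSet e, q z ∈ outerSet e := by
  simp only [colS, Finset.mem_filter, Finset.mem_univ, true_and]
  constructor
  · intro h
    have key : ∀ x, c (q x) = c x ∧ (q x ∈ outerSet e ↔ x ∈ outerSet e) := by
      intro x
      have := h x
      unfold refineC at this
      by_cases h1 : q x ∈ outerSet e <;> by_cases h2 : x ∈ outerSet e <;>
        simp only [h1, h2, if_true, if_false] at this <;> simp only [h1, h2, iff_true, iff_false, not_true_eq_false, not_false_eq_true, and_true, and_false] <;> omega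
    exact ⟨fun x => (key x).1, fun z hz => (key z).2.2 hz⟩
  · rintro ⟨h1, h2⟩ x
    unfold refineC
    rw [h1 x]
    by_cases hx : x ∈ outerSet e
    · simp [hx, h2 x hx]
    · simp [hx, not_mem_of_maps _ q h2 x hx]

theorem colS_two_mul {n : ℕ} (c : Fin n → ℕ) : colS (fun x => 2 * c x) = colS c := by
  ext q
  simp only [colS, Finset.mem_filter, Finset.mem_univ, true_and]
  constructor
  · intro h x
    have := h x
    omega
  · intro h x
    rw [h x]

theorem colS_two_mul_add {n : ℕ} (c : Fin n → ℕ) : colS (fun x => 2 * c x + 1) = colS c := by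
  ext q
  simp only [colS, Finset.mem_filter, Finset.mem_univ, true_and]
  constructor
  · intro h x
    have := h x
    omega
  · intro h x
    rw [h x]

theorem isSum_refine (e : Fin N ≃ Fin k ⊕ Fin l) {r c : Fin k → ℕ} {r' c' : Fin l → ℕ}
    {rp cp : Fin N → ℕ}
    (hr : ∀ x, rp (e.symm (Sum.inl x)) = r x) (hr' : ∀ y, rp (e.symm (Sum.inr y)) = r' y)
    (hc : ∀ x, cp (e.symm (Sum.inl x)) = c x) (hc' : ∀ y, cp (e.symm (Sum.inr y)) = c' y) :
    IsSum e r (fun x => 2 * c x) r' (fun y => 2 * c' y + 1) rp (refineC e cp) := by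
  have h1 : ∀ x, refineC e cp (e.symm (Sum.inl x)) = 2 * c x := by
    intro x
    unfold refineC
    rw [if_neg (not_mem_outerSet e x), hc]
    rfl
  have h2 : ∀ y, refineC e cp (e.symm (Sum.inr y)) = 2 * c' y + 1 := by
    intro y
    unfold refineC
    rw [if_pos (mem_outerSet e y), hc']
  refine ⟨hr, hr', ?_, ?_, ?_⟩
  · intro x x'; rw [h1, h1]
  · intro y y'; rw [h2, h2]
  · intro x y; rw [h1, h2]; omega

/-- **Factorisation.** -/
theorem YY_factor_ne (e : Fin N ≃ Fin k ⊕ Fin l)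
    {r₁ c₁ r₂ c₂ r₃ c₃ : Fin k → ℕ} {r₁' c₁' r₂' c₂' r₃' c₃' : Fin l → ℕ}
    {r₁p c₁p r₂p c₂p r₃p c₃p : Fin N → ℕ} {h : ℕ → ℕ}
    (h₁ : IsSum e r₁ c₁ r₁' c₁' r₁p c₁p) (h₂ : IsSum e r₂ c₂ r₂' c₂' r₂p c₂p)
    (h₃ : IsLayer e r₃ c₃ r₃' c₃' r₃p c₃p h) (b : ℕ)
    (W : Fin k → ℕ × ℕ) (W' : Fin l → ℕ × ℕ)
    (hW : ∀ x, (W x).1 + (W x).2 < b) (hW' : ∀ y, b ≤ (W' y).1 + (W' y).2)
    (hne : YY r₃ c₃ (ptt r₁ c₁ r₂ c₂) W ≠ 0) (hne' : YY r₃' c₃' (ptt r₁' c₁' r₂' c₂') W' ≠ 0) :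
    YY r₃p c₃p (ptt r₁p c₁p r₂p c₂p) (fun z => Sum.elim W W' (e z)) ≠ 0 := by
  obtain ⟨hm₁, hm₂⟩ := margins_of_YY hne'
  -- the sum restricted to block preserving terms
  have hrestrict : YY r₃p c₃p (ptt r₁p c₁p r₂p c₂p) (fun z => Sum.elim W W' (e z)) =
      ∑ ρ ∈ colS (refineC e r₃p), ∑ q ∈ colS (refineC e c₃p), sgnZ q *
        ptt r₁p c₁p r₂p c₂p (fun x => Sum.elim W W' (e (ρ (q x)))) := by
    unfold YY
    have hsub1 : colS (refineC e r₃p) ⊆ colS r₃p := fun ρ hρ =>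
      ((mem_colS_refine e r₃p ρ).1 hρ).1
    have hsub2 : colS (refineC e c₃p) ⊆ colS c₃p := fun q hq =>
      ((mem_colS_refine e c₃p q).1 hq).1
    symm
    calc _ = ∑ ρ ∈ colS (refineC e r₃p), ∑ q ∈ colS c₃p, sgnZ q *
          ptt r₁p c₁p r₂p c₂p (fun x => Sum.elim W W' (e (ρ (q x)))) := by
          refine Finset.sum_congr rfl (fun ρ hρ => ?_)
          refine Finset.sum_subset hsub2 (fun q hq hq' => ?_)
          by_contra hne0
          have hne1 := right_ne_zero_of_mul hne0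
          have := term_maps_outer e h₁ h₂ h₃ b W W' hW hW' hm₁ hm₂ (hsub1 hρ) hq hne1
          exact hq' ((mem_colS_refine e c₃p q).2 ⟨hq, this.1⟩)
      _ = _ := by
          refine Finset.sum_subset hsub1 (fun ρ hρ hρ' => ?_)
          refine Finset.sum_eq_zero (fun q hq => ?_)
          by_contra hne0
          have hne1 := right_ne_zero_of_mul hne0
          have := term_maps_outer e h₁ h₂ h₃ b W W' hW hW' hm₁ hm₂ hρ hq hne1
          exact hρ' ((mem_colS_refine e r₃p ρ).2 ⟨hρ, this.2⟩)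
  have hsumR : IsSum e c₃ (fun x => 2 * r₃ x) c₃' (fun y => 2 * r₃' y + 1) c₃p (refineC e r₃p) :=
    isSum_refine e h₃.col_inl h₃.col_inr h₃.row_inl h₃.row_inr
  have hsumC : IsSum e r₃ (fun x => 2 * c₃ x) r₃' (fun y => 2 * c₃' y + 1) r₃p (refineC e c₃p) :=
    isSum_refine e h₃.row_inl h₃.row_inr h₃.col_inl h₃.col_inr
  have hprod : YY r₃p c₃p (ptt r₁p c₁p r₂p c₂p) (fun z => Sum.elim W W' (e z)) =
      YY r₃ c₃ (ptt r₁ c₁ r₂ c₂) W * YY r₃' c₃' (ptt r₁' c₁' r₂' c₂') W' := by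
    rw [hrestrict]
    unfold YY
    rw [sum_colS_split e hsumR, colS_two_mul, colS_two_mul_add, Finset.sum_mul_sum]
    refine Finset.sum_congr rfl (fun a _ => ?_)
    refine Finset.sum_congr rfl (fun b' _ => ?_)
    rw [sum_colS_split e hsumC, colS_two_mul, colS_two_mul_add, Finset.sum_mul_sum]
    refine Finset.sum_congr rfl (fun a₂ _ => ?_)
    refine Finset.sum_congr rfl (fun b₂ _ => ?_)
    rw [sgnZ_block]
    unfold ptt
    rw [pt_sum e h₁, pt_sum e h₂]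
    simp only [Equiv.trans_apply, Equiv.symm_apply_apply, Equiv.sumCongr_apply, Sum.map_inl,
      Sum.map_inr, Equiv.apply_symm_apply, Sum.elim_inl, Sum.elim_inr]
    ring
  rw [hprod]
  exact mul_ne_zero hne hne'

end Vale.Agent.Lib.P197Z
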