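import Vale.Agent.Lib.P197Z.Block
import Vale.Agent.Lib.P197Z.Factor
import Vale.Agent.Lib.P197Z.Chain

/-!
# P197Z: the induction over the layers (blueprint Sec 8)
-/

open Equiv Finset

namespace Vale.Agent.Lib.P197Z

open Vale.Agent.Lib.P197 Vale.Agent.Lib.P197W Vale.Agent.Lib.P197X

variable {N k l : ℕ}

/-- A filling of a diagram from a filling of a smaller diagram. -/
theorem exists_layer_fill (e : Fin N ≃ Fin k ⊕ Fin l) {β ν : YoungDiagram}
    (hle : ∀ c, c ∈ β → c ∈ ν) (hcard : ν.card = N) (T : Filling k β) :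
    ∃ (Tp : Filling N ν) (r' c' : Fin l → ℕ),
      IsLayer e (rowOf T) (colOf T) r' c' (rowOf Tp) (colOf Tp) β.colLen ∧
      (∀ x y, r' x = r' y → c' x = c' y → x = y) ∧
      (∀ j, (univ.filter fun y => c' y = j).card + β.colLen j ≤ ν.colLen j) ∧
      (∀ y, r' y < ν.colLen (c' y)) := by
  classical
  have hk : β.card = k := card_of_filling T
  have hN : N = k + l := by
    have h := Fintype.card_congr e
    simpa using h
  have hsub : β.cells ⊆ ν.cells := by
    intro c hc
    exact hle c hc
  have hcardl : (ν.cells \ β.cells).card = l := by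
    rw [Finset.card_sdiff_of_subset hsub]
    have h1 : ν.cells.card = N := hcard
    have h2 : β.cells.card = k := hk
    omega
  have hs' : Fintype.card {c // c ∈ ν.cells \ β.cells} = l := by
    simpa using hcardl
  let s : Fin l ≃ {c // c ∈ ν.cells \ β.cells} := (Fintype.equivFinOfCardEq hs').symm
  let f : Fin k ⊕ Fin l → {c // c ∈ ν.cells} := fun z =>
    match z with
    | Sum.inl x => ⟨(T x).1, hsub (T x).2⟩
    | Sum.inr y => ⟨(s y).1, (Finset.mem_sdiff.1 (s y).2).1⟩
  have hfinj : Function.Injective f := by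
    rintro (x | y) (x' | y') hxy
    · have h : (T x).1 = (T x').1 := congrArg (fun z : {c // c ∈ ν.cells} => z.1) hxy
      have h2 : T x = T x' := Subtype.ext h
      rw [T.injective h2]
    · exfalso
      have h : (T x).1 = (s y').1 := congrArg (fun z : {c // c ∈ ν.cells} => z.1) hxy
      have h1 := (T x).2
      have h2 := (Finset.mem_sdiff.1 (s y').2).2
      rw [h] at h1
      exact h2 h1
    · exfalso
      have h : (s y).1 = (T x').1 := congrArg (fun z : {c // c ∈ ν.cells} => z.1) hxy
      have h1 := (T x').2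
      have h2 := (Finset.mem_sdiff.1 (s y).2).2
      rw [← h] at h1
      exact h2 h1
    · have h : (s y).1 = (s y').1 := congrArg (fun z : {c // c ∈ ν.cells} => z.1) hxy
      have h2 : s y = s y' := Subtype.ext h
      rw [s.injective h2]
  have hfbij : Function.Bijective f := by
    rw [Fintype.bijective_iff_injective_and_card]
    refine ⟨hfinj, ?_⟩
    have h1 : Fintype.card {c // c ∈ ν.cells} = ν.cells.card := by simp
    have h2 : ν.cells.card = N := hcard
    rw [h1, h2, hN]
    simp
  let Tp : Filling N ν := e.trans (Equiv.ofBijective f hfbij)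
  have hTpl : ∀ x, Tp (e.symm (Sum.inl x)) = f (Sum.inl x) := by
    intro x
    simp [Tp]
  have hTpr : ∀ y, Tp (e.symm (Sum.inr y)) = f (Sum.inr y) := by
    intro y
    simp [Tp]
  have hmemν : ∀ y, (s y).1 ∈ ν := fun y => (Finset.mem_sdiff.1 (s y).2).1
  have hnotβ : ∀ y, (s y).1 ∉ β := fun y => (Finset.mem_sdiff.1 (s y).2).2
  have hinj' : ∀ x y : Fin l, (s x).1.1 = (s y).1.1 → (s x).1.2 = (s y).1.2 → x = y := by
    intro x y h1 h2
    have h : (s x).1 = (s y).1 := Prod.ext h1 h2
    exact s.injective (Subtype.ext h)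
  have hlt : ∀ y, (s y).1.1 < ν.colLen (s y).1.2 := by
    intro y
    have h := hmemν y
    exact ν.mem_iff_lt_colLen.1 (by simpa using h)
  have hge : ∀ y, β.colLen (s y).1.2 ≤ (s y).1.1 := by
    intro y
    by_contra hcon
    push Not at hcon
    exact hnotβ y (by simpa using β.mem_iff_lt_colLen.2 hcon)
  refine ⟨Tp, fun y => (s y).1.1, fun y => (s y).1.2, ?_, hinj', ?_, hlt⟩
  · refine ⟨?_, ?_, ?_, ?_, ?_, hge⟩
    · intro x
      simp only [rowOf, hTpl]
      rfl
    · intro y
      simp only [rowOf, hTpr]
      rfl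
    · intro x
      simp only [colOf, hTpl]
      rfl
    · intro y
      simp only [colOf, hTpr]
      rfl
    · intro x
      exact β.mem_iff_lt_colLen.1 (show ((T x).1.1, (T x).1.2) ∈ β from (T x).2)
  · intro j
    show (univ.filter fun y : Fin l => (s y).1.2 = j).card + β.colLen j ≤ ν.colLen j
    have hle' : β.colLen j ≤ ν.colLen j := by
      by_contra hcon
      push Not at hcon
      have h1 : (ν.colLen j, j) ∈ β := β.mem_iff_lt_colLen.2 hcon
      have h2 := ν.mem_iff_lt_colLen.1 (hle _ h1)
      exact lt_irrefl _ h2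
    have hc : (univ.filter fun y : Fin l => (s y).1.2 = j).card ≤
        (Finset.Ico (β.colLen j) (ν.colLen j)).card := by
      refine Finset.card_le_card_of_injOn (fun y => (s y).1.1) ?_ ?_
      · intro y hy
        have hy' : (s y).1.2 = j := by
          simpa using hy
        rw [Finset.mem_coe, Finset.mem_Ico]
        have h1 := hge y
        have h2 := hlt y
        rw [hy'] at h1 h2
        exact ⟨h1, h2⟩
      · intro x hx y hy hxy
        have hx' : (s x).1.2 = j := by
          simpa using hx
        have hy' : (s y).1.2 = j := by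
          simpa using hy
        exact hinj' x y hxy (hx'.trans hy'.symm)
    rw [Nat.card_Ico] at hc
    omega

/-- The columns of the staircase, also for `t = 1`. -/
theorem colsOf_staircase_two (t : ℕ) (ht : 1 ≤ t) :
    colsOf (staircase t) = colsOf (staircase (t - 2)) + colsOf (topStair t 2).transpose := by
  by_cases h : 2 ≤ t
  · exact colsOf_staircase t 2 h
  · obtain rfl : t = 1 := by omega
    have e : topStair 1 2 = topStair 1 1 := by
      apply YoungDiagram.ext
      decide
    rw [e]
    exact colsOf_staircase 1 1 le_rfl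

/-- **The induction over the layers.** -/
theorem nv {t : ℕ} {ν : YoungDiagram} (h : Layerable t ν) (n : ℕ) (hn : ν.card = n) :
    ∃ (T₁ T₂ : Filling n (staircase t)) (T₃ : Filling n ν) (W : Fin n → ℕ × ℕ),
      (∀ x, (W x).1 + (W x).2 + 1 ≤ t) ∧
      YY (rowOf T₃) (colOf T₃) (ptt (rowOf T₁) (colOf T₁) (rowOf T₂) (colOf T₂)) W ≠ 0 := by
  induction h generalizing n with
  | zero ν h =>
    subst hn
    rw [h]
    have hs : (staircase 0).card = 0 := by
      have := staircase_card 0
      simpa using this
    obtain ⟨T₁⟩ := exists_filling 0 (staircase 0) hs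
    obtain ⟨T₃⟩ := exists_filling 0 ν h
    refine ⟨T₁, T₁, T₃, fun _ => (0, 0), fun x => x.elim0, ?_⟩
    have hone : ∀ c : Fin 0 → ℕ, colS c = {1} := by
      intro c
      ext q
      simp only [colS, mem_filter, mem_univ, true_and, mem_singleton]
      constructor
      · intro _
        exact Subsingleton.elim _ _
      · intro _ x
        exact x.elim0
    simp [YY, ptt, pt, hone]
  | @step t ν β ht hle hcard hcol h ih =>
    set k := β.card with hk
    set l := 2 * t - 1 with hl
    have hn' : n = k + l := by omega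
    let e : Fin n ≃ Fin k ⊕ Fin l := (finCongr hn').trans finSumFinEquiv.symm
    obtain ⟨T1i, T2i, T3i, Wi, hWi, hYi⟩ := ih k rfl
    obtain ⟨Tp3, r', c', hLayer, hinj, hcc, hrr⟩ := exists_layer_fill e hle hn T3i
    have hcol4 : ∀ j, (univ.filter fun y => c' y = j).card ≤ 4 := by
      intro j
      have h1 := hcc j
      have h2 := hcol j
      omega
    have hconsec : ∀ x y, c' x = c' y → r' x < r' y + 4 := by
      intro x y hxy
      have h1 := hrr x
      rw [hxy] at h1
      have h2 := hcol (c' y)
      have h3 := hLayer.ge_inr y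
      omega
    have hl1 : l + 1 = 2 * t := by omega
    obtain ⟨T1o, T2o, Wo, hWo, hYo⟩ := block_nv t ht hl1 r' c' hinj hcol4 hconsec
    obtain ⟨Tp1, hS1⟩ := exists_cols_sum (colsOf_staircase_two t ht) e T1i T1o
    obtain ⟨Tp2, hS2⟩ := exists_cols_sum (colsOf_staircase_two t ht) e T2i T2o
    refine ⟨Tp1, Tp2, Tp3, fun z => Sum.elim Wi Wo (e z), fun z => ?_, ?_⟩
    · rcases hz : e z with x | y
      · have := hWi x
        simp only [hz, Sum.elim_inl]
        omega
      · have := (hWo y).2
        simp only [hz, Sum.elim_inr]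
        exact this
    · refine YY_factor_ne e hS1 hS2 hLayer (t - 2) Wi Wo (fun x => ?_) (fun y => ?_) hYi hYo
      · have := hWi x
        omega
      · have := (hWo y).1
        omega

/-- **Few rows: the Kronecker positivity.** -/
theorem kp_of_rows (t : ℕ) (ν : YoungDiagram) (hν : ν.card = NN t) (hrows : ν.colLen 0 ≤ t + 1) :
    KP (staircase t) (staircase t) ν := by
  obtain ⟨T₁, T₂, T₃, W, -, hW⟩ := nv (layerable_of_rows t ν hν hrows) _ rfl
  exact KP_of_poly T₁ T₂ T₃ ((polyF_ne_zero_iff _ _ _ _ _ _).2 ⟨W, hW⟩)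

end Vale.Agent.Lib.P197Z
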