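import Vale.Agent.Lib.P197Z.Defs

/-!
# P197Z: the small Kronecker coefficients (blueprint Sec 5)
-/

open Equiv Finset

namespace Vale.Agent.Lib.P197Z

open Vale.Agent.Lib.P197 Vale.Agent.Lib.P197W Vale.Agent.Lib.P197X

/-- The rectangle with two rows of length `a`. -/
def rect (a : ℕ) : YoungDiagram := ofCols (Multiset.replicate a 2)

/-- A filling with prescribed row and column functions. -/
private theorem exists_fill {μ : YoungDiagram} {n : ℕ} (r c : Fin n → ℕ)
    (hmem : ∀ x, (r x, c x) ∈ μ) (hinj : ∀ x y, r x = r y → c x = c y → x = y)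
    (hcard : μ.card = n) : ∃ T : Filling n μ, rowOf T = r ∧ colOf T = c := by
  let f : Fin n → {c // c ∈ μ.cells} := fun x => ⟨(r x, c x), by simpa using hmem x⟩
  have hf : Function.Injective f := by
    intro x y hxy
    have h := congrArg Subtype.val hxy
    have h1 : r x = r y := congrArg Prod.fst h
    have h2 : c x = c y := congrArg Prod.snd h
    exact hinj x y h1 h2
  have hc : Fintype.card (Fin n) = Fintype.card {c // c ∈ μ.cells} := by
    simp only [Fintype.card_fin, Fintype.card_coe]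
    exact hcard.symm
  have hb : Function.Bijective f := (Fintype.bijective_iff_injective_and_card f).2 ⟨hf, hc⟩
  exact ⟨Equiv.ofBijective f hb, rfl, rfl⟩

/-- A non zero value at an integer point gives `KP`. -/
private theorem kp_of_eval {A B D : YoungDiagram} {n : ℕ} (r₁ c₁ r₂ c₂ r₃ c₃ : Fin n → ℕ)
    (f : ℕ × ℕ × ℕ → ℤ)
    (hm₁ : ∀ x, (r₁ x, c₁ x) ∈ A) (hi₁ : ∀ x y, r₁ x = r₁ y → c₁ x = c₁ y → x = y)
    (hc₁ : A.card = n)
    (hm₂ : ∀ x, (r₂ x, c₂ x) ∈ B) (hi₂ : ∀ x y, r₂ x = r₂ y → c₂ x = c₂ y → x = y)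
    (hc₂ : B.card = n)
    (hm₃ : ∀ x, (r₃ x, c₃ x) ∈ D) (hi₃ : ∀ x y, r₃ x = r₃ y → c₃ x = c₃ y → x = y)
    (hc₃ : D.card = n)
    (h : (∑ q₁ ∈ colS c₁, ∑ q₂ ∈ colS c₂, ∑ q₃ ∈ colS c₃,
      sgnZ q₁ * sgnZ q₂ * sgnZ q₃ * ∏ x, f (r₁ (q₁ x), r₂ (q₂ x), r₃ (q₃ x))) ≠ 0) :
    KP A B D := by
  obtain ⟨T₁, e₁, e₁'⟩ := exists_fill r₁ c₁ hm₁ hi₁ hc₁
  obtain ⟨T₂, e₂, e₂'⟩ := exists_fill r₂ c₂ hm₂ hi₂ hc₂
  obtain ⟨T₃, e₃, e₃'⟩ := exists_fill r₃ c₃ hm₃ hi₃ hc₃
  apply KP_of_poly T₁ T₂ T₃
  unfold polyP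
  rw [e₁, e₁', e₂, e₂', e₃, e₃']
  intro h0
  apply h
  have h1 := congrArg (MvPolynomial.eval f) h0
  rw [map_zero] at h1
  rw [← h1]
  unfold polyF
  simp only [map_sum, map_mul, map_prod, MvPolynomial.eval_C, MvPolynomial.eval_X]

/-- The point used for the rectangles. -/
private def evA (v : ℕ × ℕ × ℕ) : ℤ :=
  match v with
  | (0, 0, 0) => 1
  | (1, 1, 1) => 1
  | (0, 1, 2) => 1
  | (1, 0, 2) => 1
  | _ => 0

/-- The point for one rectangle with a single column pair. -/
private def evB (v : ℕ × ℕ × ℕ) : ℤ :=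
  match v with
  | (0, 0, 0) => 1
  | (1, 1, 0) => 1
  | (0, 0, 1) => 1
  | _ => 0

/-- The point for one column of height four or three. -/
private def evC (v : ℕ × ℕ × ℕ) : ℤ :=
  match v with
  | (0, 0, 0) => 1
  | (1, 0, 1) => 1
  | (0, 1, 2) => 1
  | (1, 1, 3) => 1
  | _ => 0

/-- The point for the last small case. -/
private def evD (v : ℕ × ℕ × ℕ) : ℤ :=
  match v with
  | (1, 1, 0) => -1
  | (0, 1, 0) => 1
  | (1, 0, 0) => -1
  | (0, 0, 1) => 2
  | (1, 1, 1) => 2
  | (0, 1, 1) => 2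
  | (1, 0, 1) => 2
  | (1, 1, 2) => -1
  | (0, 1, 2) => 2
  | (1, 0, 2) => -1
  | _ => 0

private theorem mem_ofCols_of {C : Multiset ℕ} {i j : ℕ}
    (h : j < Multiset.card (C.filter fun x => i < x)) : (i, j) ∈ ofCols C :=
  (mem_ofCols C i j).2 h

private theorem mem_topStair_of {m t i j : ℕ} (h1 : i < t) (h2 : i + j < m) :
    (i, j) ∈ topStair m t := by
  rw [YoungDiagram.mem_iff_lt_rowLen, rowLen_topStair, if_pos h1]
  omega

theorem kp_g11 : KP (rect 1) (rect 1) (ofCols {1, 1}) := by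
  refine kp_of_eval (n := 2) ![0, 1] ![0, 0] ![0, 1] ![0, 0] ![0, 0] ![0, 1] evB
    ?_ (by decide) ?_ ?_ (by decide) ?_ ?_ (by decide) ?_ (by decide +kernel)
  · intro x; exact mem_ofCols_of (by revert x; decide)
  · rw [rect, card_ofCols]; decide
  · intro x; exact mem_ofCols_of (by revert x; decide)
  · rw [rect, card_ofCols]; decide
  · intro x; exact mem_ofCols_of (by revert x; decide)
  · rw [card_ofCols]; decide

theorem kp_g22 : KP (rect 2) (rect 2) (ofCols {2, 2}) := by
  refine kp_of_eval (n := 4) ![0, 1, 0, 1] ![0, 0, 1, 1] ![0, 1, 0, 1] ![0, 0, 1, 1]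
    ![0, 0, 1, 1] ![0, 1, 0, 1] evA
    ?_ (by decide) ?_ ?_ (by decide) ?_ ?_ (by decide) ?_ (by decide +kernel)
  · intro x; exact mem_ofCols_of (by revert x; decide)
  · rw [rect, card_ofCols]; decide
  · intro x; exact mem_ofCols_of (by revert x; decide)
  · rw [rect, card_ofCols]; decide
  · intro x; exact mem_ofCols_of (by revert x; decide)
  · rw [card_ofCols]; decide

theorem kp_g33 : KP (rect 3) (rect 3) (ofCols {3, 3}) := by
  refine kp_of_eval (n := 6) ![0, 1, 0, 1, 0, 1] ![0, 0, 1, 1, 2, 2] ![0, 1, 0, 1, 0, 1]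
    ![0, 0, 1, 1, 2, 2] ![0, 0, 1, 1, 2, 2] ![0, 1, 0, 1, 0, 1] evA
    ?_ (by decide) ?_ ?_ (by decide) ?_ ?_ (by decide) ?_ (by decide +kernel)
  · intro x; exact mem_ofCols_of (by revert x; decide)
  · rw [rect, card_ofCols]; decide
  · intro x; exact mem_ofCols_of (by revert x; decide)
  · rw [rect, card_ofCols]; decide
  · intro x; exact mem_ofCols_of (by revert x; decide)
  · rw [card_ofCols]; decide

theorem kp_g4 : KP (rect 2) (rect 2) (ofCols {4}) := by
  refine kp_of_eval (n := 4) ![0, 1, 0, 1] ![0, 0, 1, 1] ![0, 0, 1, 1] ![0, 1, 0, 1]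
    ![0, 1, 2, 3] ![0, 0, 0, 0] evC
    ?_ (by decide) ?_ ?_ (by decide) ?_ ?_ (by decide) ?_ (by decide +kernel)
  · intro x; exact mem_ofCols_of (by revert x; decide)
  · rw [rect, card_ofCols]; decide
  · intro x; exact mem_ofCols_of (by revert x; decide)
  · rw [rect, card_ofCols]; decide
  · intro x; exact mem_ofCols_of (by revert x; decide)
  · rw [card_ofCols]; decide

theorem kp_b1 : KP (topStair 1 2) (topStair 1 2) (ofCols {1}) := by
  refine kp_of_eval (n := 1) ![0] ![0] ![0] ![0] ![0] ![0] evB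
    ?_ (by decide) ?_ ?_ (by decide) ?_ ?_ (by decide) ?_ (by decide +kernel)
  · intro x; exact mem_topStair_of (by revert x; decide) (by revert x; decide)
  · rw [card_topStair]; decide
  · intro x; exact mem_topStair_of (by revert x; decide) (by revert x; decide)
  · rw [card_topStair]; decide
  · intro x; exact mem_ofCols_of (by revert x; decide)
  · rw [card_ofCols]; decide

theorem kp_b3 : KP (topStair 2 2) (topStair 2 2) (ofCols {3}) := by
  refine kp_of_eval (n := 3) ![0, 1, 0] ![0, 0, 1] ![0, 0, 1] ![0, 1, 0] ![0, 1, 2] ![0, 0, 0] evC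
    ?_ (by decide) ?_ ?_ (by decide) ?_ ?_ (by decide) ?_ (by decide +kernel)
  · intro x; exact mem_topStair_of (by revert x; decide) (by revert x; decide)
  · rw [card_topStair]; decide
  · intro x; exact mem_topStair_of (by revert x; decide) (by revert x; decide)
  · rw [card_topStair]; decide
  · intro x; exact mem_ofCols_of (by revert x; decide)
  · rw [card_ofCols]; decide

theorem kp_b21 : KP (topStair 2 2) (topStair 2 2) (ofCols {2, 1}) := by
  refine kp_of_eval (n := 3) ![0, 0, 1] ![0, 1, 0] ![0, 0, 1] ![0, 1, 0] ![0, 1, 0] ![0, 0, 1] evB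
    ?_ (by decide) ?_ ?_ (by decide) ?_ ?_ (by decide) ?_ (by decide +kernel)
  · intro x; exact mem_topStair_of (by revert x; decide) (by revert x; decide)
  · rw [card_topStair]; decide
  · intro x; exact mem_topStair_of (by revert x; decide) (by revert x; decide)
  · rw [card_topStair]; decide
  · intro x; exact mem_ofCols_of (by revert x; decide)
  · rw [card_ofCols]; decide

theorem kp_b32 : KP (topStair 3 2) (topStair 3 2) (ofCols {3, 2}) := by
  refine kp_of_eval (n := 5) ![0, 0, 0, 1, 1] ![0, 1, 2, 0, 1] ![0, 0, 0, 1, 1] ![0, 1, 2, 0, 1]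
    ![0, 1, 2, 0, 1] ![0, 0, 0, 1, 1] evD
    ?_ (by decide) ?_ ?_ (by decide) ?_ ?_ (by decide) ?_ (by decide +kernel)
  · intro x; exact mem_topStair_of (by revert x; decide) (by revert x; decide)
  · rw [card_topStair]; decide
  · intro x; exact mem_topStair_of (by revert x; decide) (by revert x; decide)
  · rw [card_topStair]; decide
  · intro x; exact mem_ofCols_of (by revert x; decide)
  · rw [card_ofCols]; decide

private theorem lt_colLen_topStair_two (M i j : ℕ) :
    i < (topStair M 2).colLen j ↔ i < 2 ∧ j < M - i := by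
  rw [← YoungDiagram.mem_iff_lt_colLen, YoungDiagram.mem_iff_lt_rowLen, rowLen_topStair]
  split_ifs with h
  · simp [h]
  · simp [h]

private theorem colsOf_topStair_two (k : ℕ) :
    colsOf (topStair (k + 1) 2) = 1 ::ₘ Multiset.replicate k 2 := by
  have h0 : (topStair (k + 1) 2).rowLen 0 = k + 1 := by
    rw [rowLen_topStair]; simp
  have h1 : (topStair (k + 1) 2).colLen k = 1 := by
    have a1 := (lt_colLen_topStair_two (k + 1) 0 k).2 (by omega)
    have a2 := (lt_colLen_topStair_two (k + 1) 1 k)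
    have a3 : ¬ 1 < (topStair (k + 1) 2).colLen k := by
      rw [a2]; omega
    omega
  have h2 : ∀ j, j < k → (topStair (k + 1) 2).colLen j = 2 := by
    intro j hj
    have a1 := (lt_colLen_topStair_two (k + 1) 1 j).2 (by omega)
    have a2 := (lt_colLen_topStair_two (k + 1) 2 j)
    have a3 : ¬ 2 < (topStair (k + 1) 2).colLen j := by
      rw [a2]; omega
    omega
  unfold colsOf
  rw [h0, Multiset.range_succ, Multiset.map_cons, h1]
  congr 1
  have : Multiset.map (topStair (k + 1) 2).colLen (Multiset.range k) =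
      Multiset.map (fun _ => 2) (Multiset.range k) := by
    apply Multiset.map_congr rfl
    intro j hj
    exact h2 j (Multiset.mem_range.mp hj)
  rw [this, Multiset.map_const', Multiset.card_range]

/-- The columns of the two row shape add. -/
theorem colsOf_topStair_add (m a : ℕ) (hm : 1 ≤ m) :
    colsOf (topStair (m + a) 2) = colsOf (topStair m 2) + colsOf (rect a) := by
  obtain ⟨k, rfl⟩ : ∃ k, m = k + 1 := ⟨m - 1, by omega⟩
  have e : k + 1 + a = (k + a) + 1 := by omega
  have hr : colsOf (rect a) = Multiset.replicate a 2 := by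
    unfold rect
    apply colsOf_ofCols
    intro c hc
    rw [Multiset.eq_of_mem_replicate hc]
    omega
  rw [e, colsOf_topStair_two, colsOf_topStair_two, hr, Multiset.replicate_add, Multiset.cons_add]

end Vale.Agent.Lib.P197Z
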