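import Vale.Agent.Lib.P197Z.Defs

/-!
# P197Z: elementary facts on the polytabloid coefficient (blueprint Sec 2)
-/

open Equiv Finset

namespace Vale.Agent.Lib.P197Z

open Vale.Agent.Lib.P197 Vale.Agent.Lib.P197W Vale.Agent.Lib.P197X

variable {n : ℕ}

/-- Swapping two positions of one column changes the sign. -/
theorem pt_swap (r c v : Fin n → ℕ) {p p' : Fin n} (hne : p ≠ p') (hc : c p = c p') :
    pt r c (fun x => v (Equiv.swap p p' x)) = - pt r c v := by
  have hmem : Equiv.swap p p' ∈ colS c := by
    rw [mem_colS']
    intro x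
    by_cases h1 : x = p
    · subst h1; simp [hc]
    · by_cases h2 : x = p'
      · subst h2; simp [hc]
      · rw [Equiv.swap_apply_of_ne_of_ne h1 h2]
  unfold pt
  rw [← Finset.sum_neg_distrib]
  refine Finset.sum_nbij' (fun q => q * Equiv.swap p p') (fun q => q * Equiv.swap p p') ?_ ?_ ?_ ?_ ?_
  · intro q hq
    exact colS_mul' hq hmem
  · intro q hq
    exact colS_mul' hq hmem
  · intro q _
    simp [mul_assoc]
  · intro q _
    simp [mul_assoc]
  · intro q _
    have hcond : (∀ x, r (q x) = v (Equiv.swap p p' x)) ↔ ∀ x, r ((q * Equiv.swap p p') x) = v x := by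
      constructor
      · intro h x
        have := h (Equiv.swap p p' x)
        simpa using this
      · intro h x
        have := h (Equiv.swap p p' x)
        simpa using this
    have hsg : sgnZ (q * Equiv.swap p p') = - sgnZ q := by
      rw [sgnZ_mul']
      simp [sgnZ, Perm.sign_swap hne]
    by_cases hh : ∀ x, r (q x) = v (Equiv.swap p p' x)
    · simp only []
      rw [if_pos hh, if_pos (hcond.1 hh), hsg]
      ring
    · simp only []
      rw [if_neg hh, if_neg (fun h' => hh (hcond.2 h'))]
      ring

/-- Two equal letters in one column give zero. -/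
theorem pt_eq_zero_of_eq (r c v : Fin n → ℕ) {p p' : Fin n} (hne : p ≠ p') (hc : c p = c p')
    (hv : v p = v p') : pt r c v = 0 := by
  have h := pt_swap r c v hne hc
  have hv' : (fun x => v (Equiv.swap p p' x)) = v := by
    funext x
    by_cases h1 : x = p
    · subst h1; simp [hv]
    · by_cases h2 : x = p'
      · subst h2; simp [hv]
      · rw [Equiv.swap_apply_of_ne_of_ne h1 h2]
  rw [hv'] at h
  omega

/-- A non zero coefficient gives a column permutation. -/
theorem exists_of_pt_ne {r c w : Fin n → ℕ} (h : pt r c w ≠ 0) :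
    ∃ q ∈ colS c, ∀ x, r (q x) = w x := by
  unfold pt at h
  obtain ⟨q, hq, hne⟩ := Finset.exists_ne_zero_of_sum_ne_zero h
  refine ⟨q, hq, ?_⟩
  by_contra hcon
  rw [if_neg hcon] at hne
  simp at hne

/-- Swapping two letters below the top in a two column shape changes nothing. -/
theorem pt_letter_swap {m : ℕ} {r c : Fin n → ℕ} (hT : TwoCol m r c) (v : Fin n → ℕ) {a b : ℕ}
    (ha : a + 1 < m) (hb : b + 1 < m) :
    pt r c (fun x => Equiv.swap a b (v x)) = pt r c v := by
  by_cases hab : a = b
  · subst hab
    simp
  obtain ⟨xa, hxa0, hxa⟩ := hT.ex0 a (by omega)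
  obtain ⟨xb, hxb0, hxb⟩ := hT.ex0 b (by omega)
  obtain ⟨ya, hya1, hya⟩ := hT.ex1 a ha
  obtain ⟨yb, hyb1, hyb⟩ := hT.ex1 b hb
  have hxne : xa ≠ xb := by
    rintro rfl
    exact hab (hxa.symm.trans hxb)
  have hyne : ya ≠ yb := by
    rintro rfl
    exact hab (hya.symm.trans hyb)
  set s : Perm (Fin n) := Equiv.swap xa xb * Equiv.swap ya yb with hs
  have hsx : ∀ z, c z = 0 → s z = Equiv.swap xa xb z := by
    intro z hz
    have h1 : z ≠ ya := by rintro rfl; omega
    have h2 : z ≠ yb := by rintro rfl; omega
    rw [hs, Perm.mul_apply, Equiv.swap_apply_of_ne_of_ne h1 h2]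
  have hsy : ∀ z, c z = 1 → s z = Equiv.swap ya yb z := by
    intro z hz
    have h1 : z ≠ xa := by rintro rfl; omega
    have h2 : z ≠ xb := by rintro rfl; omega
    rw [hs, Perm.mul_apply]
    apply Equiv.swap_apply_of_ne_of_ne
    · intro h
      have : c (Equiv.swap ya yb z) = 1 := by
        by_cases h3 : z = ya
        · subst h3; simpa using hyb1
        · by_cases h4 : z = yb
          · subst h4; simpa using hya1
          · rw [Equiv.swap_apply_of_ne_of_ne h3 h4]; exact hz
      rw [h] at this
      omega
    · intro h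
      have : c (Equiv.swap ya yb z) = 1 := by
        by_cases h3 : z = ya
        · subst h3; simpa using hyb1
        · by_cases h4 : z = yb
          · subst h4; simpa using hya1
          · rw [Equiv.swap_apply_of_ne_of_ne h3 h4]; exact hz
      rw [h] at this
      omega
  have hsrow : ∀ z, r (s z) = Equiv.swap a b (r z) := by
    intro z
    rcases hT.col z with hz | hz
    · rw [hsx z hz]
      by_cases h1 : z = xa
      · subst h1
        simp [hxa, hxb]
      · by_cases h2 : z = xb
        · subst h2
          simp [hxa, hxb]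
        · rw [Equiv.swap_apply_of_ne_of_ne h1 h2]
          have h3 : r z ≠ a := fun h => h1 (hT.inj _ _ (h.trans hxa.symm) (hz.trans hxa0.symm))
          have h4 : r z ≠ b := fun h => h2 (hT.inj _ _ (h.trans hxb.symm) (hz.trans hxb0.symm))
          rw [Equiv.swap_apply_of_ne_of_ne h3 h4]
    · rw [hsy z hz]
      by_cases h1 : z = ya
      · subst h1
        simp [hya, hyb]
      · by_cases h2 : z = yb
        · subst h2
          simp [hya, hyb]
        · rw [Equiv.swap_apply_of_ne_of_ne h1 h2]
          have h3 : r z ≠ a := fun h => h1 (hT.inj _ _ (h.trans hya.symm) (hz.trans hya1.symm))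
          have h4 : r z ≠ b := fun h => h2 (hT.inj _ _ (h.trans hyb.symm) (hz.trans hyb1.symm))
          rw [Equiv.swap_apply_of_ne_of_ne h3 h4]
  have hmem : s ∈ colS c := by
    rw [mem_colS']
    intro z
    rcases hT.col z with hz | hz
    · rw [hsx z hz, hz]
      by_cases h1 : z = xa
      · subst h1; simpa using hxb0
      · by_cases h2 : z = xb
        · subst h2; simpa using hxa0
        · rw [Equiv.swap_apply_of_ne_of_ne h1 h2]; exact hz
    · rw [hsy z hz, hz]
      by_cases h1 : z = ya
      · subst h1; simpa using hyb1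
      · by_cases h2 : z = yb
        · subst h2; simpa using hya1
        · rw [Equiv.swap_apply_of_ne_of_ne h1 h2]; exact hz
  have hsgn : sgnZ s = 1 := by
    rw [hs, sgnZ_mul']
    simp [sgnZ, Perm.sign_swap hxne, Perm.sign_swap hyne]
  symm
  unfold pt
  refine Finset.sum_nbij' (fun q => s * q) (fun q => s⁻¹ * q) ?_ ?_ ?_ ?_ ?_
  · intro q hq
    exact colS_mul' hmem hq
  · intro q hq
    exact colS_mul' (colS_inv' hmem) hq
  · intro q _
    simp
  · intro q _
    simp
  · intro q _
    have hcond : (∀ x, r (q x) = v x) ↔ ∀ x, r ((s * q) x) = Equiv.swap a b (v x) := by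
      constructor
      · intro h x
        rw [Perm.mul_apply, hsrow, h]
      · intro h x
        have := h x
        rw [Perm.mul_apply, hsrow] at this
        exact (Equiv.swap a b).injective this
    by_cases hh : ∀ x, r (q x) = v x
    · simp only []
      rw [if_pos hh, if_pos (hcond.1 hh), sgnZ_mul', hsgn, one_mul]
    · simp only []
      rw [if_neg hh, if_neg (fun h' => hh (hcond.2 h'))]
      ring

/-- A non zero coefficient in a two column shape forces the content. -/
theorem std_of_pt_ne {m : ℕ} {r c : Fin n → ℕ} (hT : TwoCol m r c) {w : Fin n → ℕ}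
    (h : pt r c w ≠ 0) : Std m w := by
  obtain ⟨q, _, hq⟩ := exists_of_pt_ne h
  intro a
  have h1 : (univ.filter fun x => w x = a).card = (univ.filter fun x => r x = a).card := by
    refine Finset.card_bij (fun x _ => q x) ?_ ?_ ?_
    · intro x hx
      simp only [Finset.mem_filter, Finset.mem_univ, true_and] at hx ⊢
      rw [hq, hx]
    · intro x _ y _ hxy
      exact q.injective hxy
    · intro y hy
      simp only [Finset.mem_filter, Finset.mem_univ, true_and] at hy
      refine ⟨q⁻¹ y, ?_, by simp⟩
      simp only [Finset.mem_filter, Finset.mem_univ, true_and]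
      rw [← hq]
      simpa using hy
  rw [h1]
  split_ifs with h2 h3
  · obtain ⟨x0, hx0c, hx0⟩ := hT.ex0 a (by omega)
    obtain ⟨x1, hx1c, hx1⟩ := hT.ex1 a h2
    have hne : x0 ≠ x1 := by
      rintro rfl
      omega
    have : (univ.filter fun x => r x = a) = {x0, x1} := by
      ext z
      simp only [Finset.mem_filter, Finset.mem_univ, true_and, Finset.mem_insert,
        Finset.mem_singleton]
      constructor
      · intro hz
        rcases hT.col z with hc | hc
        · left
          exact hT.inj _ _ (hz.trans hx0.symm) (hc.trans hx0c.symm)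
        · right
          exact hT.inj _ _ (hz.trans hx1.symm) (hc.trans hx1c.symm)
      · rintro (rfl | rfl)
        · exact hx0
        · exact hx1
    rw [this, Finset.card_pair hne]
  · obtain ⟨x0, hx0c, hx0⟩ := hT.ex0 a (by omega)
    have : (univ.filter fun x => r x = a) = {x0} := by
      ext z
      simp only [Finset.mem_filter, Finset.mem_univ, true_and, Finset.mem_singleton]
      constructor
      · intro hz
        rcases hT.col z with hc | hc
        · exact hT.inj _ _ (hz.trans hx0.symm) (hc.trans hx0c.symm)
        · have := hT.bd1 z hc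
          omega
      · rintro rfl
        exact hx0
    rw [this, Finset.card_singleton]
  · rw [Finset.card_eq_zero, Finset.filter_eq_empty_iff]
    intro z _ hz
    rcases hT.col z with hc | hc
    · have := hT.bd0 z hc
      omega
    · have := hT.bd1 z hc
      omega

/-- The relation of three positions with one letter (two columns only). -/
theorem pt_E {r c : Fin n → ℕ} (hc : ∀ x, c x = 0 ∨ c x = 1) (v : Fin n → ℕ) (b top : ℕ)
    (h3 : (univ.filter fun x => v x = b).card = 3) :
    ∑ x ∈ univ.filter (fun x => v x = b), pt r c (Function.update v x top) = 0 := by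
  obtain ⟨p₁, p₂, p₃, h12, h13, h23, hB⟩ := Finset.card_eq_three.1 h3
  have hmem : ∀ z, z ∈ (univ.filter fun x => v x = b) → v z = b := by
    intro z hz
    exact (Finset.mem_filter.1 hz).2
  have hv1 : v p₁ = b := hmem _ (by rw [hB]; simp)
  have hv2 : v p₂ = b := hmem _ (by rw [hB]; simp)
  have hv3 : v p₃ = b := hmem _ (by rw [hB]; simp)
  -- the general step: p, p' in one column, p'' the third
  have key : ∀ p p' p'' : Fin n, p ≠ p' → p ≠ p'' → p' ≠ p'' → c p = c p' → v p = b → v p' = b →
      pt r c (Function.update v p top) + pt r c (Function.update v p' top) +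
        pt r c (Function.update v p'' top) = 0 := by
    intro p p' p'' hpp' hpp'' hp'p'' hc hvp hvp'
    have h0 : pt r c (Function.update v p'' top) = 0 := by
      apply pt_eq_zero_of_eq r c _ hpp' hc
      rw [Function.update_of_ne hpp'', Function.update_of_ne hp'p'', hvp, hvp']
    have hsw : (fun x => Function.update v p' top (Equiv.swap p p' x)) = Function.update v p top := by
      funext x
      by_cases h1 : x = p
      · subst h1
        simp
      · by_cases h2 : x = p'
        · subst h2
          simp [Function.update_of_ne (Ne.symm hpp'), Function.update_of_ne hpp', hvp, hvp']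
        · rw [Equiv.swap_apply_of_ne_of_ne h1 h2, Function.update_of_ne h1, Function.update_of_ne h2]
    have h1 := pt_swap r c (Function.update v p' top) hpp' hc
    rw [hsw] at h1
    rw [h0, h1]
    ring
  rw [hB, Finset.sum_insert (by simp [h12, h13]), Finset.sum_insert (by simp [h23]),
    Finset.sum_singleton]
  -- two of the three are in one column
  rcases hc p₁ with c1 | c1 <;> rcases hc p₂ with c2 | c2 <;> rcases hc p₃ with c3 | c3
  · have := key p₁ p₂ p₃ h12 h13 h23 (c1.trans c2.symm) hv1 hv2
    linarith
  · have := key p₁ p₂ p₃ h12 h13 h23 (c1.trans c2.symm) hv1 hv2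
    linarith
  · have := key p₁ p₃ p₂ h13 h12 h23.symm (c1.trans c3.symm) hv1 hv3
    linarith
  · have := key p₂ p₃ p₁ h23 h12.symm h13.symm (c2.trans c3.symm) hv2 hv3
    linarith
  · have := key p₂ p₃ p₁ h23 h12.symm h13.symm (c2.trans c3.symm) hv2 hv3
    linarith
  · have := key p₁ p₃ p₂ h13 h12 h23.symm (c1.trans c3.symm) hv1 hv3
    linarith
  · have := key p₁ p₂ p₃ h12 h13 h23 (c1.trans c2.symm) hv1 hv2
    linarith
  · have := key p₁ p₂ p₃ h12 h13 h23 (c1.trans c2.symm) hv1 hv2
    linarith

/-- The coefficient of a sum of fillings is the product. -/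
theorem pt_sum {N k l : ℕ} (e : Fin N ≃ Fin k ⊕ Fin l) {r c : Fin k → ℕ} {r' c' : Fin l → ℕ}
    {rp cp : Fin N → ℕ} (h : IsSum e r c r' c' rp cp) (v : Fin N → ℕ) :
    pt rp cp v = pt r c (fun x => v (e.symm (Sum.inl x))) * pt r' c' (fun y => v (e.symm (Sum.inr y))) := by
  unfold pt
  rw [Finset.sum_mul_sum, sum_colS_split e h]
  refine Finset.sum_congr rfl fun a _ => Finset.sum_congr rfl fun b _ => ?_
  rw [sgnZ_block]
  have hblock₁ : ∀ x, ((e.trans (Equiv.sumCongr a b)).trans e.symm) (e.symm (Sum.inl x)) =
      e.symm (Sum.inl (a x)) := by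
    intro x
    simp
  have hblock₂ : ∀ y, ((e.trans (Equiv.sumCongr a b)).trans e.symm) (e.symm (Sum.inr y)) =
      e.symm (Sum.inr (b y)) := by
    intro y
    simp
  have hcond : (∀ z, rp (((e.trans (Equiv.sumCongr a b)).trans e.symm) z) = v z) ↔
      (∀ x, r (a x) = v (e.symm (Sum.inl x))) ∧ (∀ y, r' (b y) = v (e.symm (Sum.inr y))) := by
    constructor
    · intro hz
      constructor
      · intro x
        have := hz (e.symm (Sum.inl x))
        rwa [hblock₁, h.row_inl] at this
      · intro y
        have := hz (e.symm (Sum.inr y))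
        rwa [hblock₂, h.row_inr] at this
    · rintro ⟨h1, h2⟩ z
      obtain ⟨u, rfl⟩ := e.symm.surjective z
      rcases u with x | y
      · rw [hblock₁, h.row_inl]
        exact h1 x
      · rw [hblock₂, h.row_inr]
        exact h2 y
  rw [if_congr hcond rfl rfl]
  by_cases h1 : ∀ x, r (a x) = v (e.symm (Sum.inl x)) <;>
    by_cases h2 : ∀ y, r' (b y) = v (e.symm (Sum.inr y)) <;>
    simp [h1, h2]

end Vale.Agent.Lib.P197Z
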