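import Vale.Agent.Lib.P197Z.Conc
import Vale.Agent.Lib.P197Z.PtBasic

/-!
# P197Z: concentration for the Young symmetrizer of two column shapes (blueprint Sec 3)
-/

open Equiv Finset

namespace Vale.Agent.Lib.P197Z

open Vale.Agent.Lib.P197W

variable {n : ℕ}

/-- The content does not change under a permutation of the positions. -/
private theorem Std_of_comp {m : ℕ} {w : Fin n → ℕ} (g : Perm (Fin n))
    (h : Std m fun x => w (g x)) : Std m w := by
  intro a
  rw [← h a]
  refine Finset.card_bij (fun x _ => g⁻¹ x) ?_ ?_ ?_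
  · intro x hx
    simp only [Finset.mem_filter, Finset.mem_univ, true_and] at hx ⊢
    simpa using hx
  · intro x _ y _ hxy
    exact g⁻¹.injective hxy
  · intro y hy
    simp only [Finset.mem_filter, Finset.mem_univ, true_and] at hy
    refine ⟨g y, ?_, by simp⟩
    simpa using hy

/-- If the symmetrizer is non zero somewhere, it is non zero on a word with letters on two lines. -/
theorem concYY (m : ℕ) (hm : 1 ≤ m) (hn : n + 1 = 2 * m) {r₁ c₁ r₂ c₂ r₃ c₃ : Fin n → ℕ}
    (hT₁ : TwoCol m r₁ c₁) (hT₂ : TwoCol m r₂ c₂) {W : Fin n → ℕ × ℕ}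
    (h : YY r₃ c₃ (ptt r₁ c₁ r₂ c₂) W ≠ 0) :
    ∃ W' : Fin n → ℕ × ℕ, (∀ x, m ≤ (W' x).1 + (W' x).2 + 2 ∧ (W' x).1 + (W' x).2 + 1 ≤ m) ∧
      YY r₃ c₃ (ptt r₁ c₁ r₂ c₂) W' ≠ 0 := by
  by_contra hno
  push Not at hno
  -- the content of `W`
  obtain ⟨ρ, -, hρ⟩ := Finset.exists_ne_zero_of_sum_ne_zero h
  obtain ⟨q, -, hq⟩ := Finset.exists_ne_zero_of_sum_ne_zero hρ
  have hptt : ptt r₁ c₁ r₂ c₂ (fun x => W (ρ (q x))) ≠ 0 := right_ne_zero_of_mul hq
  have hpt₁ : pt r₁ c₁ (fun x => (W (ρ (q x))).1) ≠ 0 := left_ne_zero_of_mul hptt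
  have hpt₂ : pt r₂ c₂ (fun x => (W (ρ (q x))).2) ≠ 0 := right_ne_zero_of_mul hptt
  have hS₁ : Std m fun x => (W x).1 :=
    Std_of_comp (w := fun x => (W x).1) (ρ * q) (std_of_pt_ne hT₁ hpt₁)
  have hS₂ : Std m fun x => (W x).2 :=
    Std_of_comp (w := fun x => (W x).2) (ρ * q) (std_of_pt_ne hT₂ hpt₂)
  refine h (concentration m hm hn (YY r₃ c₃ (ptt r₁ c₁ r₂ c₂)) ?_ ?_ ?_ ?_ W hS₁ hS₂)
  · -- letters in the first coordinate
    intro V a b ha hb
    unfold YY
    refine Finset.sum_congr rfl (fun ρ _ => Finset.sum_congr rfl (fun q _ => ?_))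
    congr 1
    unfold ptt
    congr 1
    exact pt_letter_swap hT₁ (fun x => (V (ρ (q x))).1) ha hb
  · -- letters in the second coordinate
    intro V a b ha hb
    unfold YY
    refine Finset.sum_congr rfl (fun ρ _ => Finset.sum_congr rfl (fun q _ => ?_))
    congr 1
    unfold ptt
    congr 1
    exact pt_letter_swap hT₂ (fun x => (V (ρ (q x))).2) ha hb
  · -- the three term relation
    intro V b hb
    unfold YY
    rw [Finset.sum_comm]
    refine Finset.sum_eq_zero (fun ρ _ => ?_)
    rw [Finset.sum_comm]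
    refine Finset.sum_eq_zero (fun q _ => ?_)
    rw [← Finset.mul_sum]
    have key : ∑ x ∈ univ.filter (fun x => (V x).2 = b),
        ptt r₁ c₁ r₂ c₂ (fun z => Function.update V x ((V x).1, m - 1) (ρ (q z))) = 0 := by
      set g : Perm (Fin n) := ρ * q with hg
      set v : Fin n → ℕ := fun z => (V (g z)).2 with hv
      have hcard : (univ.filter fun z => v z = b).card = 3 := by
        rw [← hb]
        refine Finset.card_bij (fun z _ => g z) ?_ ?_ ?_
        · intro z hz
          simpa [hv] using hz
        · intro z _ y _ hzy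
          exact g.injective hzy
        · intro y hy
          refine ⟨g⁻¹ y, ?_, by simp⟩
          simpa [hv] using hy
      have hE := pt_E (r := r₂) (c := c₂) hT₂.col v b (m - 1) hcard
      have hfst : ∀ x z, (Function.update V x ((V x).1, m - 1) (ρ (q z))).1 = (V (ρ (q z))).1 := by
        intro x z
        by_cases hz : ρ (q z) = x
        · rw [hz]; simp
        · rw [Function.update_of_ne hz]
      have hsnd : ∀ x, (fun z => (Function.update V x ((V x).1, m - 1) (ρ (q z))).2) =
          Function.update v (g⁻¹ x) (m - 1) := by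
        intro x
        funext z
        by_cases hz : ρ (q z) = x
        · have hz' : z = g⁻¹ x := by
            rw [← hz, hg]; simp
          rw [hz', Function.update_self, hg]; simp
        · have hz' : z ≠ g⁻¹ x := by
            intro e
            apply hz
            rw [e, hg]; simp
          rw [Function.update_of_ne hz', Function.update_of_ne hz]
          rfl
      have hsum : ∑ x ∈ univ.filter (fun x => (V x).2 = b),
          pt r₂ c₂ (Function.update v (g⁻¹ x) (m - 1)) =
          ∑ z ∈ univ.filter (fun z => v z = b), pt r₂ c₂ (Function.update v z (m - 1)) := by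
        refine Finset.sum_bij (fun x _ => g⁻¹ x) ?_ ?_ ?_ ?_
        · intro x hx
          simpa [hv] using hx
        · intro x _ y _ hxy
          exact g⁻¹.injective hxy
        · intro z hz
          refine ⟨g z, ?_, by simp⟩
          simpa [hv] using hz
        · intro x _
          rfl
      unfold ptt
      simp_rw [hfst, hsnd]
      rw [← Finset.mul_sum, hsum, hE, mul_zero]
    rw [key, mul_zero]
  · -- words with the path
    intro V hV
    by_contra hne
    exact hne (hno V (fun x => path_lines m hm hn V hV x))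

end Vale.Agent.Lib.P197Z
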