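import Vale.Agent.Lib.P197W.Conj
import Vale.Agent.Lib.P197W.Pos

/-!
# P197Z: transposing the first two shapes for any third row and column function (part Z_conj)
-/

open Equiv Finset

namespace Vale.Agent.Lib.P197Z

open Vale.Agent.Lib.P197 Vale.Agent.Lib.P197W

variable {n : ℕ}

/-- The average of `mF` over relabellings of the first two fillings. -/
theorem sum_mF_two {la mu : YoungDiagram} (T₁ : Filling n la) (T₂ : Filling n mu) (r d : Fin n → ℕ) :
    ((∑ σ₁ : Perm (Fin n), ∑ σ₂ : Perm (Fin n),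
        mF (rowOf (σ₁.trans T₁)) (colOf (σ₁.trans T₁)) (rowOf (σ₂.trans T₂)) (colOf (σ₂.trans T₂))
          r d : ℤ) : ℝ) =
      (((colStab T₁).card : ℝ) * ((n.factorial : ℕ) : ℝ)) *
        (((colStab T₂).card : ℝ) * ((n.factorial : ℕ) : ℝ)) *
        ∑ π : Perm (Fin n), rr T₁ π * rr T₂ π * ((gF r d π : ℤ) : ℝ) := by
  have key : (∑ σ₁ : Perm (Fin n), ∑ σ₂ : Perm (Fin n),
        mF (rowOf (σ₁.trans T₁)) (colOf (σ₁.trans T₁)) (rowOf (σ₂.trans T₂)) (colOf (σ₂.trans T₂))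
          r d : ℤ) =
      ∑ π : Perm (Fin n),
        (∑ σ₁ : Perm (Fin n), gF (rowOf (σ₁.trans T₁)) (colOf (σ₁.trans T₁)) π) *
        (∑ σ₂ : Perm (Fin n), gF (rowOf (σ₂.trans T₂)) (colOf (σ₂.trans T₂)) π) *
        gF r d π := by
    unfold mF
    calc _ = ∑ σ₁ : Perm (Fin n), ∑ π : Perm (Fin n), ∑ σ₂ : Perm (Fin n),
          gF (rowOf (σ₁.trans T₁)) (colOf (σ₁.trans T₁)) π *
            gF (rowOf (σ₂.trans T₂)) (colOf (σ₂.trans T₂)) π * gF r d π := by
            refine Finset.sum_congr rfl fun σ₁ _ => ?_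
            exact Finset.sum_comm
      _ = ∑ π : Perm (Fin n), ∑ σ₁ : Perm (Fin n), ∑ σ₂ : Perm (Fin n),
          gF (rowOf (σ₁.trans T₁)) (colOf (σ₁.trans T₁)) π *
            gF (rowOf (σ₂.trans T₂)) (colOf (σ₂.trans T₂)) π * gF r d π := Finset.sum_comm
      _ = _ := by
            refine Finset.sum_congr rfl fun π _ => ?_
            rw [Finset.sum_mul_sum, Finset.sum_mul]
            refine Finset.sum_congr rfl fun σ₁ _ => ?_
            rw [Finset.sum_mul]
  rw [key, Int.cast_sum, Finset.mul_sum]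
  refine Finset.sum_congr rfl fun π _ => ?_
  rw [Int.cast_mul, Int.cast_mul, gF_avg T₁ π, gF_avg T₂ π]
  ring

private theorem factor_two_ne {la mu : YoungDiagram} (T₁ : Filling n la) (T₂ : Filling n mu) :
    (((colStab T₁).card : ℝ) * ((n.factorial : ℕ) : ℝ)) *
        (((colStab T₂).card : ℝ) * ((n.factorial : ℕ) : ℝ)) ≠ 0 := by
  have h₁ : 0 < (colStab T₁).card := Finset.card_pos.2 ⟨1, by simp [colStab]⟩
  have h₂ : 0 < (colStab T₂).card := Finset.card_pos.2 ⟨1, by simp [colStab]⟩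
  have h₁' : ((colStab T₁).card : ℝ) ≠ 0 := by exact_mod_cast h₁.ne'
  have h₂' : ((colStab T₂).card : ℝ) ≠ 0 := by exact_mod_cast h₂.ne'
  have hf : ((n.factorial : ℕ) : ℝ) ≠ 0 := by exact_mod_cast n.factorial_ne_zero
  positivity

/-- The square of the sign, as a real number. -/
private theorem sgn_sq_real (π : Perm (Fin n)) : ((sgnZ π : ℤ) : ℝ) * ((sgnZ π : ℤ) : ℝ) = 1 := by
  have h := sgnZ_mul_sgnZ_self π
  exact_mod_cast h

/-- **Transposing the first two shapes** for any third row and column function. -/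
theorem conj_skew_aux {μ : YoungDiagram} (T₁ T₂ : Filling n μ) (r d : Fin n → ℕ)
    (h : polyF (rowOf T₁) (colOf T₁) (rowOf T₂) (colOf T₂) r d ≠ 0) :
    ∃ (T₁' T₂' : Filling n μ.transpose),
      polyF (rowOf T₁') (colOf T₁') (rowOf T₂') (colOf T₂') r d ≠ 0 := by
  classical
  -- the average for the given fillings is positive
  have hpos : 0 < (∑ σ₁ : Perm (Fin n), ∑ σ₂ : Perm (Fin n),
        mF (rowOf (σ₁.trans T₁)) (colOf (σ₁.trans T₁)) (rowOf (σ₂.trans T₂)) (colOf (σ₂.trans T₂))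
          r d : ℤ) := by
    have h0 : mF (rowOf ((1 : Perm (Fin n)).trans T₁)) (colOf ((1 : Perm (Fin n)).trans T₁))
        (rowOf ((1 : Perm (Fin n)).trans T₂)) (colOf ((1 : Perm (Fin n)).trans T₂)) r d ≠ 0 := by
      intro hz
      exact h ((mF_eq_zero_iff _ _ _ _ _ _).1 hz)
    have h0' := lt_of_le_of_ne (mF_nonneg _ _ _ _ r d) h0.symm
    refine lt_of_lt_of_le h0' ?_
    calc _ ≤ ∑ σ₂ : Perm (Fin n), mF (rowOf ((1 : Perm (Fin n)).trans T₁))
          (colOf ((1 : Perm (Fin n)).trans T₁)) (rowOf (σ₂.trans T₂)) (colOf (σ₂.trans T₂)) r d :=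
          Finset.single_le_sum
            (f := fun σ₂ : Perm (Fin n) => mF (rowOf ((1 : Perm (Fin n)).trans T₁))
              (colOf ((1 : Perm (Fin n)).trans T₁)) (rowOf (σ₂.trans T₂)) (colOf (σ₂.trans T₂)) r d)
            (fun _ _ => mF_nonneg _ _ _ _ _ _) (Finset.mem_univ (1 : Perm (Fin n)))
      _ ≤ _ := Finset.single_le_sum
            (f := fun σ₁ : Perm (Fin n) => ∑ σ₂ : Perm (Fin n), mF (rowOf (σ₁.trans T₁))
              (colOf (σ₁.trans T₁)) (rowOf (σ₂.trans T₂)) (colOf (σ₂.trans T₂)) r d)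
            (fun _ _ => Finset.sum_nonneg fun _ _ => mF_nonneg _ _ _ _ _ _)
            (Finset.mem_univ (1 : Perm (Fin n)))
  -- so the character sum is non zero
  have hsum : ∑ π : Perm (Fin n), rr T₁ π * rr T₂ π * ((gF r d π : ℤ) : ℝ) ≠ 0 := by
    intro hz
    have hs := sum_mF_two T₁ T₂ r d
    rw [hz, mul_zero] at hs
    have : (∑ σ₁ : Perm (Fin n), ∑ σ₂ : Perm (Fin n),
        mF (rowOf (σ₁.trans T₁)) (colOf (σ₁.trans T₁)) (rowOf (σ₂.trans T₂)) (colOf (σ₂.trans T₂))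
          r d : ℤ) = 0 := by exact_mod_cast hs
    omega
  -- the character sum for the transposed fillings is the same
  have hsum' : ∑ π : Perm (Fin n), rr (tFill T₁) π * rr (tFill T₂) π * ((gF r d π : ℤ) : ℝ) ≠ 0 := by
    have he : ∑ π : Perm (Fin n), rr (tFill T₁) π * rr (tFill T₂) π * ((gF r d π : ℤ) : ℝ) =
        ∑ π : Perm (Fin n), rr T₁ π * rr T₂ π * ((gF r d π : ℤ) : ℝ) := by
      refine Finset.sum_congr rfl fun π _ => ?_
      rw [rr_tFill, rr_tFill]
      have hs := sgn_sq_real π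
      calc _ = (((sgnZ π : ℤ) : ℝ) * ((sgnZ π : ℤ) : ℝ)) * (rr T₁ π * rr T₂ π * ((gF r d π : ℤ) : ℝ)) := by
            ring
        _ = _ := by rw [hs, one_mul]
    rw [he]
    exact hsum
  -- so some relabelling of the transposed fillings has a non zero polynomial
  by_contra hno'
  have hno : ∀ σ₁ σ₂ : Perm (Fin n),
      polyF (rowOf (σ₁.trans (tFill T₁))) (colOf (σ₁.trans (tFill T₁)))
        (rowOf (σ₂.trans (tFill T₂))) (colOf (σ₂.trans (tFill T₂))) r d = 0 :=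
    fun a b => by_contra fun hh => hno' ⟨_, _, hh⟩
  have hs := sum_mF_two (tFill T₁) (tFill T₂) r d
  have hz : (∑ σ₁ : Perm (Fin n), ∑ σ₂ : Perm (Fin n),
        mF (rowOf (σ₁.trans (tFill T₁))) (colOf (σ₁.trans (tFill T₁)))
          (rowOf (σ₂.trans (tFill T₂))) (colOf (σ₂.trans (tFill T₂))) r d : ℤ) = 0 := by
    refine Finset.sum_eq_zero fun σ₁ _ => Finset.sum_eq_zero fun σ₂ _ => ?_
    exact (mF_eq_zero_iff _ _ _ _ _ _).2 (hno σ₁ σ₂)
  rw [hz, Int.cast_zero] at hs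
  exact (mul_eq_zero.1 hs.symm).elim (factor_two_ne _ _) hsum'

end Vale.Agent.Lib.P197Z
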