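import Vale.Agent.Lib.P197Z.BaseKP

/-!
# P197Z: relabelling lemmas for the polynomial (blueprint Sec 5)
-/

open Equiv Finset

namespace Vale.Agent.Lib.P197Z.Rename

open Vale.Agent.Lib.P197 Vale.Agent.Lib.P197W Vale.Agent.Lib.P197X

variable {n : ℕ}

/-- Simultaneous precomposition with a permutation does not change the polynomial. -/
theorem polyF_perm (π : Perm (Fin n)) (r₁ c₁ r₂ c₂ r₃ c₃ : Fin n → ℕ) :
    polyF (fun x => r₁ (π x)) (fun x => c₁ (π x)) (fun x => r₂ (π x)) (fun x => c₂ (π x))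
      (fun x => r₃ (π x)) (fun x => c₃ (π x)) = polyF r₁ c₁ r₂ c₂ r₃ c₃ := by
  classical
  unfold polyF
  let φ : Perm (Fin n) ≃ Perm (Fin n) := (MulAut.conj π).toEquiv
  have hφ : ∀ q : Perm (Fin n), φ q = π * q * π⁻¹ := fun _ => rfl
  have hmem : ∀ (c : Fin n → ℕ) (q : Perm (Fin n)),
      q ∈ colS (fun x => c (π x)) ↔ φ q ∈ colS c := by
    intro c q
    rw [mem_colS', mem_colS', hφ]
    constructor
    · intro h x
      have := h (π⁻¹ x)
      simpa using this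
    · intro h x
      have := h (π x)
      simpa using this
  have hsg : ∀ q : Perm (Fin n), sgnZ (φ q) = sgnZ q := by
    intro q
    rw [hφ, sgnZ_mul', sgnZ_mul', sgnZ_inv']
    have := sgnZ_mul_self' π
    calc sgnZ π * sgnZ q * sgnZ π = (sgnZ π * sgnZ π) * sgnZ q := by ring
      _ = sgnZ q := by rw [this, one_mul]
  refine Finset.sum_equiv φ (hmem c₁) (fun q₁ _ => ?_)
  refine Finset.sum_equiv φ (hmem c₂) (fun q₂ _ => ?_)
  refine Finset.sum_equiv φ (hmem c₃) (fun q₃ _ => ?_)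
  rw [hsg, hsg, hsg]
  congr 1
  refine Fintype.prod_equiv π _ _ (fun x => ?_)
  simp [hφ]

/-- Renaming the row labels of the third filling. -/
theorem polyF_rename_ne (r₁ c₁ r₂ c₂ r₃ c₃ : Fin n → ℕ) (φ : ℕ → ℕ)
    (h : polyF r₁ c₁ r₂ c₂ (fun x => φ (r₃ x)) c₃ ≠ 0) : polyF r₁ c₁ r₂ c₂ r₃ c₃ ≠ 0 := by
  intro h0
  apply h
  have h1 := congrArg (MvPolynomial.rename (fun t : ℕ × ℕ × ℕ => (t.1, t.2.1, φ t.2.2))) h0
  rw [map_zero] at h1
  rw [← h1]
  unfold polyF
  simp only [map_sum, map_mul, MvPolynomial.rename_C, map_prod, MvPolynomial.rename_X]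

/-- A colouring of one finite set. -/
private theorem exists_index (S : Finset ℕ) :
    ∃ f : ℕ → ℕ, (∀ x ∈ S, f x < S.card) ∧ (∀ x ∈ S, ∀ y ∈ S, f x = f y → x = y) := by
  classical
  refine ⟨fun x => if h : x ∈ S then (S.equivFin ⟨x, h⟩ : ℕ) else 0, ?_, ?_⟩
  · intro x hx
    simp only [dif_pos hx]
    exact (S.equivFin ⟨x, hx⟩).2
  · intro x hx y hy hxy
    simp only [dif_pos hx, dif_pos hy] at hxy
    have h1 : S.equivFin ⟨x, hx⟩ = S.equivFin ⟨y, hy⟩ := Fin.ext hxy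
    have h2 := S.equivFin.injective h1
    exact congrArg Subtype.val h2

/-- A colouring of the row labels of two columns. -/
theorem exists_color (K K' : Finset ℕ) :
    ∃ φ : ℕ → ℕ, (∀ x ∈ K, φ x < K.card) ∧ (∀ x ∈ K, ∀ y ∈ K, φ x = φ y → x = y) ∧
      (∀ x ∈ K', φ x < K'.card) ∧ (∀ x ∈ K', ∀ y ∈ K', φ x = φ y → x = y) := by
  classical
  obtain ⟨fA, hA1, hA2⟩ := exists_index (K ∩ K')
  obtain ⟨fB, hB1, hB2⟩ := exists_index (K \ K')
  obtain ⟨fC, hC1, hC2⟩ := exists_index (K' \ K)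
  set a := (K ∩ K').card with ha
  have hK : (K \ K').card + a = K.card := by
    rw [ha]; exact Finset.card_sdiff_add_card_inter K K'
  have hK' : (K' \ K).card + a = K'.card := by
    rw [ha, Finset.inter_comm]; exact Finset.card_sdiff_add_card_inter K' K
  refine ⟨fun x => if x ∈ K ∩ K' then fA x else if x ∈ K then a + fB x else a + fC x,
    ?_, ?_, ?_, ?_⟩
  · intro x hx
    by_cases h : x ∈ K'
    · have hm : x ∈ K ∩ K' := Finset.mem_inter.2 ⟨hx, h⟩
      have := hA1 x hm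
      simp only [if_pos hm]
      omega
    · have hm : x ∉ K ∩ K' := fun h' => h (Finset.mem_inter.1 h').2
      have := hB1 x (Finset.mem_sdiff.2 ⟨hx, h⟩)
      simp only [if_neg hm, if_pos hx]
      omega
  · intro x hx y hy hxy
    by_cases h : x ∈ K'
    · have hm : x ∈ K ∩ K' := Finset.mem_inter.2 ⟨hx, h⟩
      by_cases h' : y ∈ K'
      · have hm' : y ∈ K ∩ K' := Finset.mem_inter.2 ⟨hy, h'⟩
        simp only [if_pos hm, if_pos hm'] at hxy
        exact hA2 x hm y hm' hxy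
      · have hm' : y ∉ K ∩ K' := fun h'' => h' (Finset.mem_inter.1 h'').2
        simp only [if_pos hm, if_neg hm', if_pos hy] at hxy
        have := hA1 x hm
        omega
    · have hm : x ∉ K ∩ K' := fun h' => h (Finset.mem_inter.1 h').2
      by_cases h' : y ∈ K'
      · have hm' : y ∈ K ∩ K' := Finset.mem_inter.2 ⟨hy, h'⟩
        simp only [if_neg hm, if_pos hx, if_pos hm'] at hxy
        have := hA1 y hm'
        omega
      · have hm' : y ∉ K ∩ K' := fun h'' => h' (Finset.mem_inter.1 h'').2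
        simp only [if_neg hm, if_neg hm', if_pos hx, if_pos hy] at hxy
        exact hB2 x (Finset.mem_sdiff.2 ⟨hx, h⟩) y (Finset.mem_sdiff.2 ⟨hy, h'⟩) (by omega)
  · intro x hx
    by_cases h : x ∈ K
    · have hm : x ∈ K ∩ K' := Finset.mem_inter.2 ⟨h, hx⟩
      have := hA1 x hm
      simp only [if_pos hm]
      omega
    · have hm : x ∉ K ∩ K' := fun h' => h (Finset.mem_inter.1 h').1
      have := hC1 x (Finset.mem_sdiff.2 ⟨hx, h⟩)
      simp only [if_neg hm, if_neg h]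
      omega
  · intro x hx y hy hxy
    by_cases h : x ∈ K
    · have hm : x ∈ K ∩ K' := Finset.mem_inter.2 ⟨h, hx⟩
      by_cases h' : y ∈ K
      · have hm' : y ∈ K ∩ K' := Finset.mem_inter.2 ⟨h', hy⟩
        simp only [if_pos hm, if_pos hm'] at hxy
        exact hA2 x hm y hm' hxy
      · have hm' : y ∉ K ∩ K' := fun h'' => h' (Finset.mem_inter.1 h'').1
        simp only [if_pos hm, if_neg hm', if_neg h'] at hxy
        have := hA1 x hm
        omega
    · have hm : x ∉ K ∩ K' := fun h' => h (Finset.mem_inter.1 h').1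
      by_cases h' : y ∈ K
      · have hm' : y ∈ K ∩ K' := Finset.mem_inter.2 ⟨h', hy⟩
        simp only [if_neg hm, if_neg h, if_pos hm'] at hxy
        have := hA1 y hm'
        omega
      · have hm' : y ∉ K ∩ K' := fun h'' => h' (Finset.mem_inter.1 h'').1
        simp only [if_neg hm, if_neg hm', if_neg h, if_neg h'] at hxy
        exact hC2 x (Finset.mem_sdiff.2 ⟨hx, h⟩) y (Finset.mem_sdiff.2 ⟨hy, h'⟩) (by omega)

/-- Simultaneous relabelling: from `KP` a non zero polynomial for any third filling. -/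
theorem poly_of_KP {A B C : YoungDiagram} (h : KP A B C) (T₃ : Filling n C) :
    ∃ (T₁ : Filling n A) (T₂ : Filling n B), polyP T₁ T₂ T₃ ≠ 0 := by
  classical
  obtain ⟨n', S₁, S₂, S₃, hS⟩ := h
  obtain rfl : n' = n := (card_of_filling S₃).symm.trans (card_of_filling T₃)
  have hT : ∑ π : Perm (Fin n'), rr S₁ π * rr S₂ π * rr T₃ π ≠ 0 :=
    KP_all ⟨n', S₁, S₂, S₃, hS⟩ S₁ S₂ T₃
  obtain ⟨σ₁, σ₂, σ₃, hP⟩ := poly_of_pos S₁ S₂ T₃ hT
  refine ⟨σ₃⁻¹.trans (σ₁.trans S₁), σ₃⁻¹.trans (σ₂.trans S₂), ?_⟩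
  have hE := polyF_perm σ₃⁻¹ (rowOf (σ₁.trans S₁)) (colOf (σ₁.trans S₁))
    (rowOf (σ₂.trans S₂)) (colOf (σ₂.trans S₂)) (rowOf (σ₃.trans T₃)) (colOf (σ₃.trans T₃))
  intro h0
  apply hP
  unfold polyP at h0 ⊢
  rw [← hE]
  have hr : ∀ (μ : YoungDiagram) (T : Filling n' μ),
      (fun x => rowOf T (σ₃⁻¹ x)) = rowOf (σ₃⁻¹.trans T) := fun μ T => rfl
  have hc : ∀ (μ : YoungDiagram) (T : Filling n' μ),
      (fun x => colOf T (σ₃⁻¹ x)) = colOf (σ₃⁻¹.trans T) := fun μ T => rfl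
  have hr3 : (fun x => rowOf (σ₃.trans T₃) (σ₃⁻¹ x)) = rowOf T₃ := by
    funext x
    show rowOf T₃ (σ₃ (σ₃⁻¹ x)) = rowOf T₃ x
    simp
  have hc3 : (fun x => colOf (σ₃.trans T₃) (σ₃⁻¹ x)) = colOf T₃ := by
    funext x
    show colOf T₃ (σ₃ (σ₃⁻¹ x)) = colOf T₃ x
    simp
  rw [hr3, hc3, hr, hc, hr, hc]
  exact h0

end Vale.Agent.Lib.P197Z.Rename
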