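import Vale.Agent.Lib.P197Z.BaseKP
import Vale.Agent.Lib.P197Z.ConjSkew
import Vale.Agent.Lib.P197Z.Rename

/-!
# P197Z: the polynomial of a layer (blueprint Sec 5)
-/

open Equiv Finset

namespace Vale.Agent.Lib.P197Z

open Vale.Agent.Lib.P197 Vale.Agent.Lib.P197W Vale.Agent.Lib.P197X

variable {n : ℕ}

/-- Simultaneous relabelling: from `KP` a non zero polynomial for any third filling. -/
theorem poly_of_KP {A B C : YoungDiagram} (h : KP A B C) (T₃ : Filling n C) :
    ∃ (T₁ : Filling n A) (T₂ : Filling n B), polyP T₁ T₂ T₃ ≠ 0 :=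
  Rename.poly_of_KP h T₃

/-- Renaming the row labels of the third filling. -/
theorem polyF_rename_ne (r₁ c₁ r₂ c₂ r₃ c₃ : Fin n → ℕ) (φ : ℕ → ℕ)
    (h : polyF r₁ c₁ r₂ c₂ (fun x => φ (r₃ x)) c₃ ≠ 0) : polyF r₁ c₁ r₂ c₂ r₃ c₃ ≠ 0 :=
  Rename.polyF_rename_ne r₁ c₁ r₂ c₂ r₃ c₃ φ h

/-- A colouring of the row labels of two columns. -/
theorem exists_color (K K' : Finset ℕ) :
    ∃ φ : ℕ → ℕ, (∀ x ∈ K, φ x < K.card) ∧ (∀ x ∈ K, ∀ y ∈ K, φ x = φ y → x = y) ∧
      (∀ x ∈ K', φ x < K'.card) ∧ (∀ x ∈ K', ∀ y ∈ K', φ x = φ y → x = y) :=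
  Rename.exists_color K K'

/-! ### Helper lemmas for `layer_poly` (helper4) -/

/-- The third column function enters only through its stabiliser. -/
theorem polyF_congr_col (r₁ c₁ r₂ c₂ r₃ : Fin n → ℕ) {c₃ c₃' : Fin n → ℕ}
    (h : ∀ x y, c₃ x = c₃ y ↔ c₃' x = c₃' y) :
    polyF r₁ c₁ r₂ c₂ r₃ c₃ = polyF r₁ c₁ r₂ c₂ r₃ c₃' := by
  have hS : colS c₃ = colS c₃' := by
    ext q
    simp only [colS, mem_filter, mem_univ, true_and]
    exact forall_congr' fun x => h _ _
  unfold polyF
  rw [hS]

/-- A filling of one column. -/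
theorem exists_fill_one {l : ℕ} (r₀ : Fin l → ℕ) (hlt : ∀ x, r₀ x < l)
    (hinj : Function.Injective r₀) :
    ∃ T : Filling l (ofCols {l}), (∀ x, rowOf T x = r₀ x) ∧ (∀ x y, colOf T x = colOf T y) := by
  classical
  have hmem : ∀ x, (r₀ x, 0) ∈ (ofCols {l}).cells := by
    intro x
    rw [YoungDiagram.mem_cells, mem_ofCols]
    have : r₀ x < l := hlt x
    simp [Multiset.filter_singleton, this]
  let f : Fin l → {c // c ∈ (ofCols ({l} : Multiset ℕ)).cells} := fun x => ⟨(r₀ x, 0), hmem x⟩
  have hfi : Function.Injective f := by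
    intro x y hxy
    have := congrArg (fun c => c.1.1) hxy
    exact hinj this
  have hcard : Fintype.card (Fin l) = Fintype.card {c // c ∈ (ofCols ({l} : Multiset ℕ)).cells} := by
    have h1 := card_ofCols ({l} : Multiset ℕ)
    have h2 : Fintype.card {c // c ∈ (ofCols ({l} : Multiset ℕ)).cells} = (ofCols ({l} : Multiset ℕ)).card := by
      simp [YoungDiagram.card]
    rw [h2, h1]
    simp
  have hb : Function.Bijective f := (Fintype.bijective_iff_injective_and_card f).2 ⟨hfi, hcard⟩
  refine ⟨Equiv.ofBijective f hb, fun x => rfl, fun x y => rfl⟩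

/-- A filling of two columns. -/
theorem exists_fill_two {l h h' : ℕ} (hle : h' ≤ h) (hsum : l = h + h') (r₀ c₀ : Fin l → ℕ)
    (hc : ∀ x, c₀ x = 0 ∨ c₀ x = 1) (hlt0 : ∀ x, c₀ x = 0 → r₀ x < h)
    (hlt1 : ∀ x, c₀ x = 1 → r₀ x < h')
    (hinj : ∀ x y, r₀ x = r₀ y → c₀ x = c₀ y → x = y) :
    ∃ T : Filling l (ofCols {h, h'}), (∀ x, rowOf T x = r₀ x) ∧ (∀ x, colOf T x = c₀ x) := by
  classical
  have hC : ({h, h'} : Multiset ℕ) = h ::ₘ {h'} := rfl
  have hmem : ∀ x, (r₀ x, c₀ x) ∈ (ofCols ({h, h'} : Multiset ℕ)).cells := by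
    intro x
    rw [YoungDiagram.mem_cells, mem_ofCols, hC]
    rcases hc x with h0 | h1
    · have h2 := hlt0 x h0
      rw [h0, Multiset.filter_cons_of_pos _ h2, Multiset.card_cons]
      exact Nat.succ_pos _
    · have h2 := hlt1 x h1
      have h3 : r₀ x < h := by omega
      rw [h1, Multiset.filter_cons_of_pos _ h3, Multiset.card_cons]
      have : Multiset.card (Multiset.filter (fun y => r₀ x < y) ({h'} : Multiset ℕ)) = 1 := by
        simp [Multiset.filter_singleton, h2]
      rw [this]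
      norm_num
  let f : Fin l → {c // c ∈ (ofCols ({h, h'} : Multiset ℕ)).cells} :=
    fun x => ⟨(r₀ x, c₀ x), hmem x⟩
  have hfi : Function.Injective f := by
    intro x y hxy
    have h1 := congrArg (fun c => c.1.1) hxy
    have h2 := congrArg (fun c => c.1.2) hxy
    exact hinj x y h1 h2
  have hcard : Fintype.card (Fin l) =
      Fintype.card {c // c ∈ (ofCols ({h, h'} : Multiset ℕ)).cells} := by
    have h1 := card_ofCols ({h, h'} : Multiset ℕ)
    have h2 : Fintype.card {c // c ∈ (ofCols ({h, h'} : Multiset ℕ)).cells} =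
        (ofCols ({h, h'} : Multiset ℕ)).card := by
      simp [YoungDiagram.card]
    rw [h2, h1, hC, Fintype.card_fin, hsum]
    simp
  have hb : Function.Bijective f := (Fintype.bijective_iff_injective_and_card f).2 ⟨hfi, hcard⟩
  exact ⟨Equiv.ofBijective f hb, fun x => rfl, fun x => rfl⟩

/-- The polynomial of one class from `KP`. -/
theorem group_one {X : YoungDiagram} {l : ℕ} (r₀ d₀ : Fin l → ℕ) (hconst : ∀ x y, d₀ x = d₀ y)
    (hinj : Function.Injective r₀) (hk : KP X X (ofCols {l})) :
    ∃ T₁ T₂ : Filling l X,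
      polyF (rowOf T₁) (colOf T₁) (rowOf T₂) (colOf T₂) r₀ d₀ ≠ 0 := by
  classical
  obtain ⟨φ, hφ1, hφ2, -, -⟩ := exists_color (univ.image r₀) ∅
  have hcardim : (univ.image r₀).card = l := by
    rw [Finset.card_image_of_injective _ hinj]
    simp
  have hlt : ∀ x, φ (r₀ x) < l := by
    intro x
    have := hφ1 (r₀ x) (Finset.mem_image_of_mem _ (mem_univ x))
    rwa [hcardim] at this
  have hinj' : Function.Injective fun x => φ (r₀ x) := by
    intro x y hxy
    exact hinj (hφ2 _ (Finset.mem_image_of_mem _ (mem_univ x)) _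
      (Finset.mem_image_of_mem _ (mem_univ y)) hxy)
  obtain ⟨T, hT1, hT2⟩ := exists_fill_one (fun x => φ (r₀ x)) hlt hinj'
  obtain ⟨T₁, T₂, hp⟩ := poly_of_KP hk T
  refine ⟨T₁, T₂, polyF_rename_ne _ _ _ _ r₀ d₀ φ ?_⟩
  have hrw : (rowOf T) = fun x => φ (r₀ x) := funext hT1
  unfold polyP at hp
  rw [hrw] at hp
  rwa [polyF_congr_col _ _ _ _ _ (c₃' := d₀)
    (fun x y => ⟨fun _ => hconst x y, fun _ => hT2 x y⟩)] at hp

/-- The polynomial of two classes from `KP`. -/
theorem group_two {X : YoungDiagram} {l h h' : ℕ} (hle : h' ≤ h) (r₀ d₀ : Fin l → ℕ)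
    (K K' : Finset (Fin l)) (hK : K.card = h) (hK' : K'.card = h')
    (hcov : ∀ x, x ∈ K ∨ x ∈ K')
    (hne : ∀ x ∈ K, ∀ y ∈ K', d₀ x ≠ d₀ y)
    (hc1 : ∀ x ∈ K, ∀ y ∈ K, d₀ x = d₀ y) (hc2 : ∀ x ∈ K', ∀ y ∈ K', d₀ x = d₀ y)
    (hinj : ∀ x y, r₀ x = r₀ y → d₀ x = d₀ y → x = y)
    (hk : KP X X (ofCols {h, h'})) :
    ∃ T₁ T₂ : Filling l X,
      polyF (rowOf T₁) (colOf T₁) (rowOf T₂) (colOf T₂) r₀ d₀ ≠ 0 := by
  classical
  have hdisj : Disjoint K K' := by
    rw [Finset.disjoint_left]
    intro x hx hx'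
    exact hne x hx x hx' rfl
  have hl : l = h + h' := by
    have h1 : (K ∪ K').card = h + h' := by rw [Finset.card_union_of_disjoint hdisj, hK, hK']
    have h2 : K ∪ K' = univ := by
      ext x
      simpa using hcov x
    rw [h2] at h1
    simpa using h1
  obtain ⟨φ, hφ1, hφ2, hφ3, hφ4⟩ := exists_color (K.image r₀) (K'.image r₀)
  have hci1 : (K.image r₀).card = h := by
    rw [Finset.card_image_of_injOn, hK]
    intro x hx y hy hxy
    exact hinj x y hxy (hc1 x hx y hy)
  have hci2 : (K'.image r₀).card = h' := by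
    rw [Finset.card_image_of_injOn, hK']
    intro x hx y hy hxy
    exact hinj x y hxy (hc2 x hx y hy)
  let c₀ : Fin l → ℕ := fun x => if x ∈ K then 0 else 1
  have hc₀0 : ∀ x, c₀ x = 0 → x ∈ K := by
    intro x hx
    by_contra hn
    simp [c₀, hn] at hx
  have hc₀1 : ∀ x, c₀ x = 1 → x ∈ K' := by
    intro x hx
    rcases hcov x with h1 | h1
    · simp [c₀, h1] at hx
    · exact h1
  have hcc : ∀ x, c₀ x = 0 ∨ c₀ x = 1 := by
    intro x
    by_cases hx : x ∈ K <;> simp [c₀, hx]
  have hlt0 : ∀ x, c₀ x = 0 → φ (r₀ x) < h := by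
    intro x hx
    have := hφ1 (r₀ x) (Finset.mem_image_of_mem _ (hc₀0 x hx))
    rwa [hci1] at this
  have hlt1 : ∀ x, c₀ x = 1 → φ (r₀ x) < h' := by
    intro x hx
    have := hφ3 (r₀ x) (Finset.mem_image_of_mem _ (hc₀1 x hx))
    rwa [hci2] at this
  have hinj2 : ∀ x y, φ (r₀ x) = φ (r₀ y) → c₀ x = c₀ y → x = y := by
    intro x y hxy hc
    rcases hcc x with h0 | h0
    · have hxK := hc₀0 x h0
      have hyK := hc₀0 y (by omega)
      have := hφ2 _ (Finset.mem_image_of_mem _ hxK) _ (Finset.mem_image_of_mem _ hyK) hxy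
      exact hinj x y this (hc1 x hxK y hyK)
    · have hxK := hc₀1 x h0
      have hyK := hc₀1 y (by omega)
      have := hφ4 _ (Finset.mem_image_of_mem _ hxK) _ (Finset.mem_image_of_mem _ hyK) hxy
      exact hinj x y this (hc2 x hxK y hyK)
  obtain ⟨T, hT1, hT2⟩ := exists_fill_two hle hl (fun x => φ (r₀ x)) c₀ hcc hlt0 hlt1 hinj2
  obtain ⟨T₁, T₂, hp⟩ := poly_of_KP hk T
  refine ⟨T₁, T₂, polyF_rename_ne _ _ _ _ r₀ d₀ φ ?_⟩
  have hrw : (rowOf T) = fun x => φ (r₀ x) := funext hT1
  unfold polyP at hp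
  rw [hrw] at hp
  have hsame : ∀ x y, colOf T x = colOf T y ↔ d₀ x = d₀ y := by
    intro x y
    rw [hT2, hT2]
    constructor
    · intro hxy
      rcases hcc x with h0 | h0
      · exact hc1 x (hc₀0 x h0) y (hc₀0 y (by omega))
      · exact hc2 x (hc₀1 x h0) y (hc₀1 y (by omega))
    · intro hxy
      rcases hcov x with h1 | h1 <;> rcases hcov y with h2 | h2
      · simp [c₀, h1, h2]
      · exact absurd hxy (hne x h1 y h2)
      · exact absurd hxy.symm (hne y h2 x h1)
      · have hx : x ∉ K := fun hh => hne x hh x h1 rfl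
        have hy : y ∉ K := fun hh => hne y hh y h2 rfl
        simp [c₀, hx, hy]
  rwa [polyF_congr_col _ _ _ _ _ (c₃' := d₀) hsame] at hp

/-- One step: split off a union `A` of classes with a two row rectangle. -/
theorem layer_step {m a k l : ℕ} (hma : a < m) (hl : l = 2 * a) (hk : k + l = n)
    (r d : Fin n → ℕ) (A : Finset (Fin n)) (hA : A.card = l)
    (hcl : ∀ x y, d x = d y → (x ∈ A ↔ y ∈ A))
    (IH : ∀ (r' d' : Fin k → ℕ), (∀ x y, r' x = r' y → d' x = d' y → x = y) →
      (∀ j, (univ.filter fun x => d' x = j).card ≤ 4) →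
      ∃ T₁ T₂ : Filling k (topStair (m - a) 2),
        polyF (rowOf T₁) (colOf T₁) (rowOf T₂) (colOf T₂) r' d' ≠ 0)
    (hinj : ∀ x y, r x = r y → d x = d y → x = y)
    (hcol : ∀ j, (univ.filter fun x => d x = j).card ≤ 4)
    (hg : ∀ (r₀ d₀ : Fin l → ℕ) (f : Fin l → Fin n), Function.Injective f →
      (∀ y, f y ∈ A) → (∀ y, r₀ y = r (f y)) → (∀ y, d₀ y = d (f y)) →
      ∃ T₁ T₂ : Filling l (rect a),
        polyF (rowOf T₁) (colOf T₁) (rowOf T₂) (colOf T₂) r₀ d₀ ≠ 0) :
    ∃ T₁ T₂ : Filling n (topStair m 2),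
      polyF (rowOf T₁) (colOf T₁) (rowOf T₂) (colOf T₂) r d ≠ 0 := by
  classical
  have hcA : Fintype.card {x // x ∈ A} = l := by simp [hA]
  have hcB : Fintype.card {x // ¬ x ∈ A} = k := by
    rw [Fintype.card_subtype_compl]
    simp [hA]
    omega
  let eA : {x // x ∈ A} ≃ Fin l := Fintype.equivFinOfCardEq hcA
  let eB : {x // ¬ x ∈ A} ≃ Fin k := Fintype.equivFinOfCardEq hcB
  let e : Fin n ≃ Fin k ⊕ Fin l :=
    ((Equiv.sumCompl (fun x => x ∈ A)).symm).trans ((Equiv.sumComm _ _).trans (Equiv.sumCongr eB eA))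
  have hinr : ∀ y, e.symm (Sum.inr y) = (eA.symm y : Fin n) := by
    intro y
    rfl
  have hinl : ∀ x, e.symm (Sum.inl x) = (eB.symm x : Fin n) := by
    intro x
    rfl
  have hinrA : ∀ y, e.symm (Sum.inr y) ∈ A := by
    intro y
    rw [hinr]
    exact (eA.symm y).2
  have hinlA : ∀ x, e.symm (Sum.inl x) ∉ A := by
    intro x
    rw [hinl]
    exact (eB.symm x).2
  let rB : Fin k → ℕ := fun x => r (e.symm (Sum.inl x))
  let dB : Fin k → ℕ := fun x => d (e.symm (Sum.inl x))
  let rA : Fin l → ℕ := fun y => r (e.symm (Sum.inr y))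
  let dA : Fin l → ℕ := fun y => d (e.symm (Sum.inr y))
  have hBinj : ∀ x y, rB x = rB y → dB x = dB y → x = y := by
    intro x y h1 h2
    have := hinj _ _ h1 h2
    have h3 := e.symm.injective this
    exact Sum.inl_injective h3
  have hBcol : ∀ j, (univ.filter fun x => dB x = j).card ≤ 4 := by
    intro j
    refine le_trans ?_ (hcol j)
    refine Finset.card_le_card_of_injOn (fun x => e.symm (Sum.inl x)) ?_ ?_
    · intro x hx
      simpa [dB] using hx
    · intro x _ y _ hxy
      exact Sum.inl_injective (e.symm.injective hxy)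
  obtain ⟨T₁i, T₂i, hpi⟩ := IH rB dB hBinj hBcol
  obtain ⟨T₁o, T₂o, hpo⟩ := hg rA dA (fun y => e.symm (Sum.inr y))
    (fun x y hxy => Sum.inr_injective (e.symm.injective hxy)) hinrA (fun _ => rfl) (fun _ => rfl)
  have hm1 : 1 ≤ m - a := by omega
  have hcols : colsOf (topStair m 2) = colsOf (topStair (m - a) 2) + colsOf (rect a) := by
    have := colsOf_topStair_add (m - a) a hm1
    rwa [Nat.sub_add_cancel hma.le] at this
  obtain ⟨P₁, hP₁⟩ := exists_cols_sum hcols e T₁i T₁o
  obtain ⟨P₂, hP₂⟩ := exists_cols_sum hcols e T₂i T₂o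
  have hP₃ : IsSum e rB dB rA dA r d :=
    { row_inl := fun _ => rfl
      row_inr := fun _ => rfl
      col_inl := fun _ _ => Iff.rfl
      col_inr := fun _ _ => Iff.rfl
      col_ne := by
        intro x y hxy
        exact hinlA x ((hcl _ _ hxy).2 (hinrA y)) }
  refine ⟨P₁, P₂, ?_⟩
  rw [polyF_sum e hP₁ hP₂ hP₃]
  exact mul_ne_zero hpi hpo

/-- **The polynomial of a layer** with at most four cells per column, two row first shape. -/
theorem layer_poly (m : ℕ) (hm : 1 ≤ m) (hn : n + 1 = 2 * m) (r d : Fin n → ℕ)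
    (hinj : ∀ x y, r x = r y → d x = d y → x = y)
    (hcol : ∀ j, (univ.filter fun x => d x = j).card ≤ 4) :
    ∃ (T₁ T₂ : Filling n (topStair m 2)),
      polyF (rowOf T₁) (colOf T₁) (rowOf T₂) (colOf T₂) r d ≠ 0 := by
  classical
  induction m using Nat.strong_induction_on generalizing n with
  | _ m ih =>
  set F : ℕ → Finset (Fin n) := fun j => univ.filter fun x => d x = j with hF
  have hFmem : ∀ j x, x ∈ F j ↔ d x = j := by
    intro j x
    simp [hF]
  have hdisj : ∀ j j', j ≠ j' → Disjoint (F j) (F j') := by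
    intro j j' hne
    rw [Finset.disjoint_left]
    intro x hx hx'
    exact hne (((hFmem j x).1 hx).symm.trans ((hFmem j' x).1 hx'))
  have hcardn : (univ : Finset (Fin n)).card = n := by simp
  -- restriction of `r` to a class is injective
  have hrinj : ∀ (l : ℕ) (r₀ d₀ : Fin l → ℕ) (f : Fin l → Fin n), Function.Injective f →
      (∀ y, r₀ y = r (f y)) → (∀ y, d₀ y = d (f y)) →
      ∀ x y, r₀ x = r₀ y → d₀ x = d₀ y → x = y := by
    intro l r₀ d₀ f hf h1 h2 x y hr hd
    rw [h1, h1] at hr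
    rw [h2, h2] at hd
    exact hf (hinj _ _ hr hd)
  by_cases h4 : ∃ j, (F j).card = 4
  · -- a class of size four
    obtain ⟨j, hj⟩ := h4
    have hge : 4 ≤ n := by
      have := Finset.card_le_univ (F j)
      simp at this
      omega
    refine layer_step (a := 2) (k := n - 4) (l := 4) (by omega) rfl (by omega) r d (F j) hj ?_ ?_
      hinj hcol ?_
    · intro x y hxy
      rw [hFmem, hFmem, hxy]
    · intro r' d' h1 h2
      exact ih (m - 2) (by omega) (by omega) (by omega) r' d' h1 h2
    · intro r₀ d₀ f hf hfA h1 h2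
      refine group_one r₀ d₀ ?_ ?_ kp_g4
      · intro x y
        rw [h2, h2, (hFmem _ _).1 (hfA x), (hFmem _ _).1 (hfA y)]
      · intro x y hxy
        refine hrinj 4 r₀ d₀ f hf h1 h2 x y hxy ?_
        rw [h2, h2, (hFmem _ _).1 (hfA x), (hFmem _ _).1 (hfA y)]
  by_cases h2 : ∃ j j', j ≠ j' ∧ (F j).card = (F j').card ∧ 0 < (F j).card
  · -- two classes of equal size
    obtain ⟨j, j', hne, heq, hpos⟩ := h2
    have hle4 : (F j).card ≤ 4 := hcol j
    have hne4 : (F j).card ≠ 4 := fun hh => h4 ⟨j, hh⟩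
    have hU : (F j ∪ F j').card = 2 * (F j).card := by
      rw [Finset.card_union_of_disjoint (hdisj j j' hne), ← heq]
      ring
    have hUle : 2 * (F j).card ≤ n := by
      have := Finset.card_le_univ (F j ∪ F j')
      simp at this
      omega
    have hcl : ∀ x y, d x = d y → (x ∈ F j ∪ F j' ↔ y ∈ F j ∪ F j') := by
      intro x y hxy
      simp only [Finset.mem_union, hFmem, hxy]
    have hgroup : ∀ {h : ℕ}, (F j).card = h → KP (rect h) (rect h) (ofCols {h, h}) →
        ∀ (r₀ d₀ : Fin (2 * h) → ℕ) (f : Fin (2 * h) → Fin n), Function.Injective f →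
        (∀ y, f y ∈ F j ∪ F j') → (∀ y, r₀ y = r (f y)) → (∀ y, d₀ y = d (f y)) →
        ∃ T₁ T₂ : Filling (2 * h) (rect h),
          polyF (rowOf T₁) (colOf T₁) (rowOf T₂) (colOf T₂) r₀ d₀ ≠ 0 := by
      intro h hh hk r₀ d₀ f hf hfA h1 h2
      have hfc : ∀ y, d₀ y = j ∨ d₀ y = j' := by
        intro y
        have := hfA y
        rw [Finset.mem_union, hFmem, hFmem] at this
        rw [h2]
        exact this
      -- the classes in `Fin (2 h)`
      let K : Finset (Fin (2 * h)) := univ.filter fun y => d₀ y = j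
      let K' : Finset (Fin (2 * h)) := univ.filter fun y => d₀ y = j'
      have hKimg : K.image f = F j := by
        apply Finset.eq_of_subset_of_card_le
        · intro z hz
          obtain ⟨y, hy, rfl⟩ := Finset.mem_image.mp hz
          rw [hFmem, ← h2]
          exact (Finset.mem_filter.mp hy).2
        · -- counting: every element of `F j` is hit since `f` is a bijection onto the union
          have hsurj : Function.Surjective (fun y : Fin (2 * h) =>
              (⟨f y, hfA y⟩ : {z // z ∈ F j ∪ F j'})) := by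
            have hinj' : Function.Injective (fun y : Fin (2 * h) =>
                (⟨f y, hfA y⟩ : {z // z ∈ F j ∪ F j'})) := by
              intro a b hab
              exact hf (congrArg Subtype.val hab)
            refine ((Fintype.bijective_iff_injective_and_card _).2 ⟨hinj', ?_⟩).2
            rw [Fintype.card_fin, Fintype.card_coe, hU, hh]
          apply Finset.card_le_card
          intro z hz
          have hzU : z ∈ F j ∪ F j' := Finset.mem_union_left _ hz
          obtain ⟨y, hy⟩ := hsurj ⟨z, hzU⟩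
          have hy' : f y = z := congrArg Subtype.val hy
          rw [Finset.mem_image]
          refine ⟨y, ?_, hy'⟩
          rw [Finset.mem_filter]
          refine ⟨mem_univ _, ?_⟩
          rw [h2, hy']
          exact (hFmem _ _).1 hz
      have hKcard : K.card = h := by
        have e1 := Finset.card_image_of_injective K hf
        rw [hKimg, hh] at e1
        exact e1.symm
      have hK'card : K'.card = h := by
        have h1 : K.card + K'.card = 2 * h := by
          have hdis : Disjoint K K' := by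
            rw [Finset.disjoint_left]
            intro y hy hy'
            exact hne ((Finset.mem_filter.mp hy).2.symm.trans (Finset.mem_filter.mp hy').2)
          rw [← Finset.card_union_of_disjoint hdis]
          have : K ∪ K' = univ := by
            ext y
            simp only [K, K', Finset.mem_union, Finset.mem_filter, mem_univ, true_and, iff_true]
            exact hfc y
          rw [this]
          simp
        omega
      refine group_two le_rfl r₀ d₀ K K' hKcard hK'card ?_ ?_ ?_ ?_ ?_ hk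
      · intro y
        rcases hfc y with hy | hy
        · exact Or.inl (Finset.mem_filter.mpr ⟨mem_univ _, hy⟩)
        · exact Or.inr (Finset.mem_filter.mpr ⟨mem_univ _, hy⟩)
      · intro x hx y hy
        rw [(Finset.mem_filter.mp hx).2, (Finset.mem_filter.mp hy).2]
        exact hne
      · intro x hx y hy
        rw [(Finset.mem_filter.mp hx).2, (Finset.mem_filter.mp hy).2]
      · intro x hx y hy
        rw [(Finset.mem_filter.mp hx).2, (Finset.mem_filter.mp hy).2]
      · exact hrinj _ r₀ d₀ f hf h1 h2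
    have hcases : (F j).card = 1 ∨ (F j).card = 2 ∨ (F j).card = 3 := by omega
    rcases hcases with hh | hh | hh
    · refine layer_step (a := 1) (k := n - 2) (l := 2 * 1) (by omega) rfl (by omega) r d
        (F j ∪ F j') (by rw [hU, hh]) hcl ?_ hinj hcol (hgroup hh kp_g11)
      intro r' d' h1 h2
      exact ih (m - 1) (by omega) (by omega) (by omega) r' d' h1 h2
    · refine layer_step (a := 2) (k := n - 4) (l := 2 * 2) (by omega) rfl (by omega) r d
        (F j ∪ F j') (by rw [hU, hh]) hcl ?_ hinj hcol (hgroup hh kp_g22)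
      intro r' d' h1 h2
      exact ih (m - 2) (by omega) (by omega) (by omega) r' d' h1 h2
    · refine layer_step (a := 3) (k := n - 6) (l := 2 * 3) (by omega) rfl (by omega) r d
        (F j ∪ F j') (by rw [hU, hh]) hcl ?_ hinj hcol (hgroup hh kp_g33)
      intro r' d' h1 h2
      exact ih (m - 3) (by omega) (by omega) (by omega) r' d' h1 h2
  -- all classes have different sizes
  have hdiff : ∀ j j', j ≠ j' → 0 < (F j).card → (F j).card ≠ (F j').card := by
    intro j j' hne hpos heq
    exact h2 ⟨j, j', hne, heq, hpos⟩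
  have hsizes : ∀ j, (F j).card ≤ 3 := by
    intro j
    have h1 := hcol j
    have h3 : (F j).card ≠ 4 := fun hh => h4 ⟨j, hh⟩
    have : (F j).card = (univ.filter fun x => d x = j).card := rfl
    omega
  have hnpos : 0 < n := by omega
  let x0 : Fin n := ⟨0, hnpos⟩
  have hpos0 : ∀ x, 0 < (F (d x)).card := fun x =>
    Finset.card_pos.2 ⟨x, (hFmem _ _).2 rfl⟩
  by_cases hall : ∀ x, d x = d x0
  · -- one class
    have hFu : F (d x0) = univ := by
      ext x
      simp [hFmem, hall x]
    have hcn : (F (d x0)).card = n := by rw [hFu, hcardn]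
    have h3 := hsizes (d x0)
    have hr : Function.Injective r := by
      intro x y hxy
      exact hinj x y hxy ((hall x).trans (hall y).symm)
    have hc : ∀ x y, d x = d y := fun x y => (hall x).trans (hall y).symm
    have hnn : n = 1 ∨ n = 3 := by omega
    rcases hnn with rfl | rfl
    · obtain rfl : m = 1 := by omega
      exact group_one r d hc hr kp_b1
    · obtain rfl : m = 2 := by omega
      exact group_one r d hc hr kp_b3
  push Not at hall
  obtain ⟨x1, hx1⟩ := hall
  set j0 := d x0 with hj0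
  set j1 := d x1 with hj1
  have hne01 : j0 ≠ j1 := fun hh => hx1 hh.symm
  have hd01 := hdiff j0 j1 hne01 (hpos0 x0)
  by_cases hall2 : ∀ x, d x = j0 ∨ d x = j1
  · -- two classes
    have hU : (F j0).card + (F j1).card = n := by
      rw [← Finset.card_union_of_disjoint (hdisj j0 j1 hne01)]
      have : F j0 ∪ F j1 = univ := by
        ext x
        simp only [Finset.mem_union, hFmem, mem_univ, iff_true]
        exact hall2 x
      rw [this, hcardn]
    have h3a := hsizes j0
    have h3b := hsizes j1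
    have hpa : 0 < (F j0).card := hpos0 x0
    have hpb : 0 < (F j1).card := hpos0 x1
    have hc1 : ∀ j, ∀ x ∈ F j, ∀ y ∈ F j, d x = d y := by
      intro j x hx y hy
      rw [(hFmem _ _).1 hx, (hFmem _ _).1 hy]
    have hcov01 : ∀ x, x ∈ F j0 ∨ x ∈ F j1 := by
      intro x
      rcases hall2 x with h | h
      · exact Or.inl ((hFmem _ _).2 h)
      · exact Or.inr ((hFmem _ _).2 h)
    have hcov10 : ∀ x, x ∈ F j1 ∨ x ∈ F j0 := fun x => (hcov01 x).symm
    have hne01' : ∀ x ∈ F j0, ∀ y ∈ F j1, d x ≠ d y := by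
      intro x hx y hy
      rw [(hFmem _ _).1 hx, (hFmem _ _).1 hy]
      exact hne01
    have hne10' : ∀ x ∈ F j1, ∀ y ∈ F j0, d x ≠ d y := by
      intro x hx y hy
      rw [(hFmem _ _).1 hx, (hFmem _ _).1 hy]
      exact hne01.symm
    have hcases : ((F j0).card = 2 ∧ (F j1).card = 1) ∨ ((F j0).card = 1 ∧ (F j1).card = 2) ∨
        ((F j0).card = 3 ∧ (F j1).card = 2) ∨ ((F j0).card = 2 ∧ (F j1).card = 3) := by
      omega
    rcases hcases with ⟨ha, hb⟩ | ⟨ha, hb⟩ | ⟨ha, hb⟩ | ⟨ha, hb⟩
    · obtain rfl : n = 3 := by omega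
      obtain rfl : m = 2 := by omega
      exact group_two (h := 2) (h' := 1) (by norm_num) r d (F j0) (F j1) ha hb hcov01 hne01'
        (hc1 j0) (hc1 j1) hinj kp_b21
    · obtain rfl : n = 3 := by omega
      obtain rfl : m = 2 := by omega
      exact group_two (h := 2) (h' := 1) (by norm_num) r d (F j1) (F j0) hb ha hcov10 hne10'
        (hc1 j1) (hc1 j0) hinj kp_b21
    · obtain rfl : n = 5 := by omega
      obtain rfl : m = 3 := by omega
      exact group_two (h := 3) (h' := 2) (by norm_num) r d (F j0) (F j1) ha hb hcov01 hne01'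
        (hc1 j0) (hc1 j1) hinj kp_b32
    · obtain rfl : n = 5 := by omega
      obtain rfl : m = 3 := by omega
      exact group_two (h := 3) (h' := 2) (by norm_num) r d (F j1) (F j0) hb ha hcov10 hne10'
        (hc1 j1) (hc1 j0) hinj kp_b32
  -- three classes: impossible by parity
  exfalso
  push Not at hall2
  obtain ⟨x2, hx2a, hx2b⟩ := hall2
  set j2 := d x2 with hj2
  have hne02 : j0 ≠ j2 := fun hh => hx2a hh.symm
  have hne12 : j1 ≠ j2 := fun hh => hx2b hh.symm
  have hd02 := hdiff j0 j2 hne02 (hpos0 x0)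
  have hd12 := hdiff j1 j2 hne12 (hpos0 x1)
  have h3a := hsizes j0
  have h3b := hsizes j1
  have h3c := hsizes j2
  have hpa : 0 < (F j0).card := hpos0 x0
  have hpb : 0 < (F j1).card := hpos0 x1
  have hpc : 0 < (F j2).card := hpos0 x2
  by_cases hall3 : ∀ x, d x = j0 ∨ d x = j1 ∨ d x = j2
  · have hU : (F j0).card + (F j1).card + (F j2).card = n := by
      have hd1 : Disjoint (F j0 ∪ F j1) (F j2) := by
        rw [Finset.disjoint_union_left]
        exact ⟨hdisj _ _ hne02, hdisj _ _ hne12⟩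
      rw [← Finset.card_union_of_disjoint (hdisj j0 j1 hne01),
        ← Finset.card_union_of_disjoint hd1]
      have : F j0 ∪ F j1 ∪ F j2 = univ := by
        ext x
        simp only [Finset.mem_union, hFmem, mem_univ, iff_true]
        rcases hall3 x with h | h | h
        · exact Or.inl (Or.inl h)
        · exact Or.inl (Or.inr h)
        · exact Or.inr h
      rw [this, hcardn]
    omega
  · push Not at hall3
    obtain ⟨x3, hx3a, hx3b, hx3c⟩ := hall3
    have hne03 : j0 ≠ d x3 := fun hh => hx3a hh.symm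
    have hne13 : j1 ≠ d x3 := fun hh => hx3b hh.symm
    have hne23 : j2 ≠ d x3 := fun hh => hx3c hh.symm
    have hd03 := hdiff j0 (d x3) hne03 (hpos0 x0)
    have hd13 := hdiff j1 (d x3) hne13 (hpos0 x1)
    have hd23 := hdiff j2 (d x3) hne23 (hpos0 x2)
    have h3d := hsizes (d x3)
    have hpd := hpos0 x3
    omega

/-- Transposing the first two shapes for any third row and column function. -/
theorem conj_skew {μ : YoungDiagram} (T₁ T₂ : Filling n μ) (r d : Fin n → ℕ)
    (h : polyF (rowOf T₁) (colOf T₁) (rowOf T₂) (colOf T₂) r d ≠ 0) :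
    ∃ (T₁' T₂' : Filling n μ.transpose),
      polyF (rowOf T₁') (colOf T₁') (rowOf T₂') (colOf T₂') r d ≠ 0 :=
  conj_skew_aux T₁ T₂ r d h

end Vale.Agent.Lib.P197Z
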