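import Vale.Agent.Lib.P197Z.PolyY
import Vale.Agent.Lib.P197Z.ConcYY
import Vale.Agent.Lib.P197Z.LayerPoly

/-!
# P197Z: a single block (blueprint Sec 6)
-/

open Equiv Finset

namespace Vale.Agent.Lib.P197Z

open Vale.Agent.Lib.P197 Vale.Agent.Lib.P197W Vale.Agent.Lib.P197X

variable {n : ℕ}

private theorem mem_transpose_topStair (m : ℕ) (i j : ℕ) :
    (i, j) ∈ (topStair m 2).transpose.cells ↔ j < 2 ∧ j + i < m := by
  have h1 : (i, j) ∈ (topStair m 2).transpose.cells ↔ (j, i) ∈ (topStair m 2).cells := by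
    change (i, j) ∈ (topStair m 2).transpose ↔ (j, i) ∈ (topStair m 2)
    rw [YoungDiagram.mem_transpose]
    rfl
  rw [h1]
  change (j, i) ∈ (((range 2) ×ˢ (range m)).filter fun c => c.1 + c.2 < m) ↔ _
  simp only [mem_filter, mem_product, mem_range]
  omega

/-- A filling of the two column shape has the two column property. -/
theorem twoCol_of_filling (m : ℕ) (hm : 1 ≤ m) (T : Filling n (topStair m 2).transpose) :
    TwoCol m (rowOf T) (colOf T) := by
  have key : ∀ x, colOf T x < 2 ∧ colOf T x + rowOf T x < m := by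
    intro x
    have h := (T x).2
    have h' : ((T x).1.1, (T x).1.2) ∈ (topStair m 2).transpose.cells := h
    exact (mem_transpose_topStair m _ _).1 h'
  have hex : ∀ i j, j < 2 → j + i < m → ∃ x, colOf T x = j ∧ rowOf T x = i := by
    intro i j hj hij
    have hc : (i, j) ∈ (topStair m 2).transpose.cells :=
      (mem_transpose_topStair m i j).2 ⟨hj, hij⟩
    refine ⟨T.symm ⟨(i, j), hc⟩, ?_, ?_⟩
    · simp [colOf]
    · simp [rowOf]
  refine ⟨?_, ?_, ?_, ?_, ?_, ?_⟩
  · intro x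
    have := (key x).1
    omega
  · intro x y hr hc
    apply T.injective
    apply Subtype.ext
    exact Prod.ext hr hc
  · intro a ha
    exact hex a 0 (by norm_num) (by omega)
  · intro a ha
    exact hex a 1 (by norm_num) (by omega)
  · intro x hx
    have := (key x).2
    omega
  · intro x hx
    have := (key x).2
    omega

/-- **The block theorem.** -/
theorem block_nv (m : ℕ) (hm : 1 ≤ m) (hn : n + 1 = 2 * m) (r d : Fin n → ℕ)
    (hinj : ∀ x y, r x = r y → d x = d y → x = y)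
    (hcol : ∀ j, (univ.filter fun x => d x = j).card ≤ 4)
    (hconsec : ∀ x y, d x = d y → r x < r y + 4) :
    ∃ (T₁ T₂ : Filling n (topStair m 2).transpose) (W : Fin n → ℕ × ℕ),
      (∀ x, m ≤ (W x).1 + (W x).2 + 2 ∧ (W x).1 + (W x).2 + 1 ≤ m) ∧
      YY r d (ptt (rowOf T₁) (colOf T₁) (rowOf T₂) (colOf T₂)) W ≠ 0 := by
  have _ := hconsec
  obtain ⟨T₁, T₂, h⟩ := layer_poly m hm hn r d hinj hcol
  obtain ⟨T₁', T₂', h'⟩ := conj_skew T₁ T₂ r d h
  obtain ⟨W, hW⟩ := (polyF_ne_zero_iff _ _ _ _ _ _).1 h'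
  obtain ⟨W', hW', hne⟩ := concYY m hm hn (twoCol_of_filling m hm T₁') (twoCol_of_filling m hm T₂') hW
  exact ⟨T₁', T₂', W', hW', hne⟩

end Vale.Agent.Lib.P197Z
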