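import Mathlib

/-!
# P197Z: one greedy step of the chain of layers (blueprint Sec 7)
-/

open Finset

namespace Vale.Agent.Lib.P197Z.ChainStep

/-- The diagram shifted up by `d` rows. -/
def shiftUp (ν : YoungDiagram) (d : ℕ) : YoungDiagram where
  cells := (ν.cells.filter fun c => d ≤ c.1).image fun c => (c.1 - d, c.2)
  isLowerSet := by
    intro a b hba ha
    simp only [Finset.coe_image, Set.mem_image, Finset.mem_coe, Finset.mem_filter,
      YoungDiagram.mem_cells] at ha ⊢
    obtain ⟨c, ⟨hc, hd⟩, rfl⟩ := ha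
    have h1 : b.1 ≤ c.1 - d := hba.1
    have h2 : b.2 ≤ c.2 := hba.2
    refine ⟨(b.1 + d, b.2), ⟨?_, by simp⟩, by simp⟩
    exact ν.isLowerSet (show ((b.1 + d, b.2) : ℕ × ℕ) ≤ c from ⟨by simp; omega, by simpa using h2⟩) hc

theorem mem_shiftUp {ν : YoungDiagram} {d : ℕ} {c : ℕ × ℕ} :
    c ∈ shiftUp ν d ↔ (c.1 + d, c.2) ∈ ν := by
  change c ∈ (ν.cells.filter fun c => d ≤ c.1).image (fun c => (c.1 - d, c.2)) ↔ _
  simp only [Finset.mem_image, Finset.mem_filter, YoungDiagram.mem_cells]
  constructor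
  · rintro ⟨a, ⟨ha, hd⟩, rfl⟩
    have : a.1 - d + d = a.1 := by omega
    simpa [this] using ha
  · intro h
    exact ⟨(c.1 + d, c.2), ⟨h, by simp⟩, by simp⟩

theorem shiftUp_le {ν : YoungDiagram} {d : ℕ} {c : ℕ × ℕ} (h : c ∈ shiftUp ν d) : c ∈ ν :=
  ν.up_left_mem (Nat.le_add_right c.1 d) le_rfl (mem_shiftUp.1 h)

theorem card_shiftUp_filter (ν : YoungDiagram) (d k : ℕ) :
    ((shiftUp ν d).cells.filter fun c => k ≤ c.1).card =
      (ν.cells.filter fun c => k + d ≤ c.1).card := by
  apply Finset.card_bij (fun c _ => (c.1 + d, c.2))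
  · intro c hc
    simp only [Finset.mem_filter, YoungDiagram.mem_cells] at hc ⊢
    exact ⟨mem_shiftUp.1 hc.1, by simpa using hc.2⟩
  · intro a _ b _ h
    simp only [Prod.mk.injEq, add_left_inj] at h
    exact Prod.ext h.1 h.2
  · intro c hc
    simp only [Finset.mem_filter, YoungDiagram.mem_cells] at hc
    refine ⟨(c.1 - d, c.2), ?_, ?_⟩
    · simp only [Finset.mem_filter, YoungDiagram.mem_cells]
      refine ⟨mem_shiftUp.2 ?_, ?_⟩
      · have : c.1 - d + d = c.1 := by omega
        simpa [this] using hc.1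
      · have := hc.2
        show k ≤ c.1 - d
        omega
    · have : c.1 - d + d = c.1 := by omega
      exact Prod.ext this rfl

/-- The shift union the cells of code below `x`. -/
def greedy (ν : YoungDiagram) (d B x : ℕ) : YoungDiagram where
  cells := (shiftUp ν d).cells ∪ ν.cells.filter fun c => c.1 * B + c.2 < x
  isLowerSet := by
    intro a b hba ha
    simp only [Finset.coe_union, Set.mem_union, Finset.mem_coe, Finset.mem_filter,
      YoungDiagram.mem_cells] at ha ⊢
    rcases ha with ha | ⟨ha, hx⟩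
    · exact Or.inl ((shiftUp ν d).isLowerSet hba ha)
    · refine Or.inr ⟨ν.isLowerSet hba ha, ?_⟩
      have h1 : b.1 ≤ a.1 := hba.1
      have h2 : b.2 ≤ a.2 := hba.2
      have := Nat.mul_le_mul_right B h1
      omega

theorem mem_greedy {ν : YoungDiagram} {d B x : ℕ} {c : ℕ × ℕ} :
    c ∈ greedy ν d B x ↔ c ∈ shiftUp ν d ∨ (c ∈ ν ∧ c.1 * B + c.2 < x) := by
  change c ∈ (shiftUp ν d).cells ∪ ν.cells.filter (fun c => c.1 * B + c.2 < x) ↔ _
  simp only [Finset.mem_union, Finset.mem_filter, YoungDiagram.mem_cells]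

theorem lt_of_mem {ν : YoungDiagram} {c : ℕ × ℕ} (h : c ∈ ν) : c.2 < ν.rowLen 0 + 1 := by
  have h1 : c.2 < ν.rowLen c.1 := YoungDiagram.mem_iff_lt_rowLen.1 (by simpa using h)
  have h2 := ν.rowLen_anti 0 c.1 (Nat.zero_le _)
  omega

theorem card_greedy_succ (ν : YoungDiagram) (d x : ℕ) :
    (greedy ν d (ν.rowLen 0 + 1) (x + 1)).card ≤ (greedy ν d (ν.rowLen 0 + 1) x).card + 1 := by
  set B := ν.rowLen 0 + 1 with hB
  have hsub : (greedy ν d B (x + 1)).cells ⊆
      (greedy ν d B x).cells ∪ ν.cells.filter fun c => c.1 * B + c.2 = x := by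
    intro c hc
    simp only [YoungDiagram.mem_cells, mem_greedy, Finset.mem_union, Finset.mem_filter] at hc ⊢
    rcases hc with hc | ⟨hc, hx⟩
    · exact Or.inl (Or.inl hc)
    · rcases Nat.lt_or_ge (c.1 * B + c.2) x with h | h
      · exact Or.inl (Or.inr ⟨hc, h⟩)
      · exact Or.inr ⟨hc, by omega⟩
  have hone : (ν.cells.filter fun c => c.1 * B + c.2 = x).card ≤ 1 := by
    rw [Finset.card_le_one]
    intro a ha b hb
    simp only [Finset.mem_filter, YoungDiagram.mem_cells] at ha hb
    have ha2 := lt_of_mem ha.1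
    have hb2 := lt_of_mem hb.1
    rw [← hB] at ha2 hb2
    have hab : a.1 * B + a.2 = b.1 * B + b.2 := ha.2.trans hb.2.symm
    have h1 : a.1 = b.1 := by
      rcases Nat.lt_trichotomy a.1 b.1 with h | h | h
      · have : (a.1 + 1) * B ≤ b.1 * B := Nat.mul_le_mul_right B h
        have h3 : (a.1 + 1) * B = a.1 * B + B := by ring
        omega
      · exact h
      · have : (b.1 + 1) * B ≤ a.1 * B := Nat.mul_le_mul_right B h
        have h3 : (b.1 + 1) * B = b.1 * B + B := by ring
        omega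
    have h2 : a.2 = b.2 := by rw [h1] at hab; omega
    exact Prod.ext h1 h2
  calc (greedy ν d B (x + 1)).card = (greedy ν d B (x + 1)).cells.card := rfl
    _ ≤ _ := Finset.card_le_card hsub
    _ ≤ _ := Finset.card_union_le _ _
    _ ≤ _ := Nat.add_le_add_left hone _

theorem exists_greedy (ν : YoungDiagram) (d S : ℕ)
    (hS : (ν.cells.filter fun c => d ≤ c.1).card ≤ S) (hSν : S ≤ ν.card) :
    ∃ x, (greedy ν d (ν.rowLen 0 + 1) x).card = S := by
  set B := ν.rowLen 0 + 1 with hB
  have hex : ∃ x, S ≤ (greedy ν d B x).card := by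
    refine ⟨(ν.cells.sup fun c => c.1 * B + c.2) + 1, hSν.trans (Finset.card_le_card ?_)⟩
    intro c hc
    rw [YoungDiagram.mem_cells, mem_greedy]
    refine Or.inr ⟨YoungDiagram.mem_cells _ |>.1 hc, Nat.lt_succ_of_le ?_⟩
    exact Finset.le_sup (f := fun c : ℕ × ℕ => c.1 * B + c.2) hc
  classical
  refine ⟨Nat.find hex, le_antisymm ?_ (Nat.find_spec hex)⟩
  rcases Nat.eq_zero_or_pos (Nat.find hex) with h0 | hpos
  · rw [h0]
    have hsub : (greedy ν d B 0).cells ⊆ (shiftUp ν d).cells := by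
      intro c hc
      simp only [YoungDiagram.mem_cells, mem_greedy] at hc ⊢
      rcases hc with hc | ⟨_, hc⟩
      · exact hc
      · omega
    have hc0 := Finset.card_le_card hsub
    have hc1 := card_shiftUp_filter ν d 0
    have hf : ((shiftUp ν d).cells.filter fun c => 0 ≤ c.1) = (shiftUp ν d).cells := by
      apply Finset.filter_true_of_mem; intros; omega
    rw [hf] at hc1
    simp only [zero_add] at hc1
    calc (greedy ν d B 0).card = (greedy ν d B 0).cells.card := rfl
      _ ≤ _ := hc0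
      _ = _ := hc1
      _ ≤ S := hS
  · obtain ⟨y, hy⟩ : ∃ y, Nat.find hex = y + 1 := ⟨Nat.find hex - 1, by omega⟩
    have hlt : (greedy ν d B y).card < S := by
      have := Nat.find_min hex (m := y) (by omega)
      omega
    rw [hy]
    have := card_greedy_succ ν d y
    rw [← hB] at this
    omega

/-- **The greedy step.** -/
theorem exists_layer (ν : YoungDiagram) (S : ℕ)
    (hS : (ν.cells.filter fun c => 4 ≤ c.1).card ≤ S) (hSν : S ≤ ν.card) :
    ∃ β : YoungDiagram, (∀ c, c ∈ β → c ∈ ν) ∧ β.card = S ∧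
      (∀ j, ν.colLen j ≤ β.colLen j + 4) ∧
      ∀ k, (β.cells.filter fun c => k ≤ c.1).card + ν.card =
            S + (ν.cells.filter fun c => k ≤ c.1).card ∨
        (β.cells.filter fun c => k ≤ c.1).card = (ν.cells.filter fun c => k + 4 ≤ c.1).card := by
  obtain ⟨x, hx⟩ := exists_greedy ν 4 S hS hSν
  set B := ν.rowLen 0 + 1 with hB
  have hsub : ∀ c, c ∈ greedy ν 4 B x → c ∈ ν := by
    intro c hc
    rcases mem_greedy.1 hc with hc | hc
    · exact shiftUp_le hc
    · exact hc.1
  refine ⟨greedy ν 4 B x, hsub, hx, ?_, ?_⟩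
  · intro j
    by_contra hcon
    push Not at hcon
    have h1 : ((greedy ν 4 B x).colLen j + 4, j) ∈ ν :=
      YoungDiagram.mem_iff_lt_colLen.2 (by omega)
    have h2 : ((greedy ν 4 B x).colLen j, j) ∈ greedy ν 4 B x :=
      mem_greedy.2 (Or.inl (mem_shiftUp.2 h1))
    have h3 := YoungDiagram.mem_iff_lt_colLen.1 h2
    omega
  · intro k
    by_cases h : ∃ c, c ∈ greedy ν 4 B x ∧ c ∉ shiftUp ν 4 ∧ k ≤ c.1
    · left
      obtain ⟨c0, h0, h0', hk⟩ := h
      obtain ⟨h0ν, hcode⟩ := (mem_greedy.1 h0).resolve_left h0'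
      have hlow : ∀ c, c ∈ ν → c.1 < k → c ∈ greedy ν 4 B x := by
        intro c hc hck
        refine mem_greedy.2 (Or.inr ⟨hc, ?_⟩)
        have h2 := lt_of_mem hc
        rw [← hB] at h2
        have h3 : (c.1 + 1) * B ≤ c0.1 * B := Nat.mul_le_mul_right B (by omega)
        have h4 : (c.1 + 1) * B = c.1 * B + B := by ring
        omega
      have heq : ((greedy ν 4 B x).cells.filter fun c => ¬ k ≤ c.1) =
          (ν.cells.filter fun c => ¬ k ≤ c.1) := by
        ext c
        simp only [Finset.mem_filter, YoungDiagram.mem_cells]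
        constructor
        · exact fun h => ⟨hsub c h.1, h.2⟩
        · exact fun h => ⟨hlow c h.1 (by omega), h.2⟩
      have e1 := Finset.card_filter_add_card_filter_not (s := (greedy ν 4 B x).cells)
        (fun c => k ≤ c.1)
      have e2 := Finset.card_filter_add_card_filter_not (s := ν.cells) (fun c => k ≤ c.1)
      rw [heq] at e1
      have e3 : (greedy ν 4 B x).cells.card = S := hx
      have e4 : ν.cells.card = ν.card := rfl
      omega
    · right
      push Not at h
      have heq : ((greedy ν 4 B x).cells.filter fun c => k ≤ c.1) =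
          ((shiftUp ν 4).cells.filter fun c => k ≤ c.1) := by
        ext c
        simp only [Finset.mem_filter, YoungDiagram.mem_cells]
        constructor
        · intro hc
          refine ⟨?_, hc.2⟩
          by_contra hn
          exact absurd hc.2 (not_le.2 (h c hc.1 hn))
        · exact fun hc => ⟨mem_greedy.2 (Or.inl hc.1), hc.2⟩
      rw [heq]
      exact card_shiftUp_filter ν 4 k

theorem two_tri (r : ℕ) : 2 * (r * (r + 1) / 2) = r * (r + 1) := by
  have : 2 ∣ r * (r + 1) := Nat.even_mul_succ_self r |>.two_dvd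
  omega

theorem tri_step (t : ℕ) (ht : 1 ≤ t) :
    t * (t + 1) / 2 = (t - 2) * (t - 2 + 1) / 2 + (2 * t - 1) := by
  have h1 := two_tri t
  have h2 := two_tri (t - 2)
  rcases Nat.lt_or_ge t 2 with h | h
  · have : t = 1 := by omega
    subst this; norm_num
  · obtain ⟨s, rfl⟩ : ∃ s, t = s + 2 := ⟨t - 2, by omega⟩
    simp only [Nat.add_sub_cancel] at h1 h2 ⊢
    have h3 : (s + 2) * (s + 2 + 1) = s * (s + 1) + 2 * (2 * (s + 2) - 1) := by
      have : 2 * (s + 2) - 1 = 2 * s + 3 := by omega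
      rw [this]; ring
    omega

/-- The arithmetic of the tail. -/
theorem tri_arith (t x : ℕ) (ht : 1 ≤ t) (hx : x ≤ t) :
    (t - 2) * (t - 2 + 1) / 2 + x * (x + 1) / 2 ≤
      t * (t + 1) / 2 + (x - 2) * (x - 2 + 1) / 2 := by
  rcases Nat.eq_zero_or_pos x with h0 | hpos
  · subst h0
    have := tri_step t ht
    simp only [Nat.zero_sub, zero_mul, Nat.zero_div]
    omega
  · have h1 := tri_step t ht
    have h2 := tri_step x hpos
    omega

/-- **One greedy step keeps the tail condition.** -/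
theorem chain_step_aux (t : ℕ) (ht : 1 ≤ t) (ν : YoungDiagram) (hν : ν.card = t * (t + 1) / 2)
    (htail : ∀ m, 1 ≤ m → (ν.cells.filter fun c => 4 * m ≤ c.1).card ≤
      (t - 2 * m) * (t - 2 * m + 1) / 2) :
    ∃ β : YoungDiagram, (∀ c, c ∈ β → c ∈ ν) ∧ β.card = (t - 2) * (t - 2 + 1) / 2 ∧
      (∀ j, ν.colLen j ≤ β.colLen j + 4) ∧
      ∀ m, 1 ≤ m → (β.cells.filter fun c => 4 * m ≤ c.1).card ≤
        (t - 2 - 2 * m) * (t - 2 - 2 * m + 1) / 2 := by
  have hst := tri_step t ht
  have hS : (ν.cells.filter fun c => 4 ≤ c.1).card ≤ (t - 2) * (t - 2 + 1) / 2 := by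
    have := htail 1 le_rfl
    simpa using this
  obtain ⟨β, h1, h2, h3, h4⟩ := exists_layer ν ((t - 2) * (t - 2 + 1) / 2) hS (by omega)
  refine ⟨β, h1, h2, h3, fun m hm => ?_⟩
  rcases h4 (4 * m) with hk | hk
  · have hm' := htail m hm
    have harith := tri_arith t (t - 2 * m) ht (by omega)
    have e : t - 2 - 2 * m = t - 2 * m - 2 := by omega
    rw [e]
    omega
  · have hm' := htail (m + 1) (by omega)
    have e1 : 4 * (m + 1) = 4 * m + 4 := by ring
    have e2 : t - 2 * (m + 1) = t - 2 - 2 * m := by omega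
    rw [e1, e2] at hm'
    omega

end Vale.Agent.Lib.P197Z.ChainStep
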