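import Vale.Agent.Lib.P197Z.Defs

/-!
# P197Z: the concentration lemma (blueprint Sec 3)
-/

open Equiv Finset

namespace Vale.Agent.Lib.P197Z

variable {n : ℕ}

theorem pth_even (m k : ℕ) : pth m (2 * k) = (m - 1 - k, k) := by
  unfold pth
  have h1 : (2 * k) % 2 = 0 := by omega
  have h2 : (2 * k) / 2 = k := by omega
  simp [h1, h2]

theorem pth_odd (m k : ℕ) : pth m (2 * k + 1) = (m - 2 - k, k) := by
  unfold pth
  have h1 : (2 * k + 1) % 2 = 1 := by omega
  have h2 : (2 * k + 1) / 2 = k := by omega
  simp [h1, h2]

theorem std_comp {m : ℕ} {w : Fin n → ℕ} (σ : Perm (Fin n)) (h : Std m w) :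
    Std m (fun x => w (σ x)) := by
  intro a
  rw [← h a]
  exact Finset.card_equiv σ (by intro i; simp)

theorem std_swap {m : ℕ} {w : Fin n → ℕ} (h : Std m w) {a b : ℕ} (ha : a + 1 < m)
    (hb : b + 1 < m) : Std m (fun x => Equiv.swap a b (w x)) := by
  intro c
  have h1 : (univ.filter fun x => Equiv.swap a b (w x) = c)
      = univ.filter fun x => w x = Equiv.swap a b c := by
    ext x
    simp only [mem_filter, mem_univ, true_and]
    constructor
    · intro hx
      rw [← hx]
      simp
    · intro hx
      rw [hx]
      simp
  rw [h1, h (Equiv.swap a b c)]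
  by_cases hca : c = a
  · subst hca
    simp [ha, hb]
  · by_cases hcb : c = b
    · subst hcb
      simp [ha, hb]
    · rw [Equiv.swap_apply_of_ne_of_ne hca hcb]

private theorem mem_pair_of_card_two {α : Type*} [DecidableEq α] {s : Finset α} (h : s.card = 2)
    {u v y : α} (hu : u ∈ s) (hv : v ∈ s) (huv : u ≠ v) (hy : y ∈ s) : y = u ∨ y = v := by
  by_contra hne
  push Not at hne
  have hsub : ({u, v, y} : Finset α) ⊆ s := by
    intro z hz
    simp only [mem_insert, mem_singleton] at hz
    rcases hz with rfl | rfl | rfl <;> assumption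
  have hc := Finset.card_le_card hsub
  have h3 : ({u, v, y} : Finset α).card = 3 := by
    rw [Finset.card_eq_three]
    exact ⟨u, v, y, huv, hne.1.symm, hne.2.symm, rfl⟩
  omega

/-- The even step of the growth of the path. -/
private theorem step_even {m k : ℕ} (hkm : k + 1 ≤ m) (F : (Fin n → ℕ × ℕ) → ℤ)
    (H1b : ∀ (W : Fin n → ℕ × ℕ) (a b : ℕ), a + 1 < m → b + 1 < m →
      F (fun x => ((W x).1, Equiv.swap a b (W x).2)) = F W)
    (H2 : ∀ (W : Fin n → ℕ × ℕ) (b : ℕ), (univ.filter fun x => (W x).2 = b).card = 3 →
      ∑ x ∈ univ.filter (fun x => (W x).2 = b), F (Function.update W x ((W x).1, m - 1)) = 0)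
    (IH : ∀ W : Fin n → ℕ × ℕ, (Std m fun x => (W x).1) → (Std m fun x => (W x).2) →
      (∀ i, i < 2 * k + 1 → ∃ x, W x = pth m i) → F W = 0)
    (W : Fin n → ℕ × ℕ) (h1 : Std m fun x => (W x).1) (h2 : Std m fun x => (W x).2)
    (hx : ∀ i, i < 2 * k → ∃ x, W x = pth m i) : F W = 0 := by
  classical
  choose X hX using hx
  have hXe : ∀ i i' (h : i < 2 * k) (h' : i' < 2 * k), i = i' → X i h = X i' h' := by
    intro i i' h h' e
    subst e
    rfl
  obtain ⟨y, hy1, hyne⟩ : ∃ y, (W y).1 = m - 1 - k ∧
      ∀ (hk0 : 0 < k), y ≠ X (2 * k - 1) (by omega) := by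
    rcases Nat.eq_zero_or_pos k with rfl | hk0
    · have hc := h1 (m - 1)
      have h3 : (univ.filter fun x => (W x).1 = m - 1).card = 1 := by
        rw [hc, if_neg (by omega), if_pos (by omega)]
      obtain ⟨y, hy⟩ := Finset.card_pos.1 (by omega : 0 < (univ.filter fun x => (W x).1 = m - 1).card)
      exact ⟨y, by simpa using hy, fun h => absurd h (lt_irrefl _)⟩
    · have hc := h1 (m - 1 - k)
      have h3 : (univ.filter fun x => (W x).1 = m - 1 - k).card = 2 := by
        rw [hc, if_pos (by omega)]
      have hodd : 2 * k - 1 = 2 * (k - 1) + 1 := by omega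
      have hmem : X (2 * k - 1) (by omega) ∈ univ.filter fun x => (W x).1 = m - 1 - k := by
        simp only [mem_filter, mem_univ, true_and]
        rw [hX, hodd, pth_odd]
        show m - 2 - (k - 1) = m - 1 - k
        omega
      obtain ⟨y, hy, hne⟩ := Finset.exists_mem_ne (by omega :
        1 < (univ.filter fun x => (W x).1 = m - 1 - k).card) (X (2 * k - 1) (by omega))
      exact ⟨y, by simpa using hy, fun _ => hne⟩
  have hge : k ≤ (W y).2 := by
    by_contra hlt
    push Not at hlt
    obtain ⟨b, hbdef⟩ : ∃ b, b = (W y).2 := ⟨_, rfl⟩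
    rw [← hbdef] at hlt
    have hb : b + 1 < m := by omega
    have hcard : (univ.filter fun x => (W x).2 = b).card = 2 := by
      rw [h2 b, if_pos hb]
    have hXu : W (X (2 * b) (by omega)) = (m - 1 - b, b) := by rw [hX, pth_even]
    have hXv : W (X (2 * b + 1) (by omega)) = (m - 2 - b, b) := by rw [hX, pth_odd]
    have hu : X (2 * b) (by omega) ∈ univ.filter fun x => (W x).2 = b := by
      simp [hXu]
    have hv : X (2 * b + 1) (by omega) ∈ univ.filter fun x => (W x).2 = b := by
      simp [hXv]
    have huv : X (2 * b) (by omega) ≠ X (2 * b + 1) (by omega) := by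
      intro e
      have h3 := congrArg (fun x => (W x).1) e
      simp only [hXu, hXv] at h3
      omega
    have hyin : y ∈ univ.filter fun x => (W x).2 = b := by
      simp [hbdef]
    rcases mem_pair_of_card_two hcard hu hv huv hyin with e | e
    · rw [e, hXu] at hy1
      simp only at hy1
      omega
    · have hy1' := hy1
      rw [e, hXv] at hy1'
      simp only at hy1'
      have hk : k = b + 1 := by omega
      apply hyne (by omega)
      exact e.trans (hXe _ _ _ _ (by omega))
  have hle : (W y).2 + 1 ≤ m := by
    by_contra hlt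
    have hc := h2 (W y).2
    rw [if_neg (by omega), if_neg (by omega)] at hc
    have : y ∈ univ.filter fun x => (W x).2 = (W y).2 := by simp
    rw [Finset.card_eq_zero] at hc
    rw [hc] at this
    simp at this
  have hpre : ∀ i (hi : i < 2 * k), (W (X i hi)).2 < k := by
    intro i hi
    rw [hX]
    rcases Nat.even_or_odd' i with ⟨u, rfl | rfl⟩
    · rw [pth_even]
      show u < k
      omega
    · rw [pth_odd]
      show u < k
      omega
  by_cases hbk : (W y).2 = k
  · apply IH W h1 h2
    intro i hi
    by_cases hik : i < 2 * k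
    · exact ⟨X i hik, hX i hik⟩
    · have : i = 2 * k := by omega
      subst this
      exact ⟨y, by rw [pth_even]; exact Prod.ext hy1 hbk⟩
  · by_cases hbm : (W y).2 + 1 < m
    · rw [← H1b W k (W y).2 (by omega) hbm]
      apply IH (fun x => ((W x).1, Equiv.swap k (W y).2 (W x).2)) h1 (std_swap h2 (by omega) hbm)
      intro i hi
      by_cases hik : i < 2 * k
      · refine ⟨X i hik, ?_⟩
        have h3 := hpre i hik
        have h4 : Equiv.swap k (W y).2 (W (X i hik)).2 = (W (X i hik)).2 :=
          Equiv.swap_apply_of_ne_of_ne (by omega) (by omega)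
        rw [h4]
        exact hX i hik
      · have : i = 2 * k := by omega
        subst this
        refine ⟨y, ?_⟩
        rw [pth_even, Equiv.swap_apply_right]
        exact Prod.ext hy1 rfl
    · have hb : (W y).2 = m - 1 := by omega
      have hkm' : k + 1 < m := by omega
      obtain ⟨W3, hW3⟩ : ∃ W3, W3 = Function.update W y (m - 1 - k, k) := ⟨_, rfl⟩
      have hW3y : W3 y = (m - 1 - k, k) := by rw [hW3]; simp
      have hW3o : ∀ x, x ≠ y → W3 x = W x := by
        intro x hxy
        rw [hW3]
        simp [hxy]
      have hS : (univ.filter fun x => (W3 x).2 = k) = insert y (univ.filter fun x => (W x).2 = k) := by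
        ext x
        simp only [mem_filter, mem_univ, true_and, mem_insert]
        by_cases hxy : x = y
        · subst hxy
          simp [hW3y]
        · simp [hxy, hW3o x hxy]
      have hyn : y ∉ univ.filter fun x => (W x).2 = k := by
        simp [hbk]
      have hcard : (univ.filter fun x => (W3 x).2 = k).card = 3 := by
        rw [hS, Finset.card_insert_of_notMem hyn, h2 k, if_pos hkm']
      have H := H2 W3 k hcard
      rw [Finset.sum_eq_single_of_mem y (by simp [hW3y]) ?_] at H
      · have hback : Function.update W3 y ((W3 y).1, m - 1) = W := by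
          funext x
          by_cases hxy : x = y
          · subst hxy
            simp only [Function.update_self, hW3y]
            exact Prod.ext hy1.symm hb.symm
          · rw [Function.update_of_ne hxy, hW3o x hxy]
        rwa [hback] at H
      · intro z hz hzy
        have hz2 : (W z).2 = k := by
          have := (mem_filter.1 hz).2
          rwa [hW3o z hzy] at this
        have hzo : W3 z = W z := hW3o z hzy
        have hfst : ∀ x, (Function.update W3 z ((W3 z).1, m - 1) x).1 = (W x).1 := by
          intro x
          by_cases hxz : x = z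
          · subst hxz
            simp [hzo]
          · rw [Function.update_of_ne hxz]
            by_cases hxy : x = y
            · subst hxy
              rw [hW3y]
              exact hy1.symm
            · rw [hW3o x hxy]
        have hsnd : ∀ x, (Function.update W3 z ((W3 z).1, m - 1) x).2
            = (W (Equiv.swap y z x)).2 := by
          intro x
          by_cases hxz : x = z
          · subst hxz
            simp [hb]
          · rw [Function.update_of_ne hxz]
            by_cases hxy : x = y
            · subst hxy
              rw [hW3y, Equiv.swap_apply_left, hz2]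
            · rw [hW3o x hxy, Equiv.swap_apply_of_ne_of_ne hxy hxz]
        apply IH
        · have : (fun x => (Function.update W3 z ((W3 z).1, m - 1) x).1) = fun x => (W x).1 :=
            funext hfst
          rw [this]
          exact h1
        · have : (fun x => (Function.update W3 z ((W3 z).1, m - 1) x).2)
              = fun x => (W (Equiv.swap y z x)).2 := funext hsnd
          rw [this]
          exact std_comp (Equiv.swap y z) h2
        · intro i hi
          by_cases hik : i < 2 * k
          · refine ⟨X i hik, ?_⟩
            have h3 := hpre i hik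
            have hne1 : X i hik ≠ z := by
              intro e
              rw [e] at h3
              omega
            have hne2 : X i hik ≠ y := by
              intro e
              rw [e] at h3
              omega
            rw [Function.update_of_ne hne1, hW3o _ hne2]
            exact hX i hik
          · have : i = 2 * k := by omega
            subst this
            refine ⟨y, ?_⟩
            rw [Function.update_of_ne (Ne.symm hzy), hW3y, pth_even]

/-- The odd step of the growth of the path. -/
private theorem step_odd {m k : ℕ} (hkm : k + 1 < m) (F : (Fin n → ℕ × ℕ) → ℤ)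
    (H1a : ∀ (W : Fin n → ℕ × ℕ) (a b : ℕ), a + 1 < m → b + 1 < m →
      F (fun x => (Equiv.swap a b (W x).1, (W x).2)) = F W)
    (IH : ∀ W : Fin n → ℕ × ℕ, (Std m fun x => (W x).1) → (Std m fun x => (W x).2) →
      (∀ i, i < 2 * k + 1 + 1 → ∃ x, W x = pth m i) → F W = 0)
    (W : Fin n → ℕ × ℕ) (h1 : Std m fun x => (W x).1) (h2 : Std m fun x => (W x).2)
    (hx : ∀ i, i < 2 * k + 1 → ∃ x, W x = pth m i) : F W = 0 := by
  classical
  choose X hX using hx
  have hXe : ∀ i i' (h : i < 2 * k + 1) (h' : i' < 2 * k + 1), i = i' → X i h = X i' h' := by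
    intro i i' h h' e
    subst e
    rfl
  have hXk : W (X (2 * k) (by omega)) = (m - 1 - k, k) := by rw [hX, pth_even]
  have hc2 : (univ.filter fun x => (W x).2 = k).card = 2 := by
    rw [h2 k, if_pos hkm]
  have hmem : X (2 * k) (by omega) ∈ univ.filter fun x => (W x).2 = k := by
    simp [hXk]
  obtain ⟨y, hy, hne⟩ := Finset.exists_mem_ne (by omega :
    1 < (univ.filter fun x => (W x).2 = k).card) (X (2 * k) (by omega))
  have hy2 : (W y).2 = k := by simpa using hy
  have hle : (W y).1 + 1 ≤ m := by
    by_contra hlt
    have hc := h1 (W y).1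
    rw [if_neg (by omega), if_neg (by omega)] at hc
    have : y ∈ univ.filter fun x => (W x).1 = (W y).1 := by simp
    rw [Finset.card_eq_zero] at hc
    rw [hc] at this
    simp at this
  have hclaim : (W y).1 + k + 2 ≤ m := by
    by_contra hlt
    obtain ⟨a, hadef⟩ : ∃ a, a = (W y).1 := ⟨_, rfl⟩
    rw [← hadef] at hlt hle
    have hyin : y ∈ univ.filter fun x => (W x).1 = a := by simp [hadef]
    by_cases hatop : a + 1 = m
    · have hc1 : (univ.filter fun x => (W x).1 = a).card = 1 := by
        rw [h1 a, if_neg (by omega), if_pos hatop]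
      have hX0 : W (X 0 (by omega)) = (m - 1, 0) := by
        have := pth_even m 0
        simp only [Nat.mul_zero, Nat.sub_zero] at this
        rw [hX, this]
      have hm0 : X 0 (by omega) ∈ univ.filter fun x => (W x).1 = a := by
        simp only [mem_filter, mem_univ, true_and, hX0]
        omega
      have he : y = X 0 (by omega) := Finset.card_le_one.1 (by omega) _ hyin _ hm0
      have hk0 : k = 0 := by
        rw [he, hX0] at hy2
        simpa using hy2.symm
      subst hk0
      exact hne he
    · obtain ⟨u, hu⟩ : ∃ u, u = m - 1 - a := ⟨_, rfl⟩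
      have hu1 : 1 ≤ u := by omega
      have huk : u ≤ k := by omega
      have hc1 : (univ.filter fun x => (W x).1 = a).card = 2 := by
        rw [h1 a, if_pos (by omega)]
      have hXu : W (X (2 * u) (by omega)) = (a, u) := by
        rw [hX, pth_even]
        exact Prod.ext (by show m - 1 - u = a; omega) rfl
      have hXv : W (X (2 * (u - 1) + 1) (by omega)) = (a, u - 1) := by
        rw [hX, pth_odd]
        exact Prod.ext (by show m - 2 - (u - 1) = a; omega) rfl
      have hmu : X (2 * u) (by omega) ∈ univ.filter fun x => (W x).1 = a := by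
        simp [hXu]
      have hmv : X (2 * (u - 1) + 1) (by omega) ∈ univ.filter fun x => (W x).1 = a := by
        simp [hXv]
      have huv : X (2 * u) (by omega) ≠ X (2 * (u - 1) + 1) (by omega) := by
        intro e
        have h3 := congrArg (fun x => (W x).2) e
        simp only [hXu, hXv] at h3
        omega
      rcases mem_pair_of_card_two hc1 hmu hmv huv hyin with e | e
      · have h3 := hy2
        rw [e, hXu] at h3
        simp only at h3
        subst h3
        exact hne e
      · have h3 := hy2
        rw [e, hXv] at h3
        simp only at h3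
        omega
  have hfirst : ∀ i (hi : i < 2 * k + 1), m - 1 - k ≤ (W (X i hi)).1 := by
    intro i hi
    rw [hX]
    rcases Nat.even_or_odd' i with ⟨u, rfl | rfl⟩
    · rw [pth_even]
      show m - 1 - k ≤ m - 1 - u
      omega
    · rw [pth_odd]
      show m - 1 - k ≤ m - 2 - u
      omega
  by_cases hak : (W y).1 + k + 2 = m
  · apply IH W h1 h2
    intro i hi
    by_cases hik : i < 2 * k + 1
    · exact ⟨X i hik, hX i hik⟩
    · have : i = 2 * k + 1 := by omega
      subst this
      exact ⟨y, by
        rw [pth_odd]
        exact Prod.ext (by show (W y).1 = m - 2 - k; omega) hy2⟩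
  · have h3 : (W y).1 + k + 2 < m := by omega
    rw [← H1a W (W y).1 (m - 2 - k) (by omega) (by omega)]
    apply IH (fun x => (Equiv.swap (W y).1 (m - 2 - k) (W x).1, (W x).2))
      (std_swap h1 (by omega) (by omega)) h2
    intro i hi
    by_cases hik : i < 2 * k + 1
    · refine ⟨X i hik, ?_⟩
      have h4 := hfirst i hik
      have h5 : Equiv.swap (W y).1 (m - 2 - k) (W (X i hik)).1 = (W (X i hik)).1 :=
        Equiv.swap_apply_of_ne_of_ne (by omega) (by omega)
      rw [h5]
      exact hX i hik
    · have : i = 2 * k + 1 := by omega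
      subst this
      refine ⟨y, ?_⟩
      rw [pth_odd, Equiv.swap_apply_left]
      exact Prod.ext rfl hy2

/-- **Concentration lemma.** A function on words in pairs which is invariant under swapping letters
below the top in each coordinate, which satisfies the three term relation in the second coordinate
and which vanishes on all words containing every letter of the path, vanishes on all words of
the standard content. -/
theorem concentration (m : ℕ) (hm : 1 ≤ m) (hn : n + 1 = 2 * m) (F : (Fin n → ℕ × ℕ) → ℤ)
    (H1a : ∀ (W : Fin n → ℕ × ℕ) (a b : ℕ), a + 1 < m → b + 1 < m →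
      F (fun x => (Equiv.swap a b (W x).1, (W x).2)) = F W)
    (H1b : ∀ (W : Fin n → ℕ × ℕ) (a b : ℕ), a + 1 < m → b + 1 < m →
      F (fun x => ((W x).1, Equiv.swap a b (W x).2)) = F W)
    (H2 : ∀ (W : Fin n → ℕ × ℕ) (b : ℕ), (univ.filter fun x => (W x).2 = b).card = 3 →
      ∑ x ∈ univ.filter (fun x => (W x).2 = b), F (Function.update W x ((W x).1, m - 1)) = 0)
    (Hpath : ∀ W : Fin n → ℕ × ℕ, (∀ j, j < 2 * m - 1 → ∃ x, W x = pth m j) → F W = 0)
    (W : Fin n → ℕ × ℕ) (h1 : Std m fun x => (W x).1) (h2 : Std m fun x => (W x).2) : F W = 0 := by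
  have key : ∀ d j, j + d = 2 * m - 1 → ∀ W : Fin n → ℕ × ℕ, (Std m fun x => (W x).1) →
      (Std m fun x => (W x).2) → (∀ i, i < j → ∃ x, W x = pth m i) → F W = 0 := by
    intro d
    induction d with
    | zero =>
      intro j hj W _ _ hx
      apply Hpath
      intro i hi
      exact hx i (by omega)
    | succ d ih =>
      intro j hj W h1 h2 hx
      have IH := ih (j + 1) (by omega)
      rcases Nat.even_or_odd' j with ⟨k, rfl | rfl⟩
      · exact step_even (by omega) F H1b H2 IH W h1 h2 hx
      · exact step_odd (by omega) F H1a IH W h1 h2 hx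
  exact key (2 * m - 1) 0 (by omega) W h1 h2 (by intro i hi; omega)

/-- A word containing all letters of the path has only letters of the path, on two lines. -/
theorem path_lines (m : ℕ) (hm : 1 ≤ m) (hn : n + 1 = 2 * m) (W : Fin n → ℕ × ℕ)
    (h : ∀ j, j < 2 * m - 1 → ∃ x, W x = pth m j) (x : Fin n) :
    m ≤ (W x).1 + (W x).2 + 2 ∧ (W x).1 + (W x).2 + 1 ≤ m := by
  classical
  have hinj : ∀ i j, i < 2 * m - 1 → j < 2 * m - 1 → pth m i = pth m j → i = j := by
    intro i j hi hj hij
    unfold pth at hij
    split_ifs at hij <;> (simp only [Prod.mk.injEq] at hij; omega)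
  have : Nonempty (Fin n) := ⟨x⟩
  choose! f hf using h
  let g : Fin n → Fin n := fun i => f i.1
  have hg : Function.Injective g := by
    intro a b hab
    have ha : a.1 < 2 * m - 1 := by have := a.2; omega
    have hb : b.1 < 2 * m - 1 := by have := b.2; omega
    have h1 : pth m a.1 = pth m b.1 := by
      rw [← hf a.1 ha, ← hf b.1 hb]
      exact congrArg W hab
    exact Fin.ext (hinj _ _ ha hb h1)
  have hs := Finite.surjective_of_injective hg
  obtain ⟨i, hi⟩ := hs x
  have hlt : i.1 < 2 * m - 1 := by have := i.2; omega
  have hW : W x = pth m i.1 := by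
    rw [← hi]
    exact hf i.1 hlt
  rw [hW]
  unfold pth
  split_ifs <;> simp only <;> omega

end Vale.Agent.Lib.P197Z
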