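import Vale.Agent.Lib.P197X.Peel
import Vale.Agent.Lib.P197W.Conj

/-!
# P197Z: Saxl for all staircases (blueprint notes/P197Z_blueprint.md): definitions
-/

open Equiv Finset

namespace Vale.Agent.Lib.P197Z

open Vale.Agent.Lib.P197 Vale.Agent.Lib.P197W Vale.Agent.Lib.P197X

variable {n : ℕ}

/-- The coefficient of the word `w` in the polytabloid of the row and column functions `r`, `c`. -/
def pt (r c w : Fin n → ℕ) : ℤ :=
  ∑ q ∈ colS c, sgnZ q * (if ∀ x, r (q x) = w x then 1 else 0)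

/-- The product of two polytabloid coefficients on a word in pairs. -/
def ptt (r₁ c₁ r₂ c₂ : Fin n → ℕ) (W : Fin n → ℕ × ℕ) : ℤ :=
  pt r₁ c₁ (fun x => (W x).1) * pt r₂ c₂ (fun x => (W x).2)

/-- The Young symmetrizer of `r₃`, `c₃` applied to a function on words in pairs. -/
def YY (r₃ c₃ : Fin n → ℕ) (Φ : (Fin n → ℕ × ℕ) → ℤ) (W : Fin n → ℕ × ℕ) : ℤ :=
  ∑ ρ ∈ colS r₃, ∑ q ∈ colS c₃, sgnZ q * Φ (fun x => W (ρ (q x)))

/-- Row and column functions of a filling of the two column shape with heights `m`, `m - 1`. -/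
structure TwoCol (m : ℕ) (r c : Fin n → ℕ) : Prop where
  col : ∀ x, c x = 0 ∨ c x = 1
  inj : ∀ x y, r x = r y → c x = c y → x = y
  ex0 : ∀ a, a < m → ∃ x, c x = 0 ∧ r x = a
  ex1 : ∀ a, a + 1 < m → ∃ x, c x = 1 ∧ r x = a
  bd0 : ∀ x, c x = 0 → r x < m
  bd1 : ∀ x, c x = 1 → r x + 1 < m

/-- The letters of the path `(m-1,0), (m-2,0), (m-2,1), (m-3,1), ..., (0,m-1)`. -/
def pth (m j : ℕ) : ℕ × ℕ :=
  if j % 2 = 0 then (m - 1 - j / 2, j / 2) else (m - 2 - j / 2, j / 2)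

/-- The content of a word of the two column shape: letters below `m - 1` twice, `m - 1` once. -/
def Std (m : ℕ) (w : Fin n → ℕ) : Prop :=
  ∀ a, (univ.filter fun x => w x = a).card = if a + 1 < m then 2 else if a + 1 = m then 1 else 0

/-- A chain of layers of sizes `2 t - 1`, `2 t - 5`, ... with at most four cells per column. -/
inductive Layerable : ℕ → YoungDiagram → Prop
  | zero (ν : YoungDiagram) (h : ν.card = 0) : Layerable 0 ν
  | step {t : ℕ} (ν β : YoungDiagram) (ht : 1 ≤ t) (hle : ∀ c, c ∈ β → c ∈ ν)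
      (hcard : ν.card = β.card + (2 * t - 1))
      (hcol : ∀ j, ν.colLen j ≤ β.colLen j + 4) (h : Layerable (t - 2) β) : Layerable t ν

/-- The third filling is the union of an inner filling and a layer. -/
structure IsLayer {N k l : ℕ} (e : Fin N ≃ Fin k ⊕ Fin l) (r c : Fin k → ℕ) (r' c' : Fin l → ℕ)
    (rp cp : Fin N → ℕ) (h : ℕ → ℕ) : Prop where
  row_inl : ∀ x, rp (e.symm (Sum.inl x)) = r x
  row_inr : ∀ y, rp (e.symm (Sum.inr y)) = r' y
  col_inl : ∀ x, cp (e.symm (Sum.inl x)) = c x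
  col_inr : ∀ y, cp (e.symm (Sum.inr y)) = c' y
  lt_inl : ∀ x, r x < h (c x)
  ge_inr : ∀ y, h (c' y) ≤ r' y

end Vale.Agent.Lib.P197Z
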