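import Vale.Agent.Lib.P197Z.Defs
import Vale.Agent.Lib.P197Y.Step

/-!
# P197Z: the Pieri step (helper47, notes/P197P_pieri_blueprint.md)
-/

open Equiv Finset

namespace Vale.Agent.Lib.P197Z

open Vale.Agent.Lib.P197 Vale.Agent.Lib.P197W Vale.Agent.Lib.P197X

/-- **Pieri step.** -/
theorem pieri_step (m : ℕ) (b bp : YoungDiagram) (hb : PosS m b) (hc : b.card = NN m)
    (hle : ∀ c, c ∈ b → c ∈ bp) (hcard : bp.card = b.card + (m + 1))
    (hstrip : ∀ j, bp.colLen j ≤ b.colLen j + 1) : PosS (m + 1) bp := by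
  have hs : Vale.Agent.Lib.P197Y.IsHStrip b bp := by
    refine ⟨fun c hc' => hle c hc', ?_⟩
    intro c hc1 c' hc2 hcc
    have h1 : c ∈ bp := (Finset.mem_sdiff.1 hc1).1
    have h2 : c ∉ b := (Finset.mem_sdiff.1 hc1).2
    have h3 : c' ∈ bp := (Finset.mem_sdiff.1 hc2).1
    have h4 : c' ∉ b := (Finset.mem_sdiff.1 hc2).2
    have key : ∀ d : ℕ × ℕ, d ∈ bp → d ∉ b → d.1 = b.colLen d.2 := by
      intro d hd hd'
      have h5 : d.1 < bp.colLen d.2 := YoungDiagram.mem_iff_lt_colLen.1 hd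
      have h6 : ¬ d.1 < b.colLen d.2 := fun h => hd' (YoungDiagram.mem_iff_lt_colLen.2 h)
      have h7 := hstrip d.2
      omega
    have h5 := key c h1 h2
    have h6 := key c' h3 h4
    refine Prod.ext ?_ hcc
    rw [h5, h6, hcc]
  have hb1 : b.card = m * (m + 1) / 2 := hc
  have hb2 : bp.card = (m + 1) * (m + 1 + 1) / 2 := by
    rw [hcard, hc]
    simp only [NN]
    have h3 : (m + 1) * (m + 1 + 1) = m * (m + 1) + 2 * (m + 1) := by ring
    rw [h3, Nat.add_mul_div_left _ _ (by norm_num)]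
  exact Vale.Agent.Lib.P197Y.pieri_step m b bp hb1 hb2 hs hb

/-- Removing the last cell of the rightmost `t` columns. -/
theorem exists_strip (t : ℕ) (ν : YoungDiagram) (h : t ≤ ν.rowLen 0) :
    ∃ β : YoungDiagram, (∀ c, c ∈ β → c ∈ ν) ∧ ν.card = β.card + t ∧
      ∀ j, ν.colLen j ≤ β.colLen j + 1 := by
  classical
  set R := ν.rowLen 0 with hR
  let β : YoungDiagram :=
    { cells := ν.cells.filter fun c => ¬ (R - t ≤ c.2 ∧ c.1 + 1 = ν.colLen c.2)
      isLowerSet := by
        intro a b hab ha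
        simp only [coe_filter, Set.mem_setOf_eq] at ha ⊢
        obtain ⟨ha1, ha2⟩ := ha
        have hb1 : b ∈ ν.cells := ν.isLowerSet hab ha1
        refine ⟨hb1, ?_⟩
        rintro ⟨hb2, hb3⟩
        apply ha2
        have hle1 : b.1 ≤ a.1 := hab.1
        have hle2 : b.2 ≤ a.2 := hab.2
        have hmem : (a.1, a.2) ∈ ν := ha1
        have hlt : a.1 < ν.colLen a.2 := YoungDiagram.mem_iff_lt_colLen.mp hmem
        have hanti : ν.colLen a.2 ≤ ν.colLen b.2 := ν.colLen_anti _ _ hle2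
        refine ⟨le_trans hb2 hle2, ?_⟩
        omega }
  have hmemβ : ∀ c, c ∈ β ↔ c ∈ ν ∧ ¬ (R - t ≤ c.2 ∧ c.1 + 1 = ν.colLen c.2) := by
    intro c
    show c ∈ ν.cells.filter _ ↔ _
    simp only [mem_filter]
    rfl
  refine ⟨β, fun c hc => ((hmemβ c).1 hc).1, ?_, ?_⟩
  · -- the removed cells
    have hrem : ν.cells.filter (fun c => R - t ≤ c.2 ∧ c.1 + 1 = ν.colLen c.2)
        = (Finset.Ico (R - t) R).image (fun j => (ν.colLen j - 1, j)) := by
      ext ⟨i, j⟩
      simp only [mem_filter, mem_image, mem_Ico, Prod.mk.injEq]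
      constructor
      · rintro ⟨hc, h1, h2⟩
        have hc' : (i, j) ∈ ν := hc
        have hj : j < ν.rowLen i := YoungDiagram.mem_iff_lt_rowLen.mp hc'
        have hanti : ν.rowLen i ≤ ν.rowLen 0 := ν.rowLen_anti _ _ (Nat.zero_le _)
        exact ⟨j, ⟨h1, lt_of_lt_of_le hj hanti⟩, by omega, rfl⟩
      · rintro ⟨j', ⟨h1, h2⟩, h3, rfl⟩
        have hpos : (0, j') ∈ ν := YoungDiagram.mem_iff_lt_rowLen.mpr h2
        have hlt : 0 < ν.colLen j' := YoungDiagram.mem_iff_lt_colLen.mp hpos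
        have hi : i < ν.colLen j' := by omega
        refine ⟨YoungDiagram.mem_iff_lt_colLen.mpr hi, h1, ?_⟩
        omega
    have hcardrem : (ν.cells.filter (fun c => R - t ≤ c.2 ∧ c.1 + 1 = ν.colLen c.2)).card = t := by
      rw [hrem, card_image_of_injective]
      · simp only [Nat.card_Ico]
        omega
      · intro a b hab
        exact (Prod.mk.inj hab).2
    have hsplit := Finset.card_filter_add_card_filter_not (s := ν.cells)
      (fun c => R - t ≤ c.2 ∧ c.1 + 1 = ν.colLen c.2)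
    have hβcard : β.card = (ν.cells.filter fun c => ¬ (R - t ≤ c.2 ∧ c.1 + 1 = ν.colLen c.2)).card := rfl
    have hνcard : ν.card = ν.cells.card := rfl
    omega
  · intro j
    by_cases h2 : ν.colLen j ≤ 1
    · omega
    · have hlt : ν.colLen j - 2 < ν.colLen j := by omega
      have hmem : (ν.colLen j - 2, j) ∈ ν := YoungDiagram.mem_iff_lt_colLen.mpr hlt
      have hβ : (ν.colLen j - 2, j) ∈ β := by
        rw [hmemβ]
        refine ⟨hmem, ?_⟩
        rintro ⟨_, h4⟩
        simp only at h4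
        omega
      have := YoungDiagram.mem_iff_lt_colLen.mp hβ
      omega

end Vale.Agent.Lib.P197Z
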