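import Vale.Agent.Lib.P197Z.Assemble
import Vale.Agent.Lib.P197Z.PieriStep

/-!
# P197Z: Saxl for all staircases
-/

open Equiv Finset

namespace Vale.Agent.Lib.P197Z

open Vale.Agent.Lib.P197 Vale.Agent.Lib.P197W Vale.Agent.Lib.P197X

theorem PosS_of_KP {m : ℕ} {ν : YoungDiagram} (h : KP (staircase m) (staircase m) ν) : PosS m ν :=
  fun T₁ T₂ T₃ => KP_all h T₁ T₂ T₃

/-- **Saxl for all staircases.** -/
theorem saxl_all : ∀ (m : ℕ) (ν : YoungDiagram), ν.card = NN m → PosS m ν := by
  intro m
  induction m with
  | zero =>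
    intro ν hν
    apply PosS_of_KP
    apply kp_of_rows 0 ν hν
    have h : ν.colLen 0 = 0 := by
      by_contra hne
      have h1 : (0, 0) ∈ ν := YoungDiagram.mem_iff_lt_colLen.2 (Nat.pos_of_ne_zero hne)
      have h2 : 0 < ν.card := Finset.card_pos.2 ⟨(0, 0), h1⟩
      simp only [NN] at hν
      omega
    omega
  | succ k ih =>
    have hN : NN (k + 1) = NN k + (k + 1) := by
      simp only [NN]
      have h3 : (k + 1) * (k + 1 + 1) = k * (k + 1) + 2 * (k + 1) := by ring
      rw [h3, Nat.add_mul_div_left _ _ (by norm_num)]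
    have main : ∀ ν : YoungDiagram, ν.card = NN (k + 1) → k + 1 ≤ ν.rowLen 0 → PosS (k + 1) ν := by
      intro ν hν hr
      obtain ⟨β, hle, hcard, hcol⟩ := exists_strip (k + 1) ν hr
      have hβ : β.card = NN k := by omega
      exact pieri_step k β ν (ih β hβ) hβ hle hcard hcol
    intro ν hν
    by_cases h1 : k + 1 ≤ ν.rowLen 0
    · exact main ν hν h1
    by_cases h2 : k + 1 ≤ ν.colLen 0
    · have ht : (ν.transpose).card = NN (k + 1) := by
        rw [← hν]
        show ν.transpose.cells.card = ν.cells.card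
        rw [YoungDiagram.transpose]
        exact Finset.card_map _
      have hr : k + 1 ≤ (ν.transpose).rowLen 0 := by
        rw [YoungDiagram.rowLen_transpose]
        exact h2
      have := posS_transpose (k + 1) _ (main _ ht hr)
      rwa [YoungDiagram.transpose_transpose] at this
    · exact PosS_of_KP (kp_of_rows (k + 1) ν hν (by omega))

end Vale.Agent.Lib.P197Z
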