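import Vale.Agent.Lib.P197Z.Defs

/-!
# P197Z: the polynomial and the Young symmetrizer (blueprint Sec 1)
-/

open Equiv Finset MvPolynomial

namespace Vale.Agent.Lib.P197Z

open Vale.Agent.Lib.P197 Vale.Agent.Lib.P197W Vale.Agent.Lib.P197X

variable {n : ℕ}

/-- The colouring of positions attached to a word and a row function. -/
def tau0 (W : Fin n → ℕ × ℕ) (r₃ : Fin n → ℕ) : Fin n → ℕ × ℕ × ℕ :=
  fun x => ((W x).1, (W x).2, r₃ x)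

/-- The colouring attached to three column permutations. -/
def tauQ (r₁ r₂ r₃ : Fin n → ℕ) (q₁ q₂ q : Perm (Fin n)) : Fin n → ℕ × ℕ × ℕ :=
  fun x => (r₁ (q₁ x), r₂ (q₂ x), r₃ (q x))

/-- The coefficients of the polynomial. -/
theorem coeff_polyF (r₁ c₁ r₂ c₂ r₃ c₃ : Fin n → ℕ) (m : ℕ × ℕ × ℕ →₀ ℕ) :
    coeff m (polyF r₁ c₁ r₂ c₂ r₃ c₃) =
      ∑ q₁ ∈ colS c₁, ∑ q₂ ∈ colS c₂, ∑ q ∈ colS c₃,
        sgnZ q₁ * sgnZ q₂ * sgnZ q * (if degF (tauQ r₁ r₂ r₃ q₁ q₂ q) = m then 1 else 0) := by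
  classical
  unfold polyF
  simp only [coeff_sum]
  refine Finset.sum_congr rfl fun q₁ _ => Finset.sum_congr rfl fun q₂ _ =>
    Finset.sum_congr rfl fun q _ => ?_
  rw [coeff_C_mul]
  have h := prod_X_eq (tauQ r₁ r₂ r₃ q₁ q₂ q)
  simp only [tauQ] at h ⊢
  rw [h, coeff_monomial]

/-- The count of row permutations. -/
theorem count_rho (r₁ r₂ r₃ : Fin n → ℕ) (W : Fin n → ℕ × ℕ) (q₁ q₂ q : Perm (Fin n)) :
    ∑ ρ ∈ colS r₃, (if ∀ x, r₁ (q₁ x) = (W (ρ (q x))).1 then (1 : ℤ) else 0) *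
        (if ∀ x, r₂ (q₂ x) = (W (ρ (q x))).2 then 1 else 0) =
      (nF (tau0 W r₃) (tauQ r₁ r₂ r₃ q₁ q₂ q) : ℤ) := by
  classical
  have h1 : ∀ ρ : Perm (Fin n),
      (if ∀ x, r₁ (q₁ x) = (W (ρ (q x))).1 then (1 : ℤ) else 0) *
        (if ∀ x, r₂ (q₂ x) = (W (ρ (q x))).2 then 1 else 0) =
      if (∀ x, r₁ (q₁ x) = (W (ρ (q x))).1) ∧ (∀ x, r₂ (q₂ x) = (W (ρ (q x))).2) then 1 else 0 := by
    intro ρ
    by_cases a : ∀ x, r₁ (q₁ x) = (W (ρ (q x))).1 <;>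
      by_cases b : ∀ x, r₂ (q₂ x) = (W (ρ (q x))).2 <;> simp [a, b]
  simp only [h1]
  rw [Finset.sum_boole]
  congr 1
  unfold nF
  refine Finset.card_bij (fun ρ _ => ρ * q) ?_ ?_ ?_
  · intro ρ hρ
    simp only [mem_filter, colS, mem_univ, true_and] at hρ ⊢
    intro x
    simp only [tau0, tauQ, Perm.mul_apply, Prod.mk.injEq]
    exact ⟨(hρ.2.1 x).symm, (hρ.2.2 x).symm, hρ.1 (q x)⟩
  · intro a _ b _ hab
    exact mul_right_cancel hab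
  · intro π hπ
    simp only [mem_filter, mem_univ, true_and] at hπ
    refine ⟨π * q⁻¹, ?_, by simp⟩
    simp only [mem_filter, colS, mem_univ, true_and]
    have hπ' : ∀ x, (W (π x)).1 = r₁ (q₁ x) ∧ (W (π x)).2 = r₂ (q₂ x) ∧ r₃ (π x) = r₃ (q x) := by
      intro x
      have := hπ x
      simpa [tau0, tauQ, Prod.mk.injEq] using this
    refine ⟨?_, ?_, ?_⟩
    · intro x
      have := (hπ' (q⁻¹ x)).2.2
      simpa [Perm.mul_apply] using this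
    · intro x
      simpa [Perm.mul_apply] using (hπ' x).1.symm
    · intro x
      simpa [Perm.mul_apply] using (hπ' x).2.1.symm

/-- Exchange of four sums. -/
private theorem sum4_comm {A B C D : Type*} (R : Finset A) (Q : Finset B) (Q₁ : Finset C)
    (Q₂ : Finset D) (t : A → B → C → D → ℤ) :
    ∑ ρ ∈ R, ∑ q ∈ Q, ∑ q₁ ∈ Q₁, ∑ q₂ ∈ Q₂, t ρ q q₁ q₂ =
      ∑ q₁ ∈ Q₁, ∑ q₂ ∈ Q₂, ∑ q ∈ Q, ∑ ρ ∈ R, t ρ q q₁ q₂ := by
  rw [Finset.sum_comm]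
  calc ∑ q ∈ Q, ∑ ρ ∈ R, ∑ q₁ ∈ Q₁, ∑ q₂ ∈ Q₂, t ρ q q₁ q₂
      = ∑ q ∈ Q, ∑ q₁ ∈ Q₁, ∑ q₂ ∈ Q₂, ∑ ρ ∈ R, t ρ q q₁ q₂ := by
        refine Finset.sum_congr rfl fun q _ => ?_
        rw [Finset.sum_comm]
        refine Finset.sum_congr rfl fun q₁ _ => ?_
        rw [Finset.sum_comm]
    _ = ∑ q₁ ∈ Q₁, ∑ q ∈ Q, ∑ q₂ ∈ Q₂, ∑ ρ ∈ R, t ρ q q₁ q₂ := Finset.sum_comm
    _ = _ := by
        refine Finset.sum_congr rfl fun q₁ _ => ?_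
        rw [Finset.sum_comm]

/-- The symmetrizer on a word is a multiple of a coefficient of the polynomial. -/
theorem YY_eq_coeff (r₁ c₁ r₂ c₂ r₃ c₃ : Fin n → ℕ) (W : Fin n → ℕ × ℕ) :
    YY r₃ c₃ (ptt r₁ c₁ r₂ c₂) W =
      (wF (n := n) (degF (tau0 W r₃)) : ℤ) * coeff (degF (tau0 W r₃)) (polyF r₁ c₁ r₂ c₂ r₃ c₃) := by
  classical
  rw [coeff_polyF]
  have h1 : YY r₃ c₃ (ptt r₁ c₁ r₂ c₂) W =
      ∑ q₁ ∈ colS c₁, ∑ q₂ ∈ colS c₂, ∑ q ∈ colS c₃, sgnZ q₁ * sgnZ q₂ * sgnZ q *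
        ∑ ρ ∈ colS r₃, (if ∀ x, r₁ (q₁ x) = (W (ρ (q x))).1 then (1 : ℤ) else 0) *
          (if ∀ x, r₂ (q₂ x) = (W (ρ (q x))).2 then 1 else 0) := by
    unfold YY ptt pt
    have inner : ∀ (ρ q : Perm (Fin n)),
        sgnZ q * ((∑ q₁ ∈ colS c₁, sgnZ q₁ *
            (if ∀ x, r₁ (q₁ x) = (W (ρ (q x))).1 then (1 : ℤ) else 0)) *
          (∑ q₂ ∈ colS c₂, sgnZ q₂ *
            (if ∀ x, r₂ (q₂ x) = (W (ρ (q x))).2 then (1 : ℤ) else 0))) =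
        ∑ q₁ ∈ colS c₁, ∑ q₂ ∈ colS c₂, sgnZ q₁ * sgnZ q₂ * sgnZ q *
          ((if ∀ x, r₁ (q₁ x) = (W (ρ (q x))).1 then (1 : ℤ) else 0) *
            (if ∀ x, r₂ (q₂ x) = (W (ρ (q x))).2 then 1 else 0)) := by
      intro ρ q
      rw [Finset.sum_mul_sum, Finset.mul_sum]
      refine Finset.sum_congr rfl fun q₁ _ => ?_
      rw [Finset.mul_sum]
      refine Finset.sum_congr rfl fun q₂ _ => ?_
      ring
    refine (Finset.sum_congr rfl fun ρ _ => Finset.sum_congr rfl fun q _ => inner ρ q).trans ?_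
    rw [sum4_comm]
    refine Finset.sum_congr rfl fun q₁ _ => Finset.sum_congr rfl fun q₂ _ =>
      Finset.sum_congr rfl fun q _ => ?_
    rw [Finset.mul_sum]
  rw [h1]
  simp only [count_rho, Finset.mul_sum]
  refine Finset.sum_congr rfl fun q₁ _ => Finset.sum_congr rfl fun q₂ _ =>
    Finset.sum_congr rfl fun q _ => ?_
  by_cases hd : degF (tauQ r₁ r₂ r₃ q₁ q₂ q) = degF (tau0 W r₃)
  · rw [if_pos hd, nF_eq_wF hd.symm]
    ring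
  · rw [if_neg hd, nF_eq_zero (fun h => hd h.symm)]
    simp

/-- The polynomial is non zero iff the Young symmetrizer is non zero on a word. -/
theorem polyF_ne_zero_iff (r₁ c₁ r₂ c₂ r₃ c₃ : Fin n → ℕ) :
    polyF r₁ c₁ r₂ c₂ r₃ c₃ ≠ 0 ↔ ∃ W, YY r₃ c₃ (ptt r₁ c₁ r₂ c₂) W ≠ 0 := by
  classical
  constructor
  · intro h
    obtain ⟨m, hm₀⟩ := MvPolynomial.exists_coeff_ne_zero h
    have hm := hm₀
    rw [coeff_polyF] at hm
    obtain ⟨q₁, _, hm⟩ := Finset.exists_ne_zero_of_sum_ne_zero hm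
    obtain ⟨q₂, _, hm⟩ := Finset.exists_ne_zero_of_sum_ne_zero hm
    obtain ⟨q, _, hm⟩ := Finset.exists_ne_zero_of_sum_ne_zero hm
    have hd : degF (tauQ r₁ r₂ r₃ q₁ q₂ q) = m := by
      by_contra hd
      rw [if_neg hd, mul_zero] at hm
      exact hm rfl
    refine ⟨fun x => (r₁ (q₁ (q⁻¹ x)), r₂ (q₂ (q⁻¹ x))), ?_⟩
    set W : Fin n → ℕ × ℕ := fun x => (r₁ (q₁ (q⁻¹ x)), r₂ (q₂ (q⁻¹ x))) with hW
    have hdeg : degF (tau0 W r₃) = m := by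
      rw [← hd]
      apply degF_eq_of_perm (π := q)
      intro x
      simp [tau0, tauQ, hW]
    rw [YY_eq_coeff, hdeg]
    have hwF : (wF (n := n) m : ℤ) ≠ 0 := by
      have := wF_pos (n := n) m
      exact_mod_cast this.ne'
    exact mul_ne_zero hwF hm₀
  · rintro ⟨W, hW⟩ h0
    rw [YY_eq_coeff, h0] at hW
    simp at hW

end Vale.Agent.Lib.P197Z
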