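import Vale.Agent.Lib.P197W.Defs

/-!
# P197Z, route C: the labels of the path
-/

namespace Vale.Agent.Lib.P197Z.RouteC

/-- The row in the first shape of the path label `k`, for a path with `l` labels. -/
def pa (l k : ℕ) : ℕ := if k % 2 = 0 ∧ k + 1 ≠ l then 1 else 0

/-- The column in the first shape of the path label `k`. -/
def pca (k : ℕ) : ℕ := k / 2

/-- The row in the second shape of the path label `k`. -/
def pb (k : ℕ) : ℕ := if k % 2 = 0 ∧ k ≠ 0 then 1 else 0

/-- The column in the second shape of the path label `k`. -/
def pcb (t k : ℕ) : ℕ := t - 1 - (k + 1) / 2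

end Vale.Agent.Lib.P197Z.RouteC
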